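import Vale.Agent.P200H.InEqG

/-!
# Graded Betti numbers through the Koszul complex of the variables
-/

namespace Vale.Agent.P200H

open MvPolynomial Module Vale.Agent.P200 Vale.Agent.P200G

variable {K : Type*} [Field K]

/-- The Koszul differential `K₁ → K₀` of `x₀, x₁, x₂` over `S = K[x₀, x₁, x₂]`, as a function. -/
noncomputable def kf1 (a : Fin 3 → Pol K) : Pol K := X 0 * a 0 + X 1 * a 1 + X 2 * a 2

/-- The Koszul differential `K₂ → K₁`, in the basis `e₁∧e₂, e₂∧e₀, e₀∧e₁` of `K₂`, as a function. -/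
noncomputable def kf2 (a : Fin 3 → Pol K) : Fin 3 → Pol K :=
  ![X 2 * a 1 - X 1 * a 2, X 0 * a 2 - X 2 * a 0, X 1 * a 0 - X 0 * a 1]

/-- The Koszul differential `K₃ → K₂`, as a function. -/
noncomputable def kf3 (a : Pol K) : Fin 3 → Pol K := ![X 0 * a, X 1 * a, X 2 * a]

theorem kf1_add (a b : Fin 3 → Pol K) : kf1 (a + b) = kf1 a + kf1 b := by
  simp only [kf1, Pi.add_apply]
  ring

theorem kf1_smul (r : K) (a : Fin 3 → Pol K) : kf1 (r • a) = r • kf1 a := by
  simp only [kf1, Pi.smul_apply, mul_smul_comm, smul_add]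

theorem kf2_add (a b : Fin 3 → Pol K) : kf2 (a + b) = kf2 a + kf2 b := by
  funext i
  fin_cases i <;> simp [kf2] <;> ring

theorem kf2_smul (r : K) (a : Fin 3 → Pol K) : kf2 (r • a) = r • kf2 a := by
  funext i
  fin_cases i <;> simp [kf2, mul_smul_comm, smul_sub]

theorem kf3_add (a b : Pol K) : kf3 (a + b) = kf3 a + kf3 b := by
  funext i
  fin_cases i <;> simp [kf3, mul_add]

theorem kf3_smul (r : K) (a : Pol K) : kf3 (r • a) = r • kf3 a := by
  funext i
  fin_cases i <;> simp [kf3, mul_smul_comm]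

/-- The Koszul differential `K₁ → K₀`. -/
noncomputable def kd1 : (Fin 3 → Pol K) →ₗ[K] Pol K where
  toFun := kf1
  map_add' := kf1_add
  map_smul' := kf1_smul

/-- The Koszul differential `K₂ → K₁`. -/
noncomputable def kd2 : (Fin 3 → Pol K) →ₗ[K] (Fin 3 → Pol K) where
  toFun := kf2
  map_add' := kf2_add
  map_smul' := kf2_smul

/-- The Koszul differential `K₃ → K₂`. -/
noncomputable def kd3 : Pol K →ₗ[K] (Fin 3 → Pol K) where
  toFun := kf3
  map_add' := kf3_add
  map_smul' := kf3_smul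

/-- The triples with all the entries in `V`. -/
noncomputable def Tp (V : Submodule K (Pol K)) : Submodule K (Fin 3 → Pol K) :=
  Submodule.pi Set.univ fun _ => V

/-- The triples with entries in the ideal. -/
noncomputable def TpI (I : Ideal (Pol K)) : Submodule K (Fin 3 → Pol K) :=
  Tp (I.restrictScalars K)

/-- The boundaries in `K₀` of internal degree `t`. -/
noncomputable def bd0 (I : Ideal (Pol K)) (t : ℕ) : Submodule K (Pol K) :=
  Sd K t ⊓ (LinearMap.range kd1 ⊔ I.restrictScalars K)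

/-- The cycles in `K₁`: triples of forms of degree `t` with differential in `I`. -/
noncomputable def cy1 (I : Ideal (Pol K)) (t : ℕ) : Submodule K (Fin 3 → Pol K) :=
  Tp (Sd K t) ⊓ (I.restrictScalars K).comap kd1

/-- The boundaries in `K₁`: triples of forms of degree `t` in the image of the next differential
plus the triples with entries in `I`. -/
noncomputable def bd1 (I : Ideal (Pol K)) (t : ℕ) : Submodule K (Fin 3 → Pol K) :=
  Tp (Sd K t) ⊓ (LinearMap.range kd2 ⊔ TpI I)

/-- The cycles in `K₂`. -/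
noncomputable def cy2 (I : Ideal (Pol K)) (t : ℕ) : Submodule K (Fin 3 → Pol K) :=
  Tp (Sd K t) ⊓ (TpI I).comap kd2

/-- The boundaries in `K₂`. -/
noncomputable def bd2 (I : Ideal (Pol K)) (t : ℕ) : Submodule K (Fin 3 → Pol K) :=
  Tp (Sd K t) ⊓ (LinearMap.range kd3 ⊔ TpI I)

/-- The cycles in `K₃`. -/
noncomputable def cy3 (I : Ideal (Pol K)) (t : ℕ) : Submodule K (Pol K) :=
  Sd K t ⊓ (TpI I).comap kd3

/-- The boundaries in `K₃`. -/
noncomputable def bd3 (I : Ideal (Pol K)) (t : ℕ) : Submodule K (Pol K) :=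
  Sd K t ⊓ I.restrictScalars K

/-- The number `koszulBetti I p t` is the dimension of the degree `p + t` part of the Koszul
homology `H_p(x₀, x₁, x₂; S/I)`, that is `β_{p, p+t}(S/I) = dim Tor_p^S(S/I, K)_{p+t}`. The
elements of `K_p` of internal degree `p + t` are the tuples of forms of degree `t`, the cycles are
the tuples whose differential has entries in `I`, and the boundaries are the tuples in the sum of
the image of the next differential and of the tuples with entries in `I`. -/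
noncomputable def koszulBetti (I : Ideal (Pol K)) : ℕ → ℕ → ℕ
  | 0, t => finrank K (Sd K t) - finrank K (bd0 I t)
  | 1, t => finrank K (cy1 I t) - finrank K (bd1 I t)
  | 2, t => finrank K (cy2 I t) - finrank K (bd2 I t)
  | 3, t => finrank K (cy3 I t) - finrank K (bd3 I t)
  | _, _ => 0

theorem mem_Tp {V : Submodule K (Pol K)} {a : Fin 3 → Pol K} : a ∈ Tp V ↔ ∀ i, a i ∈ V := by
  simp [Tp, Submodule.mem_pi]

theorem kd1_apply (a : Fin 3 → Pol K) : kd1 a = X 0 * a 0 + X 1 * a 1 + X 2 * a 2 := rfl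

theorem kd2_apply0 (a : Fin 3 → Pol K) : kd2 a 0 = X 2 * a 1 - X 1 * a 2 := rfl
theorem kd2_apply1 (a : Fin 3 → Pol K) : kd2 a 1 = X 0 * a 2 - X 2 * a 0 := rfl
theorem kd2_apply2 (a : Fin 3 → Pol K) : kd2 a 2 = X 1 * a 0 - X 0 * a 1 := rfl

theorem kd3_apply0 (a : Pol K) : kd3 a 0 = X 0 * a := rfl
theorem kd3_apply1 (a : Pol K) : kd3 a 1 = X 1 * a := rfl
theorem kd3_apply2 (a : Pol K) : kd3 a 2 = X 2 * a := rfl

theorem kd3_apply (a : Pol K) (i : Fin 3) : kd3 a i = X i * a := by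
  fin_cases i <;> rfl

theorem kd1_kd2 (a : Fin 3 → Pol K) : kd1 (kd2 a) = 0 := by
  rw [kd1_apply, kd2_apply0, kd2_apply1, kd2_apply2]
  ring

theorem kd2_kd3 (a : Pol K) : kd2 (kd3 a) = 0 := by
  funext i
  fin_cases i
  · show kd2 (kd3 a) 0 = 0
    rw [kd2_apply0, kd3_apply1, kd3_apply2]
    ring
  · show kd2 (kd3 a) 1 = 0
    rw [kd2_apply1, kd3_apply0, kd3_apply2]
    ring
  · show kd2 (kd3 a) 2 = 0
    rw [kd2_apply2, kd3_apply0, kd3_apply1]
    ring

theorem kd3_injective : Function.Injective (kd3 : Pol K →ₗ[K] (Fin 3 → Pol K)) := by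
  rw [injective_iff_map_eq_zero]
  intro a h
  have h0 := congrFun h 0
  rw [kd3_apply0] at h0
  exact (mul_eq_zero.mp h0).resolve_left (X_ne_zero 0)

theorem isReg3_X : IsReg3 ![1, 1, 1] ![(X 0 : Pol K), X 1, X 2] :=
  isReg3_mk (isHomogeneous_X K 0) (isHomogeneous_X K 1) (isHomogeneous_X K 2) one_pos one_pos one_pos
    (X_ne_zero 0) regX₁ regX₂

/-- The Koszul complex is exact at `K₁`. -/
theorem koszul_exact1 {t : ℕ} {a : Fin 3 → Pol K} (ha : a ∈ Tp (Sd K t)) (h : kd1 a = 0) :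
    ∃ b : Fin 3 → Pol K, (∀ i, HomZ (b i) ((t : ℤ) - 1)) ∧ kd2 b = a := by
  have ha' := mem_Tp.mp ha
  have hp := isReg3_X (K := K)
  have hc : ∀ i, HomZ (a i) (((t : ℤ) + 1) - (![1, 1, 1] : Fin 3 → ℕ) i) := by
    intro i
    have e : ((t : ℤ) + 1) - (![1, 1, 1] : Fin 3 → ℕ) i = (t : ℤ) := by
      fin_cases i <;> simp
    rw [e]
    exact homZ_nat.mpr (ha' i)
  have hs : ∑ i, a i * (![(X 0 : Pol K), X 1, X 2] : Fin 3 → Pol K) i = 0 := by
    rw [Fin.sum_univ_three]
    rw [kd1_apply] at h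
    simp only [Matrix.cons_val_zero, Matrix.cons_val_one, Matrix.cons_val]
    linear_combination h
  obtain ⟨w, hw, e0, e1, e2⟩ := hp.H1 hc hs
  refine ⟨fun i => - w i, ?_, ?_⟩
  · intro i
    have e : ((t : ℤ) + 1) - (((![1, 1, 1] : Fin 3 → ℕ) 0 : ℕ) + ((![1, 1, 1] : Fin 3 → ℕ) 1 : ℕ)
        + ((![1, 1, 1] : Fin 3 → ℕ) 2 : ℕ)) + (![1, 1, 1] : Fin 3 → ℕ) i = (t : ℤ) - 1 := by
      fin_cases i <;> simp <;> ring
    have := hw i
    rw [e] at this
    exact this.neg
  · funext i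
    fin_cases i
    · show kd2 _ 0 = a 0
      rw [kd2_apply0, e0]
      simp only [Matrix.cons_val_zero, Matrix.cons_val_one, Matrix.cons_val]
      ring
    · show kd2 _ 1 = a 1
      rw [kd2_apply1, e1]
      simp only [Matrix.cons_val_zero, Matrix.cons_val_one, Matrix.cons_val]
      ring
    · show kd2 _ 2 = a 2
      rw [kd2_apply2, e2]
      simp only [Matrix.cons_val_zero, Matrix.cons_val_one, Matrix.cons_val]
      ring

/-- The Koszul complex is exact at `K₂`. -/
theorem koszul_exact2 {t : ℕ} {a : Fin 3 → Pol K} (ha : a ∈ Tp (Sd K t)) (h : kd2 a = 0) :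
    ∃ g : Pol K, HomZ g ((t : ℤ) - 1) ∧ kd3 g = a := by
  have ha' := mem_Tp.mp ha
  have hp := isReg3_X (K := K)
  have hc : ∀ i, HomZ (a i) (((t : ℤ) - 1) + (![1, 1, 1] : Fin 3 → ℕ) i) := by
    intro i
    have e : ((t : ℤ) - 1) + (![1, 1, 1] : Fin 3 → ℕ) i = (t : ℤ) := by
      fin_cases i <;> simp
    rw [e]
    exact homZ_nat.mpr (ha' i)
  have h0 := congrFun h 0
  have h1 := congrFun h 1
  have h2 := congrFun h 2
  rw [kd2_apply0] at h0
  rw [kd2_apply1] at h1
  rw [kd2_apply2] at h2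
  simp only [Pi.zero_apply] at h0 h1 h2
  obtain ⟨g, hg, e0, e1, e2⟩ := hp.H2 hc
    (by
      simp only [Matrix.cons_val_zero, Matrix.cons_val_one, Matrix.cons_val]
      linear_combination -h2)
    (by
      simp only [Matrix.cons_val_zero, Matrix.cons_val_one, Matrix.cons_val]
      linear_combination -h1)
  refine ⟨g, hg, ?_⟩
  funext i
  fin_cases i
  · show kd3 g 0 = a 0
    rw [kd3_apply0, e0]
    simp only [Matrix.cons_val_zero, Matrix.cons_val_one, Matrix.cons_val]
    ring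
  · show kd3 g 1 = a 1
    rw [kd3_apply1, e1]
    simp only [Matrix.cons_val_zero, Matrix.cons_val_one, Matrix.cons_val]
    ring
  · show kd3 g 2 = a 2
    rw [kd3_apply2, e2]
    simp only [Matrix.cons_val_zero, Matrix.cons_val_one, Matrix.cons_val]
    ring

/-- The dimension of the triples. -/
theorem finrank_Tp (V : Submodule K (Pol K)) [FiniteDimensional K V] :
    finrank K (Tp V) = 3 * finrank K V := by
  let L : (Fin 3 → V) →ₗ[K] (Fin 3 → Pol K) :=
    LinearMap.pi fun i => V.subtype ∘ₗ LinearMap.proj i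
  have hL : ∀ a i, L a i = ((a i : V) : Pol K) := fun _ _ => rfl
  have hinj : Function.Injective L := by
    intro a b h
    funext i
    exact Subtype.ext (congrFun h i)
  have hrange : LinearMap.range L = Tp V := by
    ext a
    rw [mem_Tp]
    constructor
    · rintro ⟨b, rfl⟩ i
      exact (b i).2
    · intro h
      exact ⟨fun i => ⟨a i, h i⟩, rfl⟩
  rw [← hrange, LinearMap.finrank_range_of_inj hinj, Module.finrank_pi_fintype]
  simp

instance instFiniteTp (V : Submodule K (Pol K)) [FiniteDimensional K V] :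
    FiniteDimensional K (Tp V) := by
  let L : (Fin 3 → V) →ₗ[K] (Fin 3 → Pol K) :=
    LinearMap.pi fun i => V.subtype ∘ₗ LinearMap.proj i
  have hrange : LinearMap.range L = Tp V := by
    ext a
    rw [mem_Tp]
    constructor
    · rintro ⟨b, rfl⟩ i
      exact (b i).2
    · intro h
      exact ⟨fun i => ⟨a i, h i⟩, rfl⟩
  rw [← hrange]
  infer_instance

/-- Rank and nullity on a subspace. -/
theorem finrank_map_add_inf_ker {V W : Type*} [AddCommGroup V] [Module K V] [AddCommGroup W]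
    [Module K W] (f : V →ₗ[K] W) (Z : Submodule K V) [FiniteDimensional K Z] :
    finrank K (Z.map f) + finrank K ↥(Z ⊓ LinearMap.ker f) = finrank K Z := by
  have h := LinearMap.finrank_range_add_finrank_ker (f.domRestrict Z)
  rw [LinearMap.range_domRestrict, LinearMap.ker_domRestrict] at h
  have e : finrank K ↥((LinearMap.ker f).comap Z.subtype) = finrank K ↥(Z ⊓ LinearMap.ker f) := by
    have e1 : (LinearMap.ker f).comap Z.subtype = (Z ⊓ LinearMap.ker f).comap Z.subtype := by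
      ext x
      simp
    rw [e1]
    exact (Submodule.comapSubtypeEquivOfLe inf_le_left).finrank_eq
  omega

theorem single_kd1 (i : Fin 3) (g : Pol K) : kd1 (Pi.single i g) = X i * g := by
  rw [kd1_apply]
  fin_cases i <;> simp

theorem map_kd1_Tp (V : Submodule K (Pol K)) : (Tp V).map kd1 = up V := by
  apply le_antisymm
  · rintro _ ⟨a, ha, rfl⟩
    have ha' := mem_Tp.mp ha
    rw [kd1_apply]
    refine Submodule.add_mem _ (Submodule.add_mem _ ?_ ?_) ?_
    · exact mul_mem_up (isHomogeneous_X K 0) (ha' 0)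
    · exact mul_mem_up (isHomogeneous_X K 1) (ha' 1)
    · exact mul_mem_up (isHomogeneous_X K 2) (ha' 2)
  · refine Submodule.mul_le.mpr fun l hl g hg => lin_mul_mem hl fun i => ?_
    refine ⟨Pi.single i g, mem_Tp.mpr fun j => ?_, single_kd1 i g⟩
    by_cases hj : j = i
    · subst hj
      simpa using hg
    · simp [Pi.single_apply, hj]

theorem hc_X_mul (t : ℕ) (i : Fin 3) (q : Pol K) :
    homogeneousComponent (t + 1) (X i * q) = X i * homogeneousComponent t q := by
  rw [mul_comm, hc_mul (isHomogeneous_X K i), mul_comm]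

theorem hc_kd1 (t : ℕ) (v : Fin 3 → Pol K) :
    homogeneousComponent (t + 1) (kd1 v) = kd1 fun j => homogeneousComponent t (v j) := by
  rw [kd1_apply, kd1_apply, map_add, map_add, hc_X_mul, hc_X_mul, hc_X_mul]

theorem hc_kd2 (t : ℕ) (v : Fin 3 → Pol K) (i : Fin 3) :
    homogeneousComponent (t + 1) (kd2 v i) = kd2 (fun j => homogeneousComponent t (v j)) i := by
  fin_cases i
  · show homogeneousComponent (t + 1) (kd2 v 0) = kd2 _ 0
    rw [kd2_apply0, kd2_apply0, map_sub, hc_X_mul, hc_X_mul]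
  · show homogeneousComponent (t + 1) (kd2 v 1) = kd2 _ 1
    rw [kd2_apply1, kd2_apply1, map_sub, hc_X_mul, hc_X_mul]
  · show homogeneousComponent (t + 1) (kd2 v 2) = kd2 _ 2
    rw [kd2_apply2, kd2_apply2, map_sub, hc_X_mul, hc_X_mul]

theorem kd1_hom {t : ℕ} {a : Fin 3 → Pol K} (ha : a ∈ Tp (Sd K t)) : kd1 a ∈ Sd K (t + 1) := by
  have h : (Tp (Sd K t)).map kd1 ≤ Sd K (t + 1) := by
    rw [map_kd1_Tp]
    exact up_le le_rfl
  exact h ⟨a, ha, rfl⟩

theorem kd2_hom {t : ℕ} {a : Fin 3 → Pol K} (ha : a ∈ Tp (Sd K t)) : kd2 a ∈ Tp (Sd K (t + 1)) := by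
  have ha' := mem_Tp.mp ha
  have key : ∀ (i j : Fin 3), (X i * a j : Pol K) ∈ Sd K (t + 1) := by
    intro i j
    have := (isHomogeneous_X K i).mul (ha' j)
    rwa [add_comm] at this
  rw [mem_Tp]
  intro i
  fin_cases i
  · exact Submodule.sub_mem _ (key _ _) (key _ _)
  · exact Submodule.sub_mem _ (key _ _) (key _ _)
  · exact Submodule.sub_mem _ (key _ _) (key _ _)

section Formulas

variable {I : Ideal (Pol K)}

theorem mem_restrict {q : Pol K} : q ∈ I.restrictScalars K ↔ q ∈ I := Iff.rfl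

/-- The formula for the minimal generators. -/
theorem betti1_eq (hI : HomIdeal I) (t : ℕ) :
    koszulBetti I 1 t = finrank K (Id I (t + 1)) - finrank K (up (Id I t)) := by
  show finrank K ↥(Tp (Sd K t) ⊓ (I.restrictScalars K).comap kd1)
      - finrank K ↥(Tp (Sd K t) ⊓ (LinearMap.range kd2 ⊔ Tp (I.restrictScalars K))) = _
  set Z := Tp (Sd K t) ⊓ (I.restrictScalars K).comap kd1 with hZ
  set B := Tp (Sd K t) ⊓ (LinearMap.range kd2 ⊔ Tp (I.restrictScalars K)) with hB
  have hmapZ : Z.map kd1 = Id I (t + 1) := by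
    apply le_antisymm
    · rintro _ ⟨a, ha, rfl⟩
      exact mem_Id.mpr ⟨ha.2, kd1_hom ha.1⟩
    · intro q hq
      have hq' := mem_Id.mp hq
      have h1 : q ∈ (Tp (Sd K t)).map kd1 := by
        rw [map_kd1_Tp, up_top_eq]
        exact hq'.2
      obtain ⟨a, ha, rfl⟩ := h1
      exact ⟨a, ⟨ha, hq'.1⟩, rfl⟩
  have hmapB : B.map kd1 = up (Id I t) := by
    apply le_antisymm
    · rintro _ ⟨a, ⟨ha, hb⟩, rfl⟩
      obtain ⟨_, ⟨b, rfl⟩, v, hv, rfl⟩ := Submodule.mem_sup.mp hb
      have hv' := mem_Tp.mp hv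
      have h1 := kd1_hom ha
      have h2 : kd1 (kd2 b + v) = kd1 fun j => homogeneousComponent t (v j) := by
        have e1 : kd1 (kd2 b + v) = kd1 v := by rw [map_add, kd1_kd2, zero_add]
        rw [e1] at h1 ⊢
        rw [← hc_kd1]
        exact (homogeneousComponent_eq_self h1).symm
      show kd1 (kd2 b + v) ∈ up (Id I t)
      rw [h2, ← map_kd1_Tp]
      refine ⟨_, mem_Tp.mpr fun j => mem_Id.mpr ⟨hI _ (hv' j) t, homogeneousComponent_isHomogeneous t _⟩, rfl⟩
    · rw [← map_kd1_Tp]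
      refine Submodule.map_mono fun a ha => ?_
      have ha' := mem_Tp.mp ha
      exact ⟨mem_Tp.mpr fun j => (mem_Id.mp (ha' j)).2,
        Submodule.mem_sup_right (mem_Tp.mpr fun j => (mem_Id.mp (ha' j)).1)⟩
  have hker : Z ⊓ LinearMap.ker kd1 = B ⊓ LinearMap.ker kd1 := by
    ext a
    simp only [Submodule.mem_inf, LinearMap.mem_ker]
    constructor
    · rintro ⟨⟨ha, -⟩, h0⟩
      obtain ⟨b, -, rfl⟩ := koszul_exact1 ha h0
      exact ⟨⟨ha, Submodule.mem_sup_left ⟨b, rfl⟩⟩, h0⟩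
    · rintro ⟨⟨ha, -⟩, h0⟩
      refine ⟨⟨ha, ?_⟩, h0⟩
      show kd1 a ∈ I
      rw [h0]
      exact I.zero_mem
  have h1 := finrank_map_add_inf_ker kd1 Z
  have h2 := finrank_map_add_inf_ker kd1 B
  rw [hmapZ] at h1
  rw [hmapB, ← hker] at h2
  omega

/-- The socle dimension one degree below. -/
noncomputable def socm (I : Ideal (Pol K)) : ℕ → ℕ
  | 0 => 0
  | s + 1 => finrank K (Soc I s)

theorem finrank_ker_kd2 (t : ℕ) :
    finrank K ↥(Tp (Id I t) ⊓ LinearMap.ker kd2) = socm I t := by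
  have hle : ∀ s, Tp (Id I s) ≤ Tp (Sd K s) := fun s a ha =>
    mem_Tp.mpr fun j => (mem_Id.mp (mem_Tp.mp ha j)).2
  cases t with
  | zero =>
    have h0 : Tp (Id I 0) ⊓ LinearMap.ker kd2 = ⊥ := by
      rw [eq_bot_iff]
      rintro u ⟨hu, hu0⟩
      obtain ⟨g, hg, rfl⟩ := koszul_exact2 (hle 0 hu) hu0
      have : g = 0 := hg.eq_zero (by simp)
      rw [this, map_zero]
      exact Submodule.zero_mem _
    rw [h0, finrank_bot]
    rfl
  | succ s =>
    have h0 : Tp (Id I (s + 1)) ⊓ LinearMap.ker kd2 = (Soc I s).map kd3 := by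
      apply le_antisymm
      · rintro u ⟨hu, hu0⟩
        obtain ⟨g, hg, rfl⟩ := koszul_exact2 (hle _ hu) hu0
        have e : ((s + 1 : ℕ) : ℤ) - 1 = ((s : ℕ) : ℤ) := by
          push_cast
          ring
        rw [e] at hg
        refine ⟨g, ⟨homZ_nat.mp hg, fun i => ?_⟩, rfl⟩
        have h1 := mem_Tp.mp hu i
        rw [kd3_apply] at h1
        exact (mem_Id.mp h1).1
      · rintro _ ⟨g, hg, rfl⟩
        refine ⟨mem_Tp.mpr fun i => ?_, kd2_kd3 g⟩
        rw [kd3_apply]
        refine mem_Id.mpr ⟨hg.2 i, ?_⟩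
        have := (isHomogeneous_X K i).mul hg.1
        rwa [add_comm] at this
    rw [h0]
    exact (Submodule.equivMapOfInjective _ kd3_injective (Soc I s)).finrank_eq.symm

/-- The formula for the first syzygies. -/
theorem betti2_eq (hI : HomIdeal I) (t : ℕ) :
    koszulBetti I 2 t = (3 * finrank K (Id I (t + 1)) - finrank K (up (Id I (t + 1))))
      - (3 * finrank K (Id I t) - socm I t) := by
  show finrank K ↥(Tp (Sd K t) ⊓ (Tp (I.restrictScalars K)).comap kd2)
      - finrank K ↥(Tp (Sd K t) ⊓ (LinearMap.range kd3 ⊔ Tp (I.restrictScalars K))) = _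
  haveI hfin : ∀ s, FiniteDimensional K (Id I s) := fun s => finDim (Id_le _ _)
  set Z := Tp (Sd K t) ⊓ (Tp (I.restrictScalars K)).comap kd2 with hZ
  set B := Tp (Sd K t) ⊓ (LinearMap.range kd3 ⊔ Tp (I.restrictScalars K)) with hB
  have hmapZ : Z.map kd2 = Tp (Id I (t + 1)) ⊓ LinearMap.ker kd1 := by
    apply le_antisymm
    · rintro _ ⟨a, ⟨ha, hb⟩, rfl⟩
      refine ⟨mem_Tp.mpr fun i => mem_Id.mpr ⟨?_, ?_⟩, kd1_kd2 a⟩
      · exact mem_Tp.mp hb i
      · exact mem_Tp.mp (kd2_hom ha) i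
    · rintro u ⟨hu, hu0⟩
      have hu' : u ∈ Tp (Sd K (t + 1)) := mem_Tp.mpr fun j => (mem_Id.mp (mem_Tp.mp hu j)).2
      obtain ⟨b, hb, rfl⟩ := koszul_exact1 hu' hu0
      have e : ((t + 1 : ℕ) : ℤ) - 1 = ((t : ℕ) : ℤ) := by
        push_cast
        ring
      rw [e] at hb
      refine ⟨b, ⟨mem_Tp.mpr fun j => homZ_nat.mp (hb j), mem_Tp.mpr fun j => ?_⟩, rfl⟩
      exact (mem_Id.mp (mem_Tp.mp hu j)).1
  have hmapB : B.map kd2 = (Tp (Id I t)).map kd2 := by
    apply le_antisymm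
    · rintro _ ⟨a, ⟨ha, hb⟩, rfl⟩
      obtain ⟨_, ⟨g, rfl⟩, v, hv, rfl⟩ := Submodule.mem_sup.mp hb
      have hv' := mem_Tp.mp hv
      have h1 := mem_Tp.mp (kd2_hom ha)
      refine ⟨fun j => homogeneousComponent t (v j), mem_Tp.mpr fun j => mem_Id.mpr
        ⟨hI _ (hv' j) t, homogeneousComponent_isHomogeneous t _⟩, ?_⟩
      have e1 : kd2 (kd3 g + v) = kd2 v := by rw [map_add, kd2_kd3, zero_add]
      show _ = kd2 (kd3 g + v)
      funext i
      have h2 := h1 i
      rw [e1] at h2 ⊢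
      rw [← hc_kd2]
      exact homogeneousComponent_eq_self h2
    · refine Submodule.map_mono fun a ha => ?_
      have ha' := mem_Tp.mp ha
      exact ⟨mem_Tp.mpr fun j => (mem_Id.mp (ha' j)).2,
        Submodule.mem_sup_right (mem_Tp.mpr fun j => (mem_Id.mp (ha' j)).1)⟩
  have hker : Z ⊓ LinearMap.ker kd2 = B ⊓ LinearMap.ker kd2 := by
    ext a
    simp only [Submodule.mem_inf, LinearMap.mem_ker]
    constructor
    · rintro ⟨⟨ha, -⟩, h0⟩
      obtain ⟨g, -, rfl⟩ := koszul_exact2 ha h0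
      exact ⟨⟨ha, Submodule.mem_sup_left ⟨g, rfl⟩⟩, h0⟩
    · rintro ⟨⟨ha, -⟩, h0⟩
      refine ⟨⟨ha, ?_⟩, h0⟩
      show kd2 a ∈ Tp _
      rw [h0]
      exact Submodule.zero_mem _
  have h1 := finrank_map_add_inf_ker kd2 Z
  have h2 := finrank_map_add_inf_ker kd2 B
  rw [hmapZ] at h1
  rw [hmapB, ← hker] at h2
  have r1 := finrank_map_add_inf_ker kd1 (Tp (Id I (t + 1)))
  rw [map_kd1_Tp, finrank_Tp] at r1
  have r2 := finrank_map_add_inf_ker kd2 (Tp (Id I t))
  rw [finrank_ker_kd2, finrank_Tp] at r2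
  omega

/-- The formula for the socle. -/
theorem betti3_eq (t : ℕ) :
    koszulBetti I 3 t = finrank K (Soc I t) - finrank K (Id I t) := by
  have e1 : Sd K t ⊓ (Tp (I.restrictScalars K)).comap kd3 = Soc I t := by
    ext a
    simp only [Submodule.mem_inf, Submodule.mem_comap, mem_Tp, kd3_apply]
    rfl
  have e2 : Sd K t ⊓ I.restrictScalars K = Id I t := inf_comm _ _
  show finrank K ↥(Sd K t ⊓ (Tp (I.restrictScalars K)).comap kd3)
      - finrank K ↥(Sd K t ⊓ I.restrictScalars K) = _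
  rw [e1, e2]

theorem betti0_succ (s : ℕ) : koszulBetti I 0 (s + 1) = 0 := by
  have e1 : Sd K (s + 1) ⊓ (LinearMap.range kd1 ⊔ I.restrictScalars K) = Sd K (s + 1) := by
    refine inf_eq_left.mpr fun q hq => Submodule.mem_sup_left ?_
    have h1 : q ∈ (Tp (Sd K s)).map kd1 := by
      rw [map_kd1_Tp, up_top_eq]
      exact hq
    obtain ⟨a, -, rfl⟩ := h1
    exact ⟨a, rfl⟩
  show finrank K (Sd K (s + 1)) - finrank K ↥(Sd K (s + 1) ⊓ (LinearMap.range kd1 ⊔ I.restrictScalars K)) = 0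
  rw [e1]
  omega

theorem hc_zero_kd1 (b : Fin 3 → Pol K) : homogeneousComponent 0 (kd1 b) = 0 := by
  have key : ∀ i : Fin 3, homogeneousComponent 0 (X i * b i) = 0 := by
    intro i
    rw [mul_comm]
    exact hc_mul_lt (isHomogeneous_X K i) _ one_pos
  rw [kd1_apply, map_add, map_add, key, key, key]
  simp

theorem betti0_zero (hI : HomIdeal I) :
    koszulBetti I 0 0 = finrank K (Sd K 0) - finrank K (Id I 0) := by
  have e1 : Sd K 0 ⊓ (LinearMap.range kd1 ⊔ I.restrictScalars K) = Id I 0 := by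
    apply le_antisymm
    · rintro a ⟨ha, hb⟩
      obtain ⟨_, ⟨b, rfl⟩, v, hv, rfl⟩ := Submodule.mem_sup.mp hb
      have ha' : (kd1 b + v).IsHomogeneous 0 := ha
      refine mem_Id.mpr ⟨?_, ha'⟩
      have h2 := homogeneousComponent_eq_self ha'
      rw [map_add, hc_zero_kd1, zero_add] at h2
      rw [← h2]
      exact hI _ hv 0
    · intro a ha
      have ha' := mem_Id.mp ha
      exact ⟨ha'.2, Submodule.mem_sup_right ha'.1⟩
  show finrank K (Sd K 0) - finrank K ↥(Sd K 0 ⊓ (LinearMap.range kd1 ⊔ I.restrictScalars K)) = _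
  rw [e1]

end Formulas

theorem betti_large (I : Ideal (Pol K)) (n t : ℕ) : koszulBetti I (n + 4) t = 0 := by
  unfold koszulBetti
  rfl

/-- The comparison of the graded Betti numbers. -/
theorem betti_le0 {I J : Ideal (Pol K)} (hI : HomIdeal I) (hJ : HomIdeal J)
    (hdim : ∀ n, finrank K (Id J n) = finrank K (Id I n)) (t : ℕ) :
    koszulBetti I 0 t ≤ koszulBetti J 0 t := by
  cases t with
  | zero =>
    rw [betti0_zero hI, betti0_zero hJ, hdim]
  | succ s =>
    rw [betti0_succ, betti0_succ]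

theorem betti_le1 {I J : Ideal (Pol K)} (hI : HomIdeal I) (hJ : HomIdeal J)
    (hdim : ∀ n, finrank K (Id J n) = finrank K (Id I n))
    (hup : ∀ n, finrank K (up (Id J n)) ≤ finrank K (up (Id I n))) (t : ℕ) :
    koszulBetti I 1 t ≤ koszulBetti J 1 t := by
  rw [betti1_eq hI, betti1_eq hJ, hdim]
  have := hup t
  omega

theorem betti_le2 {I J : Ideal (Pol K)} (hI : HomIdeal I) (hJ : HomIdeal J)
    (hdim : ∀ n, finrank K (Id J n) = finrank K (Id I n))
    (hup : ∀ n, finrank K (up (Id J n)) ≤ finrank K (up (Id I n)))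
    (hsoc : ∀ n, finrank K (Soc I n) ≤ finrank K (Soc J n)) (t : ℕ) :
    koszulBetti I 2 t ≤ koszulBetti J 2 t := by
  rw [betti2_eq hI, betti2_eq hJ, hdim, hdim]
  have h1 := hup (t + 1)
  have h2 : socm I t ≤ socm J t := by
    cases t with
    | zero => exact le_rfl
    | succ s => exact hsoc s
  omega

theorem betti_le3 {I J : Ideal (Pol K)}
    (hdim : ∀ n, finrank K (Id J n) = finrank K (Id I n))
    (hsoc : ∀ n, finrank K (Soc I n) ≤ finrank K (Soc J n)) (t : ℕ) :
    koszulBetti I 3 t ≤ koszulBetti J 3 t := by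
  rw [betti3_eq, betti3_eq, hdim]
  have := hsoc t
  omega

theorem betti_le {I J : Ideal (Pol K)} (hI : HomIdeal I) (hJ : HomIdeal J)
    (hdim : ∀ n, finrank K (Id J n) = finrank K (Id I n))
    (hup : ∀ n, finrank K (up (Id J n)) ≤ finrank K (up (Id I n)))
    (hsoc : ∀ n, finrank K (Soc I n) ≤ finrank K (Soc J n)) (p t : ℕ) :
    koszulBetti I p t ≤ koszulBetti J p t := by
  by_cases h0 : p = 0
  · subst h0
    exact betti_le0 hI hJ hdim t
  by_cases h1 : p = 1
  · subst h1
    exact betti_le1 hI hJ hdim hup t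
  by_cases h2 : p = 2
  · subst h2
    exact betti_le2 hI hJ hdim hup hsoc t
  by_cases h3 : p = 3
  · subst h3
    exact betti_le3 hdim hsoc t
  obtain ⟨n, rfl⟩ : ∃ n, p = n + 4 := ⟨p - 4, by omega⟩
  rw [betti_large, betti_large]

/-- The homogeneous components of an element of the sum of the `J_d`. -/
theorem hc_mem_lexPlusPowersG {a b c : ℕ} {I : Ideal (Pol K)} {q : Pol K}
    (hq : q ∈ ⨆ d, lexPlusPowersG a b c I d) (n : ℕ) :
    homogeneousComponent n q ∈ lexPlusPowersG a b c I n := by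
  have hle : ∀ d, lexPlusPowersG a b c I d ≤ Sd K d := by
    intro d
    rw [lexPlusPowersG_eq_mono]
    exact mono_le fun e he => isHomogeneous_monomial _ he.1
  induction hq using Submodule.iSup_induction' with
  | mem d x hx =>
    have hx' : x.IsHomogeneous d := hle d hx
    by_cases hd : d = n
    · subst hd
      rw [homogeneousComponent_eq_self hx']
      exact hx
    · rw [homogeneousComponent_of_mem hx', if_neg (Ne.symm hd)]
      exact Submodule.zero_mem _
  | zero =>
    simp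
  | add x y _ _ hx hy =>
    rw [map_add]
    exact Submodule.add_mem _ hx hy

/-- The main theorem on the lex-plus-powers ideal. -/
theorem exists_lex_ideal {d : Fin 3 → ℕ} {a b c : ℕ} {p : Fin 3 → Pol K} (C : Cfg2 d a b c)
    (hp : IsReg3 d p) {I : Ideal (Pol K)} (hF : P200G.Fid p ≤ I) (hI : HomIdeal I) :
    ∃ J : Ideal (Pol K), (∀ q, q ∈ J ↔ q ∈ ⨆ n, lexPlusPowersG a b c I n) ∧
      (∀ n, degPart J n = lexPlusPowersG a b c I n) ∧
      (∀ n, finrank K (degPart J n) = finrank K (degPart I n)) ∧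
      ∀ r t, koszulBetti I r t ≤ koszulBetti J r t := by
  let J : Ideal (Pol K) :=
    { carrier := {q | q ∈ ⨆ n, lexPlusPowersG a b c I n}
      add_mem' := fun hx hy => Submodule.add_mem (⨆ n, lexPlusPowersG a b c I n) hx hy
      zero_mem' := Submodule.zero_mem (⨆ n, lexPlusPowersG a b c I n)
      smul_mem' := fun r _ hq => C.closure_all hp hF r hq }
  have hmem : ∀ q, q ∈ J ↔ q ∈ ⨆ n, lexPlusPowersG a b c I n := fun q => Iff.rfl
  have hle : ∀ n, lexPlusPowersG a b c I n ≤ Sd K n := by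
    intro n
    rw [lexPlusPowersG_eq_mono]
    exact mono_le fun e he => isHomogeneous_monomial _ he.1
  have hId : ∀ n, Id J n = lexPlusPowersG a b c I n := by
    intro n
    apply le_antisymm
    · intro q hq
      have hq' := mem_Id.mp hq
      have h1 := hc_mem_lexPlusPowersG ((hmem q).mp hq'.1) n
      rwa [homogeneousComponent_eq_self hq'.2] at h1
    · intro q hq
      exact mem_Id.mpr ⟨(hmem q).mpr (Submodule.mem_iSup_of_mem n hq), hle n hq⟩
  have hJ : HomIdeal J := fun q hq n =>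
    (hmem _).mpr (Submodule.mem_iSup_of_mem n (hc_mem_lexPlusPowersG ((hmem q).mp hq) n))
  have hdim : ∀ n, finrank K (degPart J n) = finrank K (degPart I n) := by
    intro n
    have h1 : degPart J n = lexPlusPowersG a b c I n := hId n
    rw [h1]
    exact C.finrank_J_eq hp hF n
  refine ⟨J, hmem, hId, hdim, ?_⟩
  refine betti_le hI hJ hdim (fun n => ?_) (fun n => C.finrank_Soc_le hp hF hId n)
  rw [hId]
  exact C.up_J_le hp hF n

end Vale.Agent.P200H
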