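import Vale.Agent.P200H.Rec

/-!
# Spaces with small growth: linear annihilators, spaces with a regular form
-/

namespace Vale.Agent.P200H

open MvPolynomial Module Vale.Agent.P200 Vale.Agent.P200G

variable {K : Type*} [Field K]

/-- The dimension of the multiples of a form by the linear forms, modulo a subspace. -/
theorem rank_one {v : Pol K} (hv : v ≠ 0) {Bs : Submodule K (Pol K)} [FiniteDimensional K Bs] :
    finrank K ↥((Sd K 1).map (mulBy v) ⊔ Bs) + finrank K ↥(Sd K 1 ⊓ colon v Bs)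
      = 3 + finrank K Bs := by
  haveI : FiniteDimensional K ((Sd K 1).map (mulBy v)) := inferInstance
  have h1 := Submodule.finrank_sup_add_finrank_inf_eq ((Sd K 1).map (mulBy v)) Bs
  rw [finrank_map_mulBy hv, finrank_Sd] at h1
  have h2 : (Sd K 1).map (mulBy v) ⊓ Bs = (Sd K 1 ⊓ colon v Bs).map (mulBy v) := by
    ext x
    constructor
    · rintro ⟨hx1, hx2⟩
      obtain ⟨l', hl', rfl⟩ := mem_map_mulBy.mp hx1
      exact mem_map_mulBy.mpr ⟨l', ⟨hl', mem_colon.mpr hx2⟩, rfl⟩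
    · intro hx
      obtain ⟨l', hl', rfl⟩ := mem_map_mulBy.mp hx
      exact ⟨mem_map_mulBy.mpr ⟨l', hl'.1, rfl⟩, mem_colon.mp hl'.2⟩
  rw [h2, finrank_map_mulBy hv] at h1
  have h3 : (1 + 2).choose 2 = 3 := rfl
  rw [h3] at h1
  exact h1

/-- A form modulo the ideal spans a space of relative dimension one. -/
theorem rk_span_le {𝔠 : Ideal (Pol K)} {j : ℕ} {v : Pol K} (hv : v.IsHomogeneous j) :
    rk 𝔠 j (Submodule.span K {v} ⊔ Id 𝔠 j) ≤ 1 := by
  have h1 : Submodule.span K {v} ≤ Sd K j :=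
    (Submodule.span_singleton_le_iff_mem _ _).mpr hv
  have hS : IsSp 𝔠 j (Submodule.span K {v} ⊔ Id 𝔠 j) := ⟨le_sup_right, sup_le h1 (Id_le _ _)⟩
  haveI := hS.fin
  have a := hS.add
  have h2 := Submodule.finrank_add_le_finrank_add_finrank (Submodule.span K {v}) (Id 𝔠 j)
  have h3 := finrank_span_le_card (R := K) ({v} : Set (Pol K))
  simp only [Set.toFinset_singleton, Finset.card_singleton] at h3
  omega

theorem IsSp_span {𝔠 : Ideal (Pol K)} {j : ℕ} {v : Pol K} (hv : v.IsHomogeneous j) :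
    IsSp 𝔠 j (Submodule.span K {v} ⊔ Id 𝔠 j) :=
  ⟨le_sup_right, sup_le ((Submodule.span_singleton_le_iff_mem _ _).mpr hv) (Id_le _ _)⟩

/-- If a subspace has relative dimension one, it is spanned by any element outside the ideal. -/
theorem le_span_of_rk_one {𝔠 : Ideal (Pol K)} {j : ℕ} {V : Submodule K (Pol K)}
    (hV : IsSp 𝔠 j V) (h1 : rk 𝔠 j V ≤ 1) {v : Pol K} (hv : v ∈ V) (hv2 : v ∉ Id 𝔠 j) :
    V ≤ Submodule.span K {v} ⊔ Id 𝔠 j := by
  have hS := IsSp_span (𝔠 := 𝔠) (hV.hi hv)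
  have hle : Submodule.span K {v} ⊔ Id 𝔠 j ≤ V :=
    sup_le ((Submodule.span_singleton_le_iff_mem _ _).mpr hv) hV.lo
  have h2 : 1 ≤ rk 𝔠 j (Submodule.span K {v} ⊔ Id 𝔠 j) := by
    by_contra hcon
    have h3 : rk 𝔠 j (Submodule.span K {v} ⊔ Id 𝔠 j) = 0 := by omega
    have h4 := hS.rk_eq_zero_iff.mp h3
    apply hv2
    rw [← h4]
    exact Submodule.mem_sup_left (Submodule.mem_span_singleton_self v)
  exact (hS.eq_of_rk hV hle (by omega)).ge

/-- An element outside the ideal gives a positive relative dimension. -/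
theorem one_le_rk {𝔠 : Ideal (Pol K)} {j : ℕ} {V : Submodule K (Pol K)}
    (hV : IsSp 𝔠 j V) {v : Pol K} (hv : v ∈ V) (hv2 : v ∉ Id 𝔠 j) : 1 ≤ rk 𝔠 j V := by
  by_contra hcon
  have h3 : rk 𝔠 j V = 0 := by omega
  have h4 := hV.rk_eq_zero_iff.mp h3
  rw [h4] at hv
  exact hv2 hv

/-- Multiplying a killed subspace by linear forms. -/
theorem kill_up {𝔠 : Ideal (Pol K)} {n : ℕ} {C : Submodule K (Pol K)} {l₁ : Pol K}
    (h : ∀ c ∈ C, l₁ * c ∈ 𝔠) : ∀ x ∈ upC 𝔠 n C, l₁ * x ∈ 𝔠 := by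
  have key : ∀ y ∈ up C, l₁ * y ∈ 𝔠 := by
    intro y hy
    induction hy using Submodule.mul_induction_on' with
    | mem_mul_mem a _ c hc =>
      have : l₁ * (a * c) = a * (l₁ * c) := by ring
      rw [this]
      exact Ideal.mul_mem_left _ _ (h c hc)
    | add x _ y _ hx hy =>
      rw [mul_add]
      exact Ideal.add_mem _ hx hy
  intro x hx
  obtain ⟨y, hy, e, he, rfl⟩ := Submodule.mem_sup.mp hx
  rw [mul_add]
  exact Ideal.add_mem _ (key y hy) (Ideal.mul_mem_left _ _ (mem_Id.mp he).1)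

namespace Pr

variable {α β : ℕ} {p₀ p₁ l : Pol K} (P : Pr α β p₀ p₁ l)

include P

theorem one_not_mem : (1 : Pol K) ∉ Ideal.span {p₀, p₁} :=
  one_not_mem_pair P.h₀ P.h₁ (by have := P.hα; omega) (by have := P.hβ; omega)

theorem reg_not_mem {w : Pol K} (hw : RegMod w (Ideal.span {p₀, p₁})) :
    w ∉ Ideal.span {p₀, p₁} := fun h => P.one_not_mem (hw 1 (by simpa using h))

theorem reg_ne {w : Pol K} (hw : RegMod w (Ideal.span {p₀, p₁})) : w ≠ 0 := by
  rintro rfl
  exact P.reg_not_mem hw (Submodule.zero_mem _)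

/-- Forms of degree two modulo a regular pair of degrees at least three. -/
theorem Id_two (h3 : 3 ≤ α) : Id (Ideal.span {p₀, p₁}) 2 = ⊥ := by
  have hαβ := P.hαβ
  have hd := P.dC 2
  have h4 := hT_succ α β 1
  have h5 := hT_succ α β 0
  rw [hT_zero (by omega) (by omega)] at h5
  have h6 : hB α β (0 + 1) = 2 := by simp only [hB]; omega
  have h7 : hB α β (1 + 1) = 3 := by simp only [hB]; omega
  have h8 : (0 + 1 : ℕ) = 1 := rfl
  have h9 : (1 + 1 : ℕ) = 2 := rfl
  rw [h9] at h4 h7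
  rw [h8] at h5 h6
  rw [finrank_Sd] at hd
  have h10 : (2 + 2).choose 2 = 6 := rfl
  have : finrank K (Id (Ideal.span {p₀, p₁}) 2) = 0 := by omega
  exact Submodule.finrank_eq_zero.mp this

/-- A subspace killed by a linear form meets the multiples of a regular form trivially. -/
theorem lemmaZ (h3 : 3 ≤ α) {Q : Submodule K (Pol K)} [FiniteDimensional K Q] {l₁ w : Pol K}
    (hl₁ : Lin l₁) (hk : ∀ q ∈ Q, l₁ * q ∈ Ideal.span {p₀, p₁})
    (hw : RegMod w (Ideal.span {p₀, p₁})) :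
    finrank K ↥((Sd K 1).map (mulBy w) ⊔ Q) = 3 + finrank K Q := by
  have hw0 := P.reg_ne hw
  have h1 := Submodule.finrank_sup_add_finrank_inf_eq ((Sd K 1).map (mulBy w)) Q
  rw [finrank_map_mulBy hw0, finrank_Sd] at h1
  have h2 : (Sd K 1).map (mulBy w) ⊓ Q = ⊥ := by
    rw [eq_bot_iff]
    rintro x ⟨hx1, hx2⟩
    obtain ⟨l', hl', rfl⟩ := mem_map_mulBy.mp hx1
    have h4 : l₁ * l' ∈ Ideal.span {p₀, p₁} := by
      apply hw
      have := hk _ hx2
      have e : l₁ * l' * w = l₁ * (w * l') := by ring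
      rwa [e]
    have h5 : l₁ * l' ∈ Id (Ideal.span {p₀, p₁}) 2 := by
      rw [mem_Id]
      exact ⟨h4, hl₁.hom.mul (show l'.IsHomogeneous 1 from hl')⟩
    rw [P.Id_two h3, Submodule.mem_bot] at h5
    have h6 : l' = 0 := (mul_eq_zero.mp h5).resolve_left hl₁.ne
    rw [h6, mul_zero]
    exact Submodule.zero_mem _
  rw [h2, finrank_bot] at h1
  have h7 : (1 + 2).choose 2 = 3 := rfl
  omega

end Pr

end Vale.Agent.P200H
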