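import Vale.Agent.P200H.Crit1

/-!
# Spaces with small growth: the case analysis
-/

namespace Vale.Agent.P200H

open MvPolynomial Module Vale.Agent.P200 Vale.Agent.P200G

variable {K : Type*} [Field K]

theorem exists_not_mem_rk {𝔠 : Ideal (Pol K)} {j : ℕ} {V : Submodule K (Pol K)}
    (hV : IsSp 𝔠 j V) (h : 1 ≤ rk 𝔠 j V) : ∃ v ∈ V, v ∉ Id 𝔠 j := by
  by_contra hcon
  push_neg at hcon
  have h1 : V = Id 𝔠 j := le_antisymm hcon hV.lo
  rw [h1, rk_bot] at h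
  omega

/-- The dimension of the multiples of a regular form. -/
theorem rk_mult {𝔠 : Ideal (Pol K)} {w : Pol K} {n t : ℕ} (hw : w.IsHomogeneous n) (hw0 : w ≠ 0)
    (hreg : RegMod w 𝔠) (ht : Id 𝔠 t = ⊥) :
    rk 𝔠 (n + t) ((Sd K t).map (mulBy w) ⊔ Id 𝔠 (n + t)) = finrank K (Sd K t) := by
  have h := regular_dim (𝔠 := 𝔠) (V := Sd K t) (t := t) hw hw0 hreg (Id_le _ _) le_rfl
  rw [ht, finrank_bot, add_zero, add_comm t n] at h
  simp only [rk]
  omega

theorem IsSp_mult {𝔠 : Ideal (Pol K)} {w : Pol K} {n t : ℕ} (hw : w.IsHomogeneous n) :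
    IsSp 𝔠 (n + t) ((Sd K t).map (mulBy w) ⊔ Id 𝔠 (n + t)) :=
  ⟨le_sup_right, sup_le (map_le_Sd hw (by omega) le_rfl) (Id_le _ _)⟩

namespace Pr

variable {α β : ℕ} {p₀ p₁ l : Pol K} (P : Pr α β p₀ p₁ l)

include P

/-- The data of the recursion. -/
theorem data [Infinite K] {n : ℕ} {V : Submodule K (Pol K)}
    (hV : IsSp (Ideal.span {p₀, p₁}) (n + 1) V) : ∃ ub bb : ℕ,
    rk (Ideal.span {p₀, p₁}) (n + 1) V = ub + rk (Ideal.span {p₀, p₁}) n (colon l V) ∧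
    rk (Ideal.span {p₀, p₁}) (n + 2) (upC (Ideal.span {p₀, p₁}) (n + 1) V)
      = bb + rk (Ideal.span {p₀, p₁}) (n + 1) (colon l (upC (Ideal.span {p₀, p₁}) (n + 1) V)) ∧
    (V ⊔ Id (Ideal.span {p₀, p₁} ⊔ Ideal.span {l}) (n + 1) = Sd K (n + 1) → bb = hB α β (n + 2)) ∧
    (V ⊔ Id (Ideal.span {p₀, p₁} ⊔ Ideal.span {l}) (n + 1) ≠ Sd K (n + 1) → ub ≤ bb) ∧
    (ub = 0 → V ≤ Id (Ideal.span {p₀, p₁} ⊔ Ideal.span {l}) (n + 1)) := by
  have hW := W_isSp (l := l) hV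
  refine ⟨_, _, rk_split P.hC P.hl P.hreg hV, T_split P.hC P.hl P.hreg hV, ?_, P.lemmaA hW, ?_⟩
  · intro h
    rw [h, upC_top, P.rkD_top]
  · intro h
    have h2 := hW.rk_eq_zero_iff.mp h
    rw [← h2]
    exact le_sup_left

/-- Elements modulo the linear form. -/
theorem decomp {n : ℕ} {V : Submodule K (Pol K)} (hV : IsSp (Ideal.span {p₀, p₁}) (n + 1) V)
    {x : Pol K} (hx : x ∈ V) (hxD : x ∈ Id (Ideal.span {p₀, p₁} ⊔ Ideal.span {l}) (n + 1)) :
    ∃ g ∈ colon l V, ∃ e ∈ Id (Ideal.span {p₀, p₁}) (n + 1), x = l * g + e := by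
  have h1 := Id_sup_le P.hC P.hl.hom n hxD
  obtain ⟨e, he, y, hy, rfl⟩ := Submodule.mem_sup.mp h1
  obtain ⟨g, -, rfl⟩ := mem_map_mulBy.mp hy
  refine ⟨g, mem_colon.mpr ?_, e, he, by ring⟩
  have h2 : l * g = (e + l * g) - e := by ring
  rw [h2]
  exact Submodule.sub_mem _ hx (hV.lo he)

/-- Spaces with growth at most one are killed by a linear form. -/
theorem K1 [Infinite K] : ∀ j, j + 4 ≤ α + β → ∀ V : Submodule K (Pol K),
    IsSp (Ideal.span {p₀, p₁}) j V → 1 ≤ rk (Ideal.span {p₀, p₁}) j V →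
    rk (Ideal.span {p₀, p₁}) (j + 1) (upC (Ideal.span {p₀, p₁}) j V)
      ≤ rk (Ideal.span {p₀, p₁}) j V + 1 →
    ∃ l₁ : Pol K, Lin l₁ ∧ ∀ v ∈ V, l₁ * v ∈ Ideal.span {p₀, p₁} := by
  have hα := P.hα
  have hβ := P.hβ
  intro j
  induction j with
  | zero =>
    intro _ V hV h1 h2
    have hR : RR α β 0 0 = 0 := by
      simp only [RR, rowS]
      refine Finset.sum_eq_zero fun x hx => ?_
      simp only [Finset.mem_Ico] at hx
      have : 0 + 1 - x = 0 := by omega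
      rw [this]
      simp
    have h3 := P.LG 0 V hV 0 (by omega) (le_refl _) (by omega)
    have hg : gg α β 0 0 = 2 := by simp only [gg]; omega
    omega
  | succ j ih =>
    intro hj V hV h1 h2
    obtain ⟨ub, bb, s1, s2, t1, t2, t3⟩ := P.data hV
    have hC' := hV.colon (l := l) P.hl
    have hTT := hV.upC
    have hD := hTT.colon (l := l) P.hl
    have m1 := IsSp.rk_mono hV hD (le_D P.hl)
    have m2 := IsSp.rk_mono hC'.upC hD (upC_le_D P.hl hV)
    set u := rk (Ideal.span {p₀, p₁}) (j + 1) V with hu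
    set u' := rk (Ideal.span {p₀, p₁}) j (colon l V) with hu'
    set uT := rk (Ideal.span {p₀, p₁}) (j + 1 + 1) (upC (Ideal.span {p₀, p₁}) (j + 1) V) with huT
    set v := rk (Ideal.span {p₀, p₁}) (j + 1) (colon l (upC (Ideal.span {p₀, p₁}) (j + 1) V))
      with hv
    by_cases hWtop : V ⊔ Id (Ideal.span {p₀, p₁} ⊔ Ideal.span {l}) (j + 1) = Sd K (j + 1)
    · have h3 := t1 hWtop
      have h4 : 2 ≤ hB α β (j + 2) := by
        simp only [hB]
        omega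
      omega
    have h5 := t2 hWtop
    by_cases hub : ub = 0
    · have hVD := t3 hub
      obtain ⟨l₁, hl₁, hk⟩ := ih (by omega) _ hC' (by omega) (by omega)
      refine ⟨l₁, hl₁, fun x hx => ?_⟩
      obtain ⟨g, hg, e, he, rfl⟩ := P.decomp hV hx (hVD hx)
      have e1 : l₁ * (l * g + e) = l * (l₁ * g) + l₁ * e := by ring
      rw [e1]
      exact Ideal.add_mem _ (Ideal.mul_mem_left _ _ (hk g hg))
        (Ideal.mul_mem_left _ _ (mem_Id.mp he).1)
    · have hb1 : ub = 1 := by omega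
      have hbb1 : bb = 1 := by omega
      have hDV : V = colon l (upC (Ideal.span {p₀, p₁}) (j + 1) V) :=
        IsSp.eq_of_rk hV hD (le_D P.hl) (by omega)
      have hCV : upC (Ideal.span {p₀, p₁}) j (colon l V) ≤ V := by
        conv_rhs => rw [hDV]
        exact upC_le_D P.hl hV
      by_cases hu0 : u' = 0
      · obtain ⟨x₀, hx₀, hx₀2⟩ := exists_not_mem_rk hV h1
        have hx₀0 : x₀ ≠ 0 := by
          rintro rfl
          exact hx₀2 (Submodule.zero_mem _)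
        have hA : (Sd K 1).map (mulBy x₀) ⊔ Id (Ideal.span {p₀, p₁}) (j + 1 + 1)
            ≤ upC (Ideal.span {p₀, p₁}) (j + 1) V :=
          sup_le (le_trans (map_le_up hx₀) le_sup_left) le_sup_right
        haveI := hTT.fin
        have h6 := finrank_le_of_le hA
        have h7 := rank_one hx₀0 (Bs := Id (Ideal.span {p₀, p₁}) (j + 1 + 1))
        have a1 := hTT.add
        have h8 : 1 ≤ finrank K ↥(Sd K 1 ⊓ colon x₀ (Id (Ideal.span {p₀, p₁}) (j + 1 + 1))) := by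
          omega
        obtain ⟨l₁, hl₁, hl₁0⟩ := exists_ne_zero h8
        refine ⟨l₁, ⟨hl₁.1, hl₁0⟩, fun x hx => ?_⟩
        have hle := le_span_of_rk_one hV (by omega) hx₀ hx₀2 hx
        obtain ⟨y, hy, e, he, rfl⟩ := Submodule.mem_sup.mp hle
        obtain ⟨r, rfl⟩ := Submodule.mem_span_singleton.mp hy
        have h9 : x₀ * l₁ ∈ Ideal.span {p₀, p₁} := (mem_Id.mp (mem_colon.mp hl₁.2)).1
        have e1 : l₁ * (r • x₀ + e) = r • (x₀ * l₁) + l₁ * e := by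
          rw [mul_add, mul_smul_comm, mul_comm l₁ x₀]
        rw [e1]
        refine Ideal.add_mem _ ?_ (Ideal.mul_mem_left _ _ (mem_Id.mp he).1)
        exact Submodule.smul_of_tower_mem _ _ h9
      · obtain ⟨l₁, hl₁, hk⟩ := ih (by omega) _ hC' (by omega) (by omega)
        have h6 := P.E0' (by omega) hC' (by omega)
        have hV2 : upC (Ideal.span {p₀, p₁}) j (colon l V) = V :=
          hC'.upC.eq_of_rk hV hCV (by omega)
        refine ⟨l₁, hl₁, fun x hx => ?_⟩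
        rw [← hV2] at hx
        exact kill_up hk x hx

/-- A regular form and one more form grow by at least three. -/
theorem D2 [Infinite K] (h3 : 3 ≤ α) {j : ℕ} (hj : j + 3 ≤ α + β) {V : Submodule K (Pol K)}
    (hV : IsSp (Ideal.span {p₀, p₁}) j V) (hr : rk (Ideal.span {p₀, p₁}) j V = 2) {w : Pol K}
    (hw : w ∈ V) (hreg : RegMod w (Ideal.span {p₀, p₁})) :
    5 ≤ rk (Ideal.span {p₀, p₁}) (j + 1) (upC (Ideal.span {p₀, p₁}) j V) := by
  by_contra hcon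
  have hw0 := P.reg_ne hreg
  have hwh : w.IsHomogeneous j := hV.hi hw
  have hTT := hV.upC
  haveI := hV.fin
  haveI := hTT.fin
  -- a second form
  have hSp := IsSp_span (𝔠 := Ideal.span {p₀, p₁}) hwh
  have hr1 := rk_span_le (𝔠 := Ideal.span {p₀, p₁}) hwh
  obtain ⟨v, hv, hv2⟩ : ∃ v ∈ V, v ∉ Submodule.span K {w} ⊔ Id (Ideal.span {p₀, p₁}) j := by
    by_contra hc
    push_neg at hc
    have := hV.rk_mono hSp hc
    omega
  have hv0 : v ≠ 0 := by
    rintro rfl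
    exact hv2 (Submodule.zero_mem _)
  have hId1 : Id (Ideal.span {p₀, p₁}) 1 = ⊥ := Submodule.finrank_eq_zero.mp P.Id_one
  -- the multiples of the regular form
  have hBs : rk (Ideal.span {p₀, p₁}) (j + 1) ((Sd K 1).map (mulBy w) ⊔ Id (Ideal.span {p₀, p₁}) (j + 1))
      = finrank K (Sd K 1) := rk_mult hwh hw0 hreg hId1
  rw [finrank_Sd] at hBs
  have hBsSp := IsSp_mult (𝔠 := Ideal.span {p₀, p₁}) (t := 1) hwh
  haveI := hBsSp.fin
  have hBa := hBsSp.add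
  have hN := rank_one hv0 (Bs := (Sd K 1).map (mulBy w) ⊔ Id (Ideal.span {p₀, p₁}) (j + 1))
  have hle : (Sd K 1).map (mulBy v) ⊔ ((Sd K 1).map (mulBy w) ⊔ Id (Ideal.span {p₀, p₁}) (j + 1))
      ≤ upC (Ideal.span {p₀, p₁}) j V :=
    sup_le (le_trans (map_le_up hv) le_sup_left)
      (sup_le (le_trans (map_le_up hw) le_sup_left) le_sup_right)
  have h1 := finrank_le_of_le hle
  have a1 := hTT.add
  have h33 : (1 + 2).choose 2 = 3 := rfl
  have hN2 : 2 ≤ finrank K ↥(Sd K 1 ⊓ colon v ((Sd K 1).map (mulBy w)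
      ⊔ Id (Ideal.span {p₀, p₁}) (j + 1))) := by
    omega
  -- two independent linear forms
  obtain ⟨l₂, hl₂, hl₂0⟩ := exists_ne_zero (by omega : 1 ≤ finrank K ↥(Sd K 1 ⊓ colon v
    ((Sd K 1).map (mulBy w) ⊔ Id (Ideal.span {p₀, p₁}) (j + 1))))
  obtain ⟨l₃, hl₃, hl₃s⟩ := exists_not_mem (U := Submodule.span K {l₂}) (V := Sd K 1 ⊓ colon v
    ((Sd K 1).map (mulBy w) ⊔ Id (Ideal.span {p₀, p₁}) (j + 1)))
    (by
      have := finrank_span_le_card (R := K) ({l₂} : Set (Pol K))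
      simp at this
      omega)
  have hl₃0 : l₃ ≠ 0 := by
    rintro rfl
    exact hl₃s (Submodule.zero_mem _)
  have L₂ : Lin l₂ := ⟨hl₂.1, hl₂0⟩
  have L₃ : Lin l₃ := ⟨hl₃.1, hl₃0⟩
  have hnd : ¬ l₂ ∣ l₃ := by
    intro hd
    obtain ⟨r, hr⟩ := dvd_same_degree L₂.hom L₂.ne L₃.hom hd
    exact hl₃s (mem_span_of_eq_C hr)
  -- the relations
  obtain ⟨x₂, hx₂, e₂, he₂, hs₂⟩ := Submodule.mem_sup.mp (mem_colon.mp hl₂.2)
  obtain ⟨x₃, hx₃, e₃, he₃, hs₃⟩ := Submodule.mem_sup.mp (mem_colon.mp hl₃.2)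
  obtain ⟨m₂, hm₂, rfl⟩ := mem_map_mulBy.mp hx₂
  obtain ⟨m₃, hm₃, rfl⟩ := mem_map_mulBy.mp hx₃
  have hm₂h : m₂.IsHomogeneous 1 := hm₂
  have hm₃h : m₃.IsHomogeneous 1 := hm₃
  have key : l₃ * m₂ - l₂ * m₃ ∈ Ideal.span {p₀, p₁} := by
    apply hreg
    have e : (l₃ * m₂ - l₂ * m₃) * w = l₂ * e₃ - l₃ * e₂ := by
      linear_combination l₃ * hs₂ - l₂ * hs₃
    rw [e]
    exact Ideal.sub_mem _ (Ideal.mul_mem_left _ _ (mem_Id.mp he₃).1)
      (Ideal.mul_mem_left _ _ (mem_Id.mp he₂).1)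
  have hzero : l₃ * m₂ - l₂ * m₃ = 0 := by
    have h4 : l₃ * m₂ - l₂ * m₃ ∈ Id (Ideal.span {p₀, p₁}) 2 := by
      rw [mem_Id]
      exact ⟨key, (L₃.hom.mul hm₂h).sub (L₂.hom.mul hm₃h)⟩
    rw [P.Id_two h3, Submodule.mem_bot] at h4
    exact h4
  have hd2 : l₂ ∣ m₂ := by
    have h5 : l₂ ∣ l₃ * m₂ := ⟨m₃, by linear_combination hzero⟩
    exact (L₂.prime.dvd_or_dvd h5).resolve_left hnd
  obtain ⟨r, hr2⟩ := dvd_same_degree L₂.hom L₂.ne hm₂h hd2
  have hr3 : m₃ = C r * l₃ := by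
    apply mul_left_cancel₀ L₂.ne
    rw [hr2] at hzero
    linear_combination -hzero
  obtain ⟨v₀, hv₀⟩ : ∃ v₀, v₀ = v - C r * w := ⟨_, rfl⟩
  have hv₀V : v₀ ∈ V := by
    rw [hv₀]
    refine Submodule.sub_mem _ hv ?_
    rw [← smul_eq_C_mul]
    exact Submodule.smul_mem _ _ hw
  have hv₀I : v₀ ∉ Id (Ideal.span {p₀, p₁}) j := by
    intro h
    apply hv2
    have : v = r • w + v₀ := by
      rw [hv₀, smul_eq_C_mul]
      ring
    rw [this]
    exact Submodule.add_mem_sup (Submodule.smul_mem _ _ (Submodule.mem_span_singleton_self w)) h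
  have hv₀0 : v₀ ≠ 0 := by
    intro h
    exact hv₀I (h ▸ Submodule.zero_mem _)
  have hk2 : v₀ * l₂ ∈ Id (Ideal.span {p₀, p₁}) (j + 1) := by
    have e : v₀ * l₂ = e₂ := by
      rw [hr2] at hs₂
      rw [hv₀]
      linear_combination -hs₂
    rw [e]
    exact he₂
  have hk3 : v₀ * l₃ ∈ Id (Ideal.span {p₀, p₁}) (j + 1) := by
    have e : v₀ * l₃ = e₃ := by
      rw [hr3] at hs₃
      rw [hv₀]
      linear_combination -hs₃
    rw [e]
    exact he₃
  -- the dimension of the annihilator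
  have hP2 : 2 ≤ finrank K ↥(Sd K 1 ⊓ colon v₀ (Id (Ideal.span {p₀, p₁}) (j + 1))) := by
    by_contra hc
    haveI : FiniteDimensional K ↥(Sd K 1 ⊓ colon v₀ (Id (Ideal.span {p₀, p₁}) (j + 1))) :=
      Submodule.finiteDimensional_of_le inf_le_left
    have h6 : Submodule.span K {l₂} ≤ Sd K 1 ⊓ colon v₀ (Id (Ideal.span {p₀, p₁}) (j + 1)) :=
      (Submodule.span_singleton_le_iff_mem _ _).mpr ⟨hl₂.1, mem_colon.mpr hk2⟩
    have h7 : finrank K (Submodule.span K {l₂}) = 1 := finrank_span_singleton hl₂0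
    have h8 := Submodule.eq_of_le_of_finrank_le h6 (by omega)
    have h9 : l₃ ∈ Submodule.span K {l₂} := by
      rw [h8]
      exact ⟨hl₃.1, mem_colon.mpr hk3⟩
    exact hl₃s h9
  have h10 := rank_one hv₀0 (Bs := Id (Ideal.span {p₀, p₁}) (j + 1))
  -- growth of the form `v₀`
  have hSp0 := IsSp_span (𝔠 := Ideal.span {p₀, p₁}) (hV.hi hv₀V)
  have h15 := one_le_rk hSp0 (Submodule.mem_sup_left
    (Submodule.mem_span_singleton_self v₀)) hv₀I
  have h11 := P.E0' hj hSp0 h15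
  have h12 : upC (Ideal.span {p₀, p₁}) j (Submodule.span K {v₀} ⊔ Id (Ideal.span {p₀, p₁}) j)
      ≤ (Sd K 1).map (mulBy v₀) ⊔ Id (Ideal.span {p₀, p₁}) (j + 1) := by
    refine sup_le ?_ le_sup_right
    have h13 : up (Submodule.span K {v₀} ⊔ Id (Ideal.span {p₀, p₁}) j)
        = up (Submodule.span K {v₀}) ⊔ up (Id (Ideal.span {p₀, p₁}) j) := Submodule.mul_sup _ _ _
    rw [h13]
    refine sup_le ?_ (le_trans (up_Id_le _ _) le_sup_right)
    refine Submodule.mul_le.mpr fun a ha x hx => ?_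
    obtain ⟨r', rfl⟩ := Submodule.mem_span_singleton.mp hx
    refine Submodule.mem_sup_left ?_
    refine mem_map_mulBy.mpr ⟨r' • a, Submodule.smul_mem _ _ ha, ?_⟩
    simp only [smul_mul_assoc, mul_smul_comm, mul_comm]
  have hSpA := hSp0.upC
  have hSpB : IsSp (Ideal.span {p₀, p₁}) (j + 1)
      ((Sd K 1).map (mulBy v₀) ⊔ Id (Ideal.span {p₀, p₁}) (j + 1)) :=
    ⟨le_sup_right, sup_le (map_le_Sd (hV.hi hv₀V) (by omega) le_rfl) (Id_le _ _)⟩
  have h14 := hSpA.rk_mono hSpB h12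
  have a2 := hSpB.add
  omega

end Pr

end Vale.Agent.P200H
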