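import Vale.Agent.P200H.Crit2

/-!
# Spaces containing a regular form grow by at least three below the critical degree
-/

namespace Vale.Agent.P200H

open MvPolynomial Module Vale.Agent.P200 Vale.Agent.P200G

variable {K : Type*} [Field K]

/-- An element outside a subspace of a space raises the relative dimension. -/
theorem rk_lt_of_not_mem {𝔠 : Ideal (Pol K)} {j : ℕ} {Q D : Submodule K (Pol K)}
    (hQ : IsSp 𝔠 j Q) (hD : IsSp 𝔠 j D) (hle : Q ≤ D) {w : Pol K} (hw : w ∈ D) (hwQ : w ∉ Q) :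
    rk 𝔠 j Q + 1 ≤ rk 𝔠 j D := by
  by_contra hcon
  have h := hQ.eq_of_rk hD hle (by omega)
  exact hwQ (h ▸ hw)

/-- The statement that spaces with a regular form grow by at least three. -/
def K2a (α β : ℕ) (p₀ p₁ : Pol K) (n : ℕ) : Prop :=
  n + 5 ≤ α + β → ∀ V : Submodule K (Pol K), IsSp (Ideal.span {p₀, p₁}) n V → ∀ w ∈ V, RegMod w (Ideal.span {p₀, p₁}) →
    2 ≤ rk (Ideal.span {p₀, p₁}) n V → rk (Ideal.span {p₀, p₁}) n V + 3 ≤ rk (Ideal.span {p₀, p₁}) (n + 1) (upC (Ideal.span {p₀, p₁}) n V)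

namespace Pr

variable {α β : ℕ} {p₀ p₁ l : Pol K} (P : Pr α β p₀ p₁ l)

include P

omit P in
theorem reg_of_decomp {𝔠 : Ideal (Pol K)} {l w g e : Pol K} (he : e ∈ 𝔠) (h : w = l * g + e)
    (hw : RegMod w 𝔠) : RegMod g 𝔠 := by
  intro a ha
  apply hw
  rw [h]
  have e1 : a * (l * g + e) = l * (a * g) + a * e := by ring
  rw [e1]
  exact Ideal.add_mem _ (Ideal.mul_mem_left _ _ ha) (Ideal.mul_mem_left _ _ he)

/-- The multiples of a killed subspace by the linear form `l`. -/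
theorem rk_mapl {j : ℕ} {Q : Submodule K (Pol K)} (hQ : IsSp (Ideal.span {p₀, p₁}) j Q) :
    IsSp (Ideal.span {p₀, p₁}) (j + 1) (Q.map (mulBy l) ⊔ Id (Ideal.span {p₀, p₁}) (j + 1)) ∧
      rk (Ideal.span {p₀, p₁}) (j + 1) (Q.map (mulBy l) ⊔ Id (Ideal.span {p₀, p₁}) (j + 1)) = rk (Ideal.span {p₀, p₁}) j Q := by
  have hS : IsSp (Ideal.span {p₀, p₁}) (j + 1) (Q.map (mulBy l) ⊔ Id (Ideal.span {p₀, p₁}) (j + 1)) :=
    ⟨le_sup_right, sup_le (le_trans (Submodule.map_mono hQ.hi)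
      (map_le_Sd P.hl.hom (by omega) le_rfl)) (Id_le _ _)⟩
  refine ⟨hS, ?_⟩
  have h := regular_dim P.hl.hom P.hl.ne P.hreg hQ.lo hQ.hi
  have a1 := hS.add
  have a2 := hQ.add
  omega

/-- The core of the growth estimate. -/
theorem core [Infinite K] (h3 : 3 ≤ α) {n : ℕ} (hn : n + 5 ≤ α + β) (IH : K2a α β p₀ p₁ n)
    {V : Submodule K (Pol K)} (hV : IsSp (Ideal.span {p₀, p₁}) (n + 1) V) {w : Pol K} (hw : w ∈ V)
    (hreg : RegMod w (Ideal.span {p₀, p₁})) (h2 : 2 ≤ rk (Ideal.span {p₀, p₁}) (n + 1) V)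
    (hW : V ⊔ Id ((Ideal.span {p₀, p₁}) ⊔ Ideal.span {l}) (n + 1) ≠ Sd K (n + 1)) :
    rk (Ideal.span {p₀, p₁}) (n + 1) V + 3 ≤ rk (Ideal.span {p₀, p₁}) (n + 2) (upC (Ideal.span {p₀, p₁}) (n + 1) V) := by
  by_contra hcon
  obtain ⟨ub, bb, s1, s2, t1, t2, t3⟩ := P.data hV
  have hC' := hV.colon (l := l) P.hl
  have hTT : IsSp (Ideal.span {p₀, p₁}) (n + 2) (upC (Ideal.span {p₀, p₁}) (n + 1) V) := hV.upC
  have hD : IsSp (Ideal.span {p₀, p₁}) (n + 1) (colon l (upC (Ideal.span {p₀, p₁}) (n + 1) V)) := hTT.colon (l := l) P.hl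
  have m1 := IsSp.rk_mono hV hD (le_D P.hl)
  have m2 := IsSp.rk_mono hC'.upC hD (upC_le_D P.hl hV)
  have h5 := t2 hW
  have hwh : w.IsHomogeneous (n + 1) := hV.hi hw
  have hw0 := P.reg_ne hreg
  haveI := hTT.fin
  have hTa := hTT.add
  by_cases hub : ub = 0
  · -- the space lies in the multiples of `l`
    obtain ⟨g, hg, e, he, hwe⟩ := P.decomp hV hw (t3 hub hw)
    have hgreg : RegMod g (Ideal.span {p₀, p₁}) := reg_of_decomp (mem_Id.mp he).1 hwe hreg
    have h := IH hn _ hC' g hg hgreg (by omega)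
    omega
  by_cases hreg1 : ∃ w₁ ∈ colon l V, RegMod w₁ (Ideal.span {p₀, p₁})
  · obtain ⟨w₁, hw₁, hr₁⟩ := hreg1
    have hu'1 : 1 ≤ rk (Ideal.span {p₀, p₁}) n (colon l V) :=
      one_le_rk hC' hw₁ (fun h => P.reg_not_mem hr₁ (mem_Id.mp h).1)
    by_cases hu'2 : 2 ≤ rk (Ideal.span {p₀, p₁}) n (colon l V)
    · have h := IH hn _ hC' w₁ hw₁ hr₁ hu'2
      omega
    have hu'e : rk (Ideal.span {p₀, p₁}) n (colon l V) = 1 := by omega
    by_cases hub1 : ub = 1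
    · have h : 5 ≤ rk (Ideal.span {p₀, p₁}) (n + 2) (upC (Ideal.span {p₀, p₁}) (n + 1) V) := P.D2 h3 (by omega) hV (by omega) hw hreg
      omega
    -- the case of relative dimension three
    have hDV : V = colon l (upC (Ideal.span {p₀, p₁}) (n + 1) V) := IsSp.eq_of_rk hV hD (le_D P.hl) (by omega)
    have hCV : upC (Ideal.span {p₀, p₁}) n (colon l V) ≤ V := by
      conv_rhs => rw [hDV]
      exact upC_le_D P.hl hV
    have hw₁h : w₁.IsHomogeneous n := hC'.hi hw₁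
    have hw₁0 := P.reg_ne hr₁
    have hId1 : Id (Ideal.span {p₀, p₁}) 1 = ⊥ := Submodule.finrank_eq_zero.mp P.Id_one
    have hA := rk_mult hw₁h hw₁0 hr₁ hId1
    rw [finrank_Sd] at hA
    have hAS := IsSp_mult (𝔠 := (Ideal.span {p₀, p₁})) (t := 1) hw₁h
    have hAle : (Sd K 1).map (mulBy w₁) ⊔ Id (Ideal.span {p₀, p₁}) (n + 1) ≤ V :=
      le_trans (sup_le (le_trans (map_le_up hw₁) le_sup_left) le_sup_right) hCV
    have h33 : (1 + 2).choose 2 = 3 := rfl
    have hAV := hAS.eq_of_rk hV hAle (by omega)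
    have hB2 := rk_mult hw₁h hw₁0 hr₁ (P.Id_two h3)
    rw [finrank_Sd] at hB2
    have hBS := IsSp_mult (𝔠 := (Ideal.span {p₀, p₁})) (t := 2) hw₁h
    have hBle : (Sd K 2).map (mulBy w₁) ⊔ Id (Ideal.span {p₀, p₁}) (n + 2) ≤ upC (Ideal.span {p₀, p₁}) (n + 1) V := by
      refine sup_le ?_ le_sup_right
      rw [Submodule.map_le_iff_le_comap, show Sd K 2 = up (Sd K 1) from (up_top_eq 1).symm]
      refine Submodule.mul_le.mpr fun a ha b hb => ?_
      rw [Submodule.mem_comap]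
      refine Submodule.mem_sup_left ?_
      have e1 : (mulBy w₁) (a * b) = a * (w₁ * b) := by
        change w₁ * (a * b) = a * (w₁ * b)
        ring
      rw [e1]
      refine mul_mem_up ha ?_
      rw [← hAV]
      exact Submodule.mem_sup_left (mem_map_mulBy.mpr ⟨b, hb, rfl⟩)
    have hle := hBS.rk_mono hTT hBle
    have h66 : (2 + 2).choose 2 = 6 := rfl
    omega
  -- no regular form in the colon
  push_neg at hreg1
  by_cases hu'0 : rk (Ideal.span {p₀, p₁}) n (colon l V) = 0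
  · have h : 5 ≤ rk (Ideal.span {p₀, p₁}) (n + 2) (upC (Ideal.span {p₀, p₁}) (n + 1) V) := P.D2 h3 (by omega) hV (by omega) hw hreg
    omega
  have hQ := hC'.upC
  have hwQ : w ∉ upC (Ideal.span {p₀, p₁}) n (colon l V) := fun h => by
    obtain ⟨w₁, hw₁, hr⟩ := exists_reg_of_mem h hreg
    exact hreg1 w₁ hw₁ hr
  have hE := P.E0' (j := n) (by omega) hC' (by omega)
  by_cases hub1 : ub = 1
  · have h6 := rk_lt_of_not_mem hQ hD (upC_le_D P.hl hV) (le_D P.hl hw) hwQ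
    by_cases hQ2 : rk (Ideal.span {p₀, p₁}) n (colon l V) + 2 ≤ rk (Ideal.span {p₀, p₁}) (n + 1) (upC (Ideal.span {p₀, p₁}) n (colon l V))
    · omega
    obtain ⟨l₁, hl₁, hk⟩ := P.K1 n (by omega) _ hC' (by omega) (by omega)
    have hkQ := kill_up (n := n) hk
    obtain ⟨hS, hrS⟩ : IsSp (Ideal.span {p₀, p₁}) (n + 2) ((upC (Ideal.span {p₀, p₁}) n (colon l V)).map (mulBy l) ⊔ Id (Ideal.span {p₀, p₁}) (n + 2)) ∧
        rk (Ideal.span {p₀, p₁}) (n + 2) ((upC (Ideal.span {p₀, p₁}) n (colon l V)).map (mulBy l) ⊔ Id (Ideal.span {p₀, p₁}) (n + 2))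
          = rk (Ideal.span {p₀, p₁}) (n + 1) (upC (Ideal.span {p₀, p₁}) n (colon l V)) := P.rk_mapl hQ
    haveI := hS.fin
    have hkS : ∀ x ∈ (upC (Ideal.span {p₀, p₁}) n (colon l V)).map (mulBy l) ⊔ Id (Ideal.span {p₀, p₁}) (n + 2), l₁ * x ∈ (Ideal.span {p₀, p₁}) := by
      intro x hx
      obtain ⟨y, hy, e, he, rfl⟩ := Submodule.mem_sup.mp hx
      obtain ⟨q, hq, rfl⟩ := mem_map_mulBy.mp hy
      have e1 : l₁ * (l * q + e) = l * (l₁ * q) + l₁ * e := by ring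
      rw [e1]
      exact Ideal.add_mem _ (Ideal.mul_mem_left _ _ (hkQ q hq))
        (Ideal.mul_mem_left _ _ (mem_Id.mp he).1)
    have hZ := P.lemmaZ h3 hl₁ hkS hreg
    have hle : (Sd K 1).map (mulBy w) ⊔ ((upC (Ideal.span {p₀, p₁}) n (colon l V)).map (mulBy l) ⊔ Id (Ideal.span {p₀, p₁}) (n + 2))
        ≤ upC (Ideal.span {p₀, p₁}) (n + 1) V := by
      refine sup_le (le_trans (map_le_up hw) le_sup_left) (sup_le ?_ le_sup_right)
      rw [Submodule.map_le_iff_le_comap]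
      exact upC_le_D P.hl hV
    have h7 := finrank_le_of_le hle
    have a1 := hS.add
    omega
  -- the case of colength two in the reduction
  have hDV : V = colon l (upC (Ideal.span {p₀, p₁}) (n + 1) V) := IsSp.eq_of_rk hV hD (le_D P.hl) (by omega)
  have hQV : upC (Ideal.span {p₀, p₁}) n (colon l V) ≤ V := by
    conv_rhs => rw [hDV]
    exact upC_le_D P.hl hV
  have h6 := rk_lt_of_not_mem hQ hV hQV hw hwQ
  obtain ⟨l₁, hl₁, hk⟩ := P.K1 n (by omega) _ hC' (by omega) (by omega)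
  have hkQ := kill_up (n := n) hk
  have hkQ2 := kill_up (n := n + 1) hkQ
  have hE2 : rk (Ideal.span {p₀, p₁}) (n + 1) (upC (Ideal.span {p₀, p₁}) n (colon l V)) + 1
      ≤ rk (Ideal.span {p₀, p₁}) (n + 2) (upC (Ideal.span {p₀, p₁}) (n + 1) (upC (Ideal.span {p₀, p₁}) n (colon l V))) :=
    P.E0' (j := n + 1) (by omega) hQ (by omega)
  have hQ2 : IsSp (Ideal.span {p₀, p₁}) (n + 2) (upC (Ideal.span {p₀, p₁}) (n + 1) (upC (Ideal.span {p₀, p₁}) n (colon l V))) := hQ.upC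
  haveI := hQ2.fin
  have hZ := P.lemmaZ h3 hl₁ hkQ2 hreg
  have hle : (Sd K 1).map (mulBy w) ⊔ upC (Ideal.span {p₀, p₁}) (n + 1) (upC (Ideal.span {p₀, p₁}) n (colon l V))
      ≤ upC (Ideal.span {p₀, p₁}) (n + 1) V :=
    sup_le (le_trans (map_le_up hw) le_sup_left) (upC_mono hQV)
  have h7 := finrank_le_of_le hle
  have a1 := hQ2.add
  omega

/-- Below the critical degree, spaces with a regular form grow by at least three. -/
theorem K2a_all [Infinite K] (h3 : 3 ≤ α) : ∀ n, K2a α β p₀ p₁ n := by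
  have hαβ := P.hαβ
  intro n
  induction n with
  | zero =>
    intro _ V hV w _ _ h2
    have h := P.rk_le_top hV
    rw [hT_zero (by omega) (by omega)] at h
    omega
  | succ n ih =>
    intro hn V hV w hw hreg h2
    by_cases hW : V ⊔ Id ((Ideal.span {p₀, p₁}) ⊔ Ideal.span {l}) (n + 1) = Sd K (n + 1)
    · obtain ⟨ub, bb, s1, s2, t1, t2, t3⟩ := P.data hV
      have h4 := t1 hW
      have h5 : 3 ≤ hB α β (n + 2) := by
        simp only [hB]
        omega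
      have hTT : IsSp (Ideal.span {p₀, p₁}) (n + 2) (upC (Ideal.span {p₀, p₁}) (n + 1) V) := hV.upC
      have hD : IsSp (Ideal.span {p₀, p₁}) (n + 1) (colon l (upC (Ideal.span {p₀, p₁}) (n + 1) V)) := hTT.colon (l := l) P.hl
      have m1 := IsSp.rk_mono hV hD (le_D P.hl)
      have : rk (Ideal.span {p₀, p₁}) (n + 1 + 1) (upC (Ideal.span {p₀, p₁}) (n + 1) V) = rk (Ideal.span {p₀, p₁}) (n + 2) (upC (Ideal.span {p₀, p₁}) (n + 1) V) := rfl
      omega
    · exact P.core h3 (by omega) ih hV hw hreg h2 hW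

end Pr

end Vale.Agent.P200H
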