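import Vale.Agent.P200H.Persist3

/-!
# The growth in the critical degree for a proper subspace with a regular form
-/

namespace Vale.Agent.P200H

open MvPolynomial Module Vale.Agent.P200 Vale.Agent.P200G

variable {K : Type*} [Field K]

namespace Pr

variable {α β : ℕ} {p₀ p₁ l : Pol K} (P : Pr α β p₀ p₁ l)

include P

/-- In the critical degree, a proper subspace containing a regular form has one more
unit of growth than the general bound. -/
theorem critical [Infinite K] (h3 : 3 ≤ α) {j : ℕ} (hj : j + 4 = α + β) {V : Submodule K (Pol K)}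
    (hV : IsSp (Ideal.span {p₀, p₁}) j V) {i : ℕ} (hi : i < α) (hR : RR α β j i < rk (Ideal.span {p₀, p₁}) j V)
    (hne : V ≠ Sd K j) {w : Pol K} (hw : w ∈ V) (hreg : RegMod w (Ideal.span {p₀, p₁})) :
    gg α β j i + rk (Ideal.span {p₀, p₁}) j V + 1 ≤ rk (Ideal.span {p₀, p₁}) (j + 1) (upC (Ideal.span {p₀, p₁}) j V) := by
  have hαβ := P.hαβ
  by_cases hi1 : i + 1 = α
  · -- the last row
    have hg : gg α β j i = 1 := by
      simp only [gg]
      omega
    rw [hg]
    by_contra hcon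
    obtain ⟨l₁, hl₁, hk⟩ := P.K1 j (by omega) V hV (by omega) (by omega)
    have h1 : l₁ ∈ (Ideal.span {p₀, p₁}) := hreg l₁ (hk w hw)
    have h2 : l₁ ∈ Id (Ideal.span {p₀, p₁}) 1 := mem_Id.mpr ⟨h1, hl₁.hom⟩
    have h4 : Id (Ideal.span {p₀, p₁}) 1 = ⊥ := Submodule.finrank_eq_zero.mp P.Id_one
    rw [h4, Submodule.mem_bot] at h2
    exact hl₁.ne h2
  -- the other rows
  have hg : gg α β j i = 2 := by
    simp only [gg]
    omega
  rw [hg]
  have hR1 : 1 ≤ RR α β j i := by
    simp only [RR, rowS]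
    have h1 : α - 1 ∈ Finset.Ico (i + 1) α := by
      simp only [Finset.mem_Ico]
      omega
    have h2 : min (j + 1 - (α - 1)) β ≤ ∑ x ∈ Finset.Ico (i + 1) α, min (j + 1 - x) β :=
      Finset.single_le_sum (f := fun x => min (j + 1 - x) β) (fun x _ => Nat.zero_le _) h1
    omega
  by_contra hcon
  by_cases hW : V ⊔ Id (Ideal.span {p₀, p₁} ⊔ Ideal.span {l}) j = Sd K j
  · exact hne (P.persist h3 hj hV hW (by omega) hw hreg)
  · obtain ⟨n, rfl⟩ : ∃ n, j = n + 1 := ⟨j - 1, by omega⟩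
    have h5 := P.core h3 (by omega) (P.K2a_all h3 n) hV hw hreg (by omega) hW
    have e : rk (Ideal.span {p₀, p₁}) (n + 1 + 1) (upC (Ideal.span {p₀, p₁}) (n + 1) V) = rk (Ideal.span {p₀, p₁}) (n + 2) (upC (Ideal.span {p₀, p₁}) (n + 1) V) := rfl
    omega

end Pr

end Vale.Agent.P200H
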