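import Vale.Agent.P200G.Defs

/-!
# Lex-plus-powers spaces for the degrees `(a, b, c)` in three variables

Monomials of `K[x₀,x₁,x₂]` are indexed by exponent vectors `e : Fin 3 →₀ ℕ`, and `x₀ > x₁ > x₂`.
-/

namespace Vale.Agent.P200H

open MvPolynomial Module Vale.Agent.P200 Vale.Agent.P200G

variable {K : Type*} [Field K]

/-- The monomial with exponent vector `e` lies in `P = (x₀ᵃ, x₁ᵇ, x₂ᶜ)`. -/
def InPG (a b c : ℕ) (e : Fin 3 →₀ ℕ) : Prop := a ≤ e 0 ∨ b ≤ e 1 ∨ c ≤ e 2

/-- The number of monomials of the same degree as `e`, outside `P`, lexicographically greater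
than `e`. -/
noncomputable def lexRankG (a b c : ℕ) (e : Fin 3 →₀ ℕ) : ℕ :=
  Set.ncard {e' : Fin 3 →₀ ℕ | e'.degree = e.degree ∧ ¬ InPG a b c e' ∧ LexGt e' e}

/-- The number `q_d = dim I_d - dim P_d`. -/
noncomputable def qDimG (a b c : ℕ) (I : Ideal (Pol K)) (d : ℕ) : ℕ :=
  finrank K (degPart I d) - Set.ncard {e : Fin 3 →₀ ℕ | e.degree = d ∧ InPG a b c e}

/-- The space `J_d`: the span of the monomials of degree `d` in `P` and of the `q_d`
lexicographically greatest monomials of degree `d` outside `P`. -/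
noncomputable def lexPlusPowersG (a b c : ℕ) (I : Ideal (Pol K)) (d : ℕ) :
    Submodule K (Pol K) :=
  Submodule.span K {p | ∃ e : Fin 3 →₀ ℕ, e.degree = d ∧
    (InPG a b c e ∨ lexRankG a b c e < qDimG a b c I d) ∧ p = monomial e 1}

end Vale.Agent.P200H
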