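import Vale.Agent.P200H.Crit4

/-!
# The persistence theorem one degree above the critical degree
-/

namespace Vale.Agent.P200H

open MvPolynomial Module Vale.Agent.P200 Vale.Agent.P200G

variable {K : Type*} [Field K]

/-- Two independent functionals have a dual pair of vectors. -/
theorem exists_dual2 {V : Type*} [AddCommGroup V] [Module K V] (f₁ f₂ : V →ₗ[K] K)
    (h : ∀ a b : K, (∀ v, a * f₁ v + b * f₂ v = 0) → a = 0 ∧ b = 0) :
    ∃ v₁ v₂ : V, (f₁ v₁ = 1 ∧ f₂ v₁ = 0) ∧ (f₁ v₂ = 0 ∧ f₂ v₂ = 1) := by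
  let φ : V →ₗ[K] (Fin 2 → K) := LinearMap.pi ![f₁, f₂]
  have hφ : ∀ v, φ v = ![f₁ v, f₂ v] := by
    intro v
    funext i
    fin_cases i <;> rfl
  have hsurj : LinearMap.range φ = ⊤ := by
    by_contra hne
    obtain ⟨f, hf, hker⟩ := Submodule.exists_le_ker_of_lt_top _ (lt_top_iff_ne_top.mpr hne)
    have hx : ∀ x : Fin 2 → K, f x = x 0 * f ![1, 0] + x 1 * f ![0, 1] := by
      intro x
      have e : x = x 0 • ![1, 0] + x 1 • ![0, 1] := by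
        funext i
        fin_cases i <;> simp
      conv_lhs => rw [e]
      simp only [map_add, map_smul, smul_eq_mul]
    obtain ⟨h1, h2⟩ := h (f ![1, 0]) (f ![0, 1]) (by
      intro v
      have h4 : f (φ v) = 0 := hker ⟨v, rfl⟩
      rw [hx, hφ] at h4
      simp only [Matrix.cons_val_zero, Matrix.cons_val_one] at h4
      linear_combination h4)
    apply hf
    refine LinearMap.ext fun x => ?_
    rw [hx, h1, h2]
    simp
  have hmem : ∀ y : Fin 2 → K, ∃ v, φ v = y := fun y => by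
    have : y ∈ LinearMap.range φ := by
      rw [hsurj]
      trivial
    exact this
  obtain ⟨v₁, h₁⟩ := hmem ![1, 0]
  obtain ⟨v₂, h₂⟩ := hmem ![0, 1]
  rw [hφ] at h₁ h₂
  exact ⟨v₁, v₂, ⟨congrFun h₁ 0, congrFun h₁ 1⟩, ⟨congrFun h₂ 0, congrFun h₂ 1⟩⟩

namespace Tr

variable {l s t : Pol K}

/-- Two of the forms are independent modulo the third. -/
theorem indep1 (tr : Tr l s t) {a b r : K} (h : C a * s + C b * t = C r * l) : a = 0 ∧ b = 0 := by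
  have hspan : Sd K 1 ≤ Submodule.span K (Set.range ![l, s, t]) := by
    intro m hm
    obtain ⟨x, y, z, rfl⟩ := tr.span m hm
    simp only [← smul_eq_C_mul]
    refine Submodule.add_mem _ (Submodule.add_mem _ ?_ ?_) ?_
    · exact Submodule.smul_mem _ _ (Submodule.subset_span ⟨0, rfl⟩)
    · exact Submodule.smul_mem _ _ (Submodule.subset_span ⟨1, rfl⟩)
    · exact Submodule.smul_mem _ _ (Submodule.subset_span ⟨2, rfl⟩)
  have hle : Submodule.span K (Set.range ![l, s, t]) ≤ Sd K 1 := by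
    refine Submodule.span_le.mpr ?_
    rintro _ ⟨i, rfl⟩
    fin_cases i
    · exact tr.hl
    · exact tr.hs
    · exact tr.ht
  have heq : Submodule.span K (Set.range ![l, s, t]) = Sd K 1 := le_antisymm hle hspan
  have h7 : Fintype.card (Fin 3) = (Set.range ![l, s, t]).finrank K := by
    change _ = finrank K (Submodule.span K (Set.range ![l, s, t]))
    rw [heq, finrank_Sd, Fintype.card_fin]
    rfl
  have hli := linearIndependent_iff_card_eq_finrank_span.mpr h7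
  have key := Fintype.linearIndependent_iff.mp hli ![-r, a, b] (by
    rw [Fin.sum_univ_three]
    simp only [Matrix.cons_val_zero, Matrix.cons_val_one, Matrix.cons_val, smul_eq_C_mul, map_neg]
    linear_combination h)
  exact ⟨key 1, key 2⟩

end Tr

/-- The relations one degree above the critical degree. -/
structure RE (𝔠 : Ideal (Pol K)) (j : ℕ) (V : Submodule K (Pol K))
    (l s t v₁ v₂ a b c e₁ e₂ e₃ : Pol K) : Prop where
  tr : Tr l s t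
  hV : IsSp 𝔠 j V
  ha : a ∈ V
  hb : b ∈ V
  hc : c ∈ V
  he₁ : e₁ ∈ Id 𝔠 (j + 1)
  he₂ : e₂ ∈ Id 𝔠 (j + 1)
  he₃ : e₃ ∈ Id 𝔠 (j + 1)
  R1 : t * v₁ = l * b + e₁
  R2 : s * v₂ = l * a + e₂
  R3 : s * v₁ - t * v₂ = l * c + e₃
  I1 : ∀ x ∈ Uk 𝔠 j V 1, ∃ a' ∈ V, ∃ r : K, ∃ e ∈ Id 𝔠 (j + 1),
    x = l * a' + C r * (s * v₁) + e

namespace RE

variable {𝔠 : Ideal (Pol K)} {j : ℕ} {V : Submodule K (Pol K)}
  {l s t v₁ v₂ a b c e₁ e₂ e₃ : Pol K}

/-- The second growth is a multiple of the linear form. -/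
theorem up2 (h : RE 𝔠 j V l s t v₁ v₂ a b c e₁ e₂ e₃) :
    Uk 𝔠 j V 2 ≤ (Uk 𝔠 j V 1).map (mulBy l) ⊔ Id 𝔠 (j + 2) := by
  have ht := h.tr.ht
  have hs := h.tr.hs
  have hmem : ∀ a₁ ∈ Uk 𝔠 j V 1, ∀ e ∈ Id 𝔠 (j + 2), l * a₁ + e
      ∈ (Uk 𝔠 j V 1).map (mulBy l) ⊔ Id 𝔠 (j + 2) := by
    intro a₁ ha₁ e he
    exact Submodule.add_mem _ (Submodule.mem_sup_left (mem_map_mulBy.mpr ⟨a₁, ha₁, rfl⟩))
      (Submodule.mem_sup_right he)
  refine sup_le (h.tr.up_le fun y hy => ⟨?_, ?_, ?_⟩) le_sup_right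
  · exact Submodule.mem_sup_left (mem_map_mulBy.mpr ⟨y, hy, rfl⟩)
  · obtain ⟨a', ha', r, e, he, hy'⟩ := h.I1 y hy
    have e1 : s * y = l * (s * a' + C r * (t * a + s * c))
        + (s * e + C r * (t * e₂ + s * e₃)) := by
      linear_combination s * hy' + (C r * s) * h.R3 + (C r * t) * h.R2
    rw [e1]
    exact hmem _ (Submodule.add_mem _ (mem_Uk_succ hs ha') (C_mul_mem _ (Submodule.add_mem _
      (mem_Uk_succ ht h.ha) (mem_Uk_succ hs h.hc)))) _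
      (Submodule.add_mem _ (mul_Id hs he) (C_mul_mem _ (Submodule.add_mem _
        (mul_Id ht h.he₂) (mul_Id hs h.he₃))))
  · obtain ⟨a', ha', r, e, he, hy'⟩ := h.I1 y hy
    have e1 : t * y = l * (t * a' + C r * (s * b)) + (t * e + C r * (s * e₁)) := by
      linear_combination t * hy' + (C r * s) * h.R1
    rw [e1]
    exact hmem _ (Submodule.add_mem _ (mem_Uk_succ ht ha') (C_mul_mem _ (mem_Uk_succ hs h.hb))) _
      (Submodule.add_mem _ (mul_Id ht he) (C_mul_mem _ (mul_Id hs h.he₁)))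

theorem upk (h : RE 𝔠 j V l s t v₁ v₂ a b c e₁ e₂ e₃) : ∀ k,
    Uk 𝔠 j V (k + 2) ≤ (Uk 𝔠 j V (k + 1)).map (mulBy l) ⊔ Id 𝔠 (j + (k + 2)) := by
  intro k
  induction k with
  | zero => exact h.up2
  | succ k ih =>
    refine sup_le (Submodule.mul_le.mpr fun m hm y hy => ?_) le_sup_right
    obtain ⟨x, hx, e, he, rfl⟩ := Submodule.mem_sup.mp (ih hy)
    obtain ⟨a₁, ha₁, rfl⟩ := mem_map_mulBy.mp hx
    have e1 : m * (l * a₁ + e) = l * (m * a₁) + m * e := by ring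
    rw [e1]
    refine Submodule.add_mem _ (Submodule.mem_sup_left (mem_map_mulBy.mpr ⟨_, ?_, rfl⟩))
      (Submodule.mem_sup_right (mul_Id hm he))
    exact mem_Uk_succ hm ha₁

end RE

namespace Pr

variable {α β : ℕ} {p₀ p₁ l : Pol K} (P : Pr α β p₀ p₁ l)

include P

theorem rk_Uk2 {j : ℕ} {V : Submodule K (Pol K)} {s t v₁ v₂ a b c e₁ e₂ e₃ : Pol K}
    (h : RE (Ideal.span {p₀, p₁}) j V l s t v₁ v₂ a b c e₁ e₂ e₃) (k : ℕ) :
    rk (Ideal.span {p₀, p₁}) (j + (k + 1)) (Uk (Ideal.span {p₀, p₁}) j V (k + 1)) ≤ rk (Ideal.span {p₀, p₁}) (j + 1) (Uk (Ideal.span {p₀, p₁}) j V 1) := by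
  induction k with
  | zero => exact le_rfl
  | succ k ih =>
    have hU1 : IsSp (Ideal.span {p₀, p₁}) (j + (k + 1)) (Uk (Ideal.span {p₀, p₁}) j V (k + 1)) := Uk_isSp h.hV (k + 1)
    have hU2 : IsSp (Ideal.span {p₀, p₁}) (j + (k + 2)) (Uk (Ideal.span {p₀, p₁}) j V (k + 2)) := Uk_isSp h.hV (k + 2)
    obtain ⟨hS, hrS⟩ : IsSp (Ideal.span {p₀, p₁}) (j + (k + 2)) ((Uk (Ideal.span {p₀, p₁}) j V (k + 1)).map (mulBy l) ⊔ Id (Ideal.span {p₀, p₁}) (j + (k + 2))) ∧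
        rk (Ideal.span {p₀, p₁}) (j + (k + 2)) ((Uk (Ideal.span {p₀, p₁}) j V (k + 1)).map (mulBy l) ⊔ Id (Ideal.span {p₀, p₁}) (j + (k + 2)))
          = rk (Ideal.span {p₀, p₁}) (j + (k + 1)) (Uk (Ideal.span {p₀, p₁}) j V (k + 1)) := P.rk_mapl hU1
    have hle := h.upk k
    have h1 := hU2.rk_mono hS hle
    have e0 : rk (Ideal.span {p₀, p₁}) (j + (k + 1 + 1)) (Uk (Ideal.span {p₀, p₁}) j V (k + 1 + 1)) = rk (Ideal.span {p₀, p₁}) (j + (k + 2)) (Uk (Ideal.span {p₀, p₁}) j V (k + 2)) := rfl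
    rw [e0]
    omega

/-- The relations one degree above the critical degree, from Gorenstein duality. -/
theorem exists_RE {j : ℕ} (hj : j + 3 = α + β) {V : Submodule K (Pol K)}
    (hV : IsSp (Ideal.span {p₀, p₁}) j V) (hW : V ⊔ Id (Ideal.span {p₀, p₁} ⊔ Ideal.span {l}) j = Sd K j) (hDV : V = colon l (upC (Ideal.span {p₀, p₁}) j V))
    {s t : Pol K} (tr : Tr l s t) :
    ∃ v₁ v₂ a b c e₁ e₂ e₃, RE (Ideal.span {p₀, p₁}) j V l s t v₁ v₂ a b c e₁ e₂ e₃ := by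
  have hq := P.hT3
  have hs3 : (j + 1) + 3 = (![α, β, 1] : Fin 3 → ℕ) 0 + (![α, β, 1] : Fin 3 → ℕ) 1
      + (![α, β, 1] : Fin 3 → ℕ) 2 := by
    simp only [Matrix.cons_val_zero, Matrix.cons_val_one, Matrix.cons_val]
    omega
  obtain ⟨τ, hτ⟩ := hq.exists_tau (K := K) hs3
  have hnd := hq.nondeg hs3 hτ
  rw [P.fid3] at hτ hnd
  have hU : IsSp (Ideal.span {p₀, p₁}) (j + 1) (upC (Ideal.span {p₀, p₁}) j V) := hV.upC
  have hm : ∀ {m x : Pol K}, m ∈ Sd K 1 → x ∈ V → m * x ∈ upC (Ideal.span {p₀, p₁}) j V :=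
    fun hm hx => Submodule.mem_sup_left (mul_mem_up hm hx)
  have hsS := tr.hs
  have htS := tr.ht
  have hkill : ∀ x ∈ upC (Ideal.span {p₀, p₁}) j V, τ x = 0 → x ∈ (Ideal.span {p₀, p₁} ⊔ Ideal.span {l}) := fun x hx h1 => (hτ x (hU.hi hx)).mp h1
  have hpair : ∀ q₀ : Pol K, q₀.IsHomogeneous 1 → (∀ v ∈ V, τ (q₀ * v) = 0) → q₀ ∈ (Ideal.span {p₀, p₁} ⊔ Ideal.span {l}) := by
    intro q₀ hq₀ h
    refine hnd j 1 (by omega) q₀ hq₀ fun b hb => ?_
    have hb' : b ∈ V ⊔ Id (Ideal.span {p₀, p₁} ⊔ Ideal.span {l}) j := by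
      rw [hW]
      exact hb
    obtain ⟨v, hv, e, he, rfl⟩ := Submodule.mem_sup.mp hb'
    rw [add_mul, map_add, mul_comm v, h v hv, zero_add]
    refine (hτ _ ?_).mpr (Ideal.mul_mem_right _ _ (mem_Id.mp he).1)
    exact (mem_Id.mp he).2.mul hq₀
  obtain ⟨⟨v₁, hv₁⟩, ⟨v₂, hv₂⟩, ⟨a11, a12⟩, ⟨a21, a22⟩⟩ :=
    exists_dual2 ((τ ∘ₗ mulBy s) ∘ₗ V.subtype) ((τ ∘ₗ mulBy t) ∘ₗ V.subtype) (by
    intro a b h
    have hqh : (C a * s + C b * t).IsHomogeneous 1 :=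
      Submodule.add_mem (Sd K 1) (C_mul_mem a hsS) (C_mul_mem b htS)
    have hqD := hpair _ hqh (by
      intro v hv
      have e : (C a * s + C b * t) * v = a • (s * v) + b • (t * v) := by
        simp only [smul_eq_C_mul]
        ring
      rw [e, map_add, map_smul, map_smul]
      exact h ⟨v, hv⟩)
    have h4 : C a * s + C b * t ∈ Id (Ideal.span {p₀, p₁} ⊔ Ideal.span {l}) (0 + 1) := mem_Id.mpr ⟨hqD, hqh⟩
    obtain ⟨e, he, y, hy, he2⟩ := Submodule.mem_sup.mp (Id_sup_le P.hC P.hl.hom 0 h4)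
    obtain ⟨m, hm', rfl⟩ := mem_map_mulBy.mp hy
    have he0 : e = 0 := by
      have h5 : e ∈ Id (Ideal.span {p₀, p₁}) 1 := he
      have h6 : Id (Ideal.span {p₀, p₁}) 1 = ⊥ := Submodule.finrank_eq_zero.mp P.Id_one
      rw [h6, Submodule.mem_bot] at h5
      exact h5
    rw [he0, zero_add] at he2
    obtain ⟨r, hr⟩ := dvd_same_degree P.hl.hom P.hl.ne hqh ⟨m, he2.symm⟩
    exact tr.indep1 hr)
  have a11 : τ (s * v₁) = 1 := a11
  have a12 : τ (t * v₁) = 0 := a12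
  have a21 : τ (s * v₂) = 0 := a21
  have a22 : τ (t * v₂) = 1 := a22
  have rel : ∀ x ∈ upC (Ideal.span {p₀, p₁}) j V, x ∈ (Ideal.span {p₀, p₁} ⊔ Ideal.span {l}) → ∃ g ∈ V, ∃ e ∈ Id (Ideal.span {p₀, p₁}) (j + 1), x = l * g + e := by
    intro x hx hxD
    have h4 : x ∈ Id (Ideal.span {p₀, p₁} ⊔ Ideal.span {l}) (j + 1) := mem_Id.mpr ⟨hxD, hU.hi hx⟩
    obtain ⟨e, he, y, hy, rfl⟩ := Submodule.mem_sup.mp (Id_sup_le P.hC P.hl.hom j h4)
    obtain ⟨g, -, rfl⟩ := mem_map_mulBy.mp hy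
    refine ⟨g, ?_, e, he, by ring⟩
    rw [hDV, mem_colon]
    have e1 : l * g = (e + l * g) - e := by ring
    rw [e1]
    exact Submodule.sub_mem _ hx (Submodule.mem_sup_right he)
  obtain ⟨b, hb, e₁, he₁, R1⟩ := rel (t * v₁) (hm htS hv₁) (hkill _ (hm htS hv₁) a12)
  obtain ⟨a, ha, e₂, he₂, R2⟩ := rel (s * v₂) (hm hsS hv₂) (hkill _ (hm hsS hv₂) a21)
  obtain ⟨c, hc, e₃, he₃, R3⟩ := rel (s * v₁ - t * v₂) (Submodule.sub_mem _ (hm hsS hv₁) (hm htS hv₂))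
    (hkill _ (Submodule.sub_mem _ (hm hsS hv₁) (hm htS hv₂))
    (by rw [map_sub, a11, a22, sub_self]))
  refine ⟨v₁, v₂, a, b, c, e₁, e₂, e₃, tr, hV, ha, hb, hc, he₁, he₂, he₃,
    R1, R2, R3, fun x hx => ?_⟩
  have hx' : x ∈ upC (Ideal.span {p₀, p₁}) j V := hx
  obtain ⟨g, hg, e, he, hxe⟩ := rel (x - C (τ x) * (s * v₁))
    (Submodule.sub_mem _ hx' (C_mul_mem _ (hm hsS hv₁)))
    (hkill _ (Submodule.sub_mem _ hx' (C_mul_mem _ (hm hsS hv₁))) (by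
        rw [← smul_eq_C_mul, map_sub, map_smul, a11]
        simp))
  refine ⟨g, hg, τ x, e, he, ?_⟩
  linear_combination hxe

/-- The persistence theorem one degree above the critical degree. -/
theorem persist2 {j : ℕ} (hj : j + 3 = α + β) {V : Submodule K (Pol K)}
    (hV : IsSp (Ideal.span {p₀, p₁}) j V) (hW : V ⊔ Id (Ideal.span {p₀, p₁} ⊔ Ideal.span {l}) j = Sd K j)
    (hg : rk (Ideal.span {p₀, p₁}) (j + 1) (upC (Ideal.span {p₀, p₁}) j V) ≤ rk (Ideal.span {p₀, p₁}) j V + 1) {w : Pol K} (hw : w ∈ V)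
    (hreg : RegMod w (Ideal.span {p₀, p₁})) : V = Sd K j := by
  have hαβ := P.hαβ
  have hα := P.hα
  obtain ⟨n, rfl⟩ : ∃ n, j = n + 1 := ⟨j - 1, by omega⟩
  have s2 := T_split P.hC P.hl P.hreg hV
  rw [hW, upC_top, P.rkD_top] at s2
  have hB2 : hB α β (n + 2) = 1 := by
    simp only [hB]
    omega
  have hTT : IsSp (Ideal.span {p₀, p₁}) (n + 2) (upC (Ideal.span {p₀, p₁}) (n + 1) V) := hV.upC
  have hD : IsSp (Ideal.span {p₀, p₁}) (n + 1) (colon l (upC (Ideal.span {p₀, p₁}) (n + 1) V)) := hTT.colon (l := l) P.hl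
  have m1 := IsSp.rk_mono hV hD (le_D P.hl)
  have hg' : rk (Ideal.span {p₀, p₁}) (n + 2) (upC (Ideal.span {p₀, p₁}) (n + 1) V) ≤ rk (Ideal.span {p₀, p₁}) (n + 1) V + 1 := hg
  have hDV : V = colon l (upC (Ideal.span {p₀, p₁}) (n + 1) V) := IsSp.eq_of_rk hV hD (le_D P.hl) (by omega)
  obtain ⟨s, t, tr⟩ := exists_Tr P.hl
  obtain ⟨v₁, v₂, a, b, c, e₁, e₂, e₃, hRE⟩ := P.exists_RE hj hV hW hDV tr
  have hmult : ∀ i, (Sd K (i + 1)).map (mulBy w) ≤ Uk (Ideal.span {p₀, p₁}) (n + 1) V (i + 1) := by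
    intro i
    induction i with
    | zero => exact le_trans (map_le_up hw) le_sup_left
    | succ i ih =>
      rw [Submodule.map_le_iff_le_comap, ← up_top_eq (i + 1)]
      refine Submodule.mul_le.mpr fun a' ha' b' hb' => ?_
      rw [Submodule.mem_comap]
      have e1 : (mulBy w) (a' * b') = a' * (w * b') := by
        change w * (a' * b') = a' * (w * b')
        ring
      rw [e1]
      exact mem_Uk_succ ha' (ih (mem_map_mulBy.mpr ⟨b', hb', rfl⟩))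
  have hwh : w.IsHomogeneous (n + 1) := hV.hi hw
  have hq3 : IsReg3 ![α, β, n + 1] ![p₀, p₁, w] :=
    isReg3_mk P.h₀ P.h₁ hwh (by omega) (by omega) (by omega) P.h0 P.hr hreg
  have hs3 : (n + 1 + (n + 1)) + 3 = (![α, β, n + 1] : Fin 3 → ℕ) 0
      + (![α, β, n + 1] : Fin 3 → ℕ) 1 + (![α, β, n + 1] : Fin 3 → ℕ) 2 := by
    simp only [Matrix.cons_val_zero, Matrix.cons_val_one, Matrix.cons_val]
    omega
  have hTop := hq3.Sd_le_Id (K := K) hs3 (n := (n + 1 + 1) + (n + 1)) (by omega)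
  rw [Fid_vec, Id_sup_eq P.hC hwh] at hTop
  have hUk : IsSp (Ideal.span {p₀, p₁}) (n + 1 + (n + 1 + 1)) (Uk (Ideal.span {p₀, p₁}) (n + 1) V (n + 1 + 1)) := Uk_isSp hV _
  have hdeg : n + 1 + 1 + (n + 1) = n + 1 + (n + 1 + 1) := by omega
  rw [hdeg] at hTop
  have hle : Sd K (n + 1 + (n + 1 + 1)) ≤ Uk (Ideal.span {p₀, p₁}) (n + 1) V (n + 1 + 1) :=
    le_trans hTop (sup_le (hmult (n + 1)) hUk.lo)
  have h5 := (IsSp.top (Ideal.span {p₀, p₁}) (n + 1 + (n + 1 + 1))).rk_mono hUk hle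
  rw [P.rk_top, hT_large (by omega)] at h5
  have h6 := P.rk_Uk2 hRE (n + 1)
  have e1 : rk (Ideal.span {p₀, p₁}) (n + 1 + 1) (Uk (Ideal.span {p₀, p₁}) (n + 1) V 1) = rk (Ideal.span {p₀, p₁}) (n + 2) (upC (Ideal.span {p₀, p₁}) (n + 1) V) := rfl
  rw [e1] at h6
  have h7 := hT_succ α β (n + 1)
  rw [hT_large (n := n + 1 + 1) (by omega)] at h7
  have hb1 : hB α β (n + 1 + 1) = 1 := hB2
  rw [hb1] at h7
  refine IsSp.eq_of_rk hV (IsSp.top _ _) hV.hi ?_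
  rw [P.rk_top]
  omega

/-- One degree above the critical degree, a proper subspace with a regular form grows by two. -/
theorem critical2 [Infinite K] {j : ℕ} (hj : j + 3 = α + β) {V : Submodule K (Pol K)}
    (hV : IsSp (Ideal.span {p₀, p₁}) j V) (hne : V ≠ Sd K j) {w : Pol K} (hw : w ∈ V) (hreg : RegMod w (Ideal.span {p₀, p₁})) :
    rk (Ideal.span {p₀, p₁}) j V + 2 ≤ rk (Ideal.span {p₀, p₁}) (j + 1) (upC (Ideal.span {p₀, p₁}) j V) := by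
  have hαβ := P.hαβ
  have hα := P.hα
  by_contra hcon
  have hone := P.one_not_mem
  have hId1 : Id (Ideal.span {p₀, p₁}) 1 = ⊥ := Submodule.finrank_eq_zero.mp P.Id_one
  have noK : ∀ {n : ℕ} {C' : Submodule K (Pol K)} {w₁ : Pol K}, n + 4 ≤ α + β → IsSp (Ideal.span {p₀, p₁}) n C' →
      w₁ ∈ C' → RegMod w₁ (Ideal.span {p₀, p₁}) → 1 ≤ rk (Ideal.span {p₀, p₁}) n C' → rk (Ideal.span {p₀, p₁}) n C' + 2 ≤ rk (Ideal.span {p₀, p₁}) (n + 1) (upC (Ideal.span {p₀, p₁}) n C') := by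
    intro n C' w₁ hn hC' hw₁ hr₁ h1
    by_contra hc
    obtain ⟨l₁, hl₁, hk⟩ := P.K1 n hn C' hC' h1 (by omega)
    have h3 : l₁ ∈ (Ideal.span {p₀, p₁}) := hr₁ l₁ (hk w₁ hw₁)
    have h2 : l₁ ∈ Id (Ideal.span {p₀, p₁}) 1 := mem_Id.mpr ⟨h3, hl₁.hom⟩
    rw [hId1, Submodule.mem_bot] at h2
    exact hl₁.ne h2
  obtain ⟨n, rfl⟩ : ∃ n, j = n + 1 := ⟨j - 1, by omega⟩
  have hu1 : 1 ≤ rk (Ideal.span {p₀, p₁}) (n + 1) V := one_le_rk hV hw (fun h => P.reg_not_mem hreg (mem_Id.mp h).1)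
  by_cases hW : V ⊔ Id (Ideal.span {p₀, p₁} ⊔ Ideal.span {l}) (n + 1) = Sd K (n + 1)
  · exact hne (P.persist2 hj hV hW (by omega) hw hreg)
  obtain ⟨ub, bb, s1, s2, t1, t2, t3⟩ := P.data hV
  have h5 := t2 hW
  have hC' := hV.colon (l := l) P.hl
  have hTT : IsSp (Ideal.span {p₀, p₁}) (n + 2) (upC (Ideal.span {p₀, p₁}) (n + 1) V) := hV.upC
  have hD : IsSp (Ideal.span {p₀, p₁}) (n + 1) (colon l (upC (Ideal.span {p₀, p₁}) (n + 1) V)) := hTT.colon (l := l) P.hl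
  have m1 := IsSp.rk_mono hV hD (le_D P.hl)
  have m2 := IsSp.rk_mono hC'.upC hD (upC_le_D P.hl hV)
  have e0 : rk (Ideal.span {p₀, p₁}) (n + 1 + 1) (upC (Ideal.span {p₀, p₁}) (n + 1) V) = rk (Ideal.span {p₀, p₁}) (n + 2) (upC (Ideal.span {p₀, p₁}) (n + 1) V) := rfl
  rw [e0] at hcon
  by_cases hub : ub = 0
  · obtain ⟨g, hg, e, he, hwe⟩ := P.decomp hV hw (t3 hub hw)
    have hgreg : RegMod g (Ideal.span {p₀, p₁}) := reg_of_decomp (mem_Id.mp he).1 hwe hreg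
    have h7 := noK (n := n) (by omega) hC' hg hgreg (by omega)
    omega
  have hDV : V = colon l (upC (Ideal.span {p₀, p₁}) (n + 1) V) := IsSp.eq_of_rk hV hD (le_D P.hl) (by omega)
  have hQV : upC (Ideal.span {p₀, p₁}) n (colon l V) ≤ V := by
    conv_rhs => rw [hDV]
    exact upC_le_D P.hl hV
  by_cases hreg1 : ∃ w₁ ∈ colon l V, RegMod w₁ (Ideal.span {p₀, p₁})
  · obtain ⟨w₁, hw₁, hr₁⟩ := hreg1
    have h1 : 1 ≤ rk (Ideal.span {p₀, p₁}) n (colon l V) :=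
      one_le_rk hC' hw₁ (fun h => P.reg_not_mem hr₁ (mem_Id.mp h).1)
    have h7 := noK (n := n) (by omega) hC' hw₁ hr₁ h1
    have h8 := hC'.upC.rk_mono hV hQV
    omega
  push_neg at hreg1
  by_cases hu0 : rk (Ideal.span {p₀, p₁}) n (colon l V) = 0
  · -- a single form
    have hwh : w.IsHomogeneous (n + 1) := hV.hi hw
    have hA := rk_mult (n := n + 1) (t := 1) hwh (P.reg_ne hreg) hreg hId1
    rw [finrank_Sd] at hA
    have hB : IsSp (Ideal.span {p₀, p₁}) (n + 1 + 1) ((Sd K 1).map (mulBy w) ⊔ Id (Ideal.span {p₀, p₁}) (n + 1 + 1)) :=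
      IsSp_mult (t := 1) hwh
    have hle : (Sd K 1).map (mulBy w) ⊔ Id (Ideal.span {p₀, p₁}) (n + 1 + 1) ≤ upC (Ideal.span {p₀, p₁}) (n + 1) V :=
      sup_le (le_trans (map_le_up hw) le_sup_left) le_sup_right
    have h9 := IsSp.rk_mono hB hTT hle
    have e3 : (1 + 2).choose 2 = 3 := rfl
    have e4 : rk (Ideal.span {p₀, p₁}) (n + 1 + 1) (upC (Ideal.span {p₀, p₁}) (n + 1) V) = rk (Ideal.span {p₀, p₁}) (n + 2) (upC (Ideal.span {p₀, p₁}) (n + 1) V) := rfl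
    rw [e4] at h9
    have h10 : (1 + 2).choose 2 ≤ rk (Ideal.span {p₀, p₁}) (n + 2) (upC (Ideal.span {p₀, p₁}) (n + 1) V) := by
      rw [← hA]
      exact h9
    rw [e3] at h10
    omega
  have hwQ : w ∉ upC (Ideal.span {p₀, p₁}) n (colon l V) := fun h => by
    obtain ⟨w₁, hw₁, hr⟩ := exists_reg_of_mem h hreg
    exact hreg1 w₁ hw₁ hr
  have h6 := rk_lt_of_not_mem hC'.upC hV hQV hw hwQ
  have hE := P.E0' (j := n) (by omega) hC' (by omega)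
  omega

end Pr

end Vale.Agent.P200H
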