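import Vale.Agent.P200H.MonoG

/-!
# The inequalities for the minimal generators and the socle
-/

namespace Vale.Agent.P200H

open MvPolynomial Module Vale.Agent.P200 Vale.Agent.P200G

variable {K : Type*} [Field K]

/-- The socle space: degree `n` forms whose products with the variables lie in the ideal. -/
noncomputable def Soc (I : Ideal (Pol K)) (n : ℕ) : Submodule K (Pol K) where
  carrier := {q | q ∈ Sd K n ∧ ∀ i, X i * q ∈ I}
  add_mem' := fun {x y} hx hy => ⟨Submodule.add_mem _ hx.1 hy.1, fun i => by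
    rw [mul_add]
    exact I.add_mem (hx.2 i) (hy.2 i)⟩
  zero_mem' := ⟨Submodule.zero_mem _, fun i => by simp⟩
  smul_mem' := fun r x hx => ⟨Submodule.smul_mem _ r hx.1, fun i => by
    rw [mul_smul_comm, smul_eq_C_mul]
    exact I.mul_mem_left _ (hx.2 i)⟩

theorem mem_Soc {I : Ideal (Pol K)} {n : ℕ} {q : Pol K} :
    q ∈ Soc I n ↔ q ∈ Sd K n ∧ ∀ i, X i * q ∈ I := Iff.rfl

theorem Id_le_Soc (I : Ideal (Pol K)) (n : ℕ) : Id I n ≤ Soc I n := fun _ h =>
  ⟨(mem_Id.mp h).2, fun i => I.mul_mem_left _ (mem_Id.mp h).1⟩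

theorem up_Soc_le (I : Ideal (Pol K)) (n : ℕ) : up (Soc I n) ≤ Id I (n + 1) := by
  refine Submodule.mul_le.mpr fun l hl q hq => ?_
  refine lin_mul_mem hl fun i => mem_Id.mpr ⟨hq.2 i, ?_⟩
  have := (isHomogeneous_X K i).mul hq.1
  rwa [add_comm] at this

/-- A form of degree `t + 1` times `g` lies in `up W` when all forms of degree `t` times `g` lie
in `W`. -/
theorem mul_mem_up_of {t : ℕ} {g : Pol K} {W : Submodule K (Pol K)} (hg : ∀ u ∈ Sd K t, u * g ∈ W)
    {c : Pol K} (hc : c ∈ Sd K (t + 1)) : c * g ∈ up W := by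
  have h1 := Sd_succ_le t hc
  refine Submodule.mul_induction_on h1 ?_ ?_
  · intro l hl u hu
    rw [mul_assoc]
    exact mul_mem_up hl (hg u hu)
  · intro x y hx hy
    rw [add_mul]
    exact Submodule.add_mem _ hx hy

namespace Cfg2

variable {d : Fin 3 → ℕ} {a b c : ℕ} {p : Fin 3 → Pol K}

/-- The rank of the last monomial `x₂ⁿ`. -/
theorem rank_last {e : Fin 3 →₀ ℕ} (he : ¬ InPG a b c e) (h0 : e 0 = 0) (h1 : e 1 = 0) :
    lexRankG a b c e + 1 = mm a b c e.degree := by
  have hs : {e' : Fin 3 →₀ ℕ | e'.degree = e.degree ∧ ¬ InPG a b c e' ∧ LexGt e' e}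
      = {e' : Fin 3 →₀ ℕ | e'.degree = e.degree ∧ ¬ InPG a b c e'} \ {e} := by
    ext e'
    simp only [Set.mem_setOf_eq, Set.mem_diff, Set.mem_singleton_iff]
    constructor
    · rintro ⟨h2, h3, h4⟩
      refine ⟨⟨h2, h3⟩, ?_⟩
      rintro rfl
      unfold LexGt at h4
      omega
    · rintro ⟨⟨h2, h3⟩, h4⟩
      refine ⟨h2, h3, ?_⟩
      unfold LexGt
      rw [degree_eq, degree_eq] at h2
      by_contra hcon
      apply h4
      ext i
      fin_cases i
      · show e' 0 = e 0
        omega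
      · show e' 1 = e 1
        omega
      · show e' 2 = e 2
        omega
  unfold lexRankG mm
  rw [hs]
  have hmem : e ∈ {e' : Fin 3 →₀ ℕ | e'.degree = e.degree ∧ ¬ InPG a b c e'} := ⟨rfl, he⟩
  have hfin : {e' : Fin 3 →₀ ℕ | e'.degree = e.degree ∧ ¬ InPG a b c e'}.Finite :=
    (finite_degree _).subset fun _ he => he.1
  exact Set.ncard_diff_singleton_add_one hmem hfin

theorem add_single_not_InPG {e : Fin 3 →₀ ℕ} {m : Fin 3}
    (hP : ¬ InPG a b c (e + Finsupp.single m 1)) : ¬ InPG a b c e := by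
  rw [not_InPG_iff]
  have h := (not_InPG_iff _).mp hP
  rw [Finsupp.add_apply, Finsupp.add_apply, Finsupp.add_apply] at h
  omega

theorem InPG_add_single {e : Fin 3 →₀ ℕ} {m : Fin 3} (hP : InPG a b c e) :
    InPG a b c (e + Finsupp.single m 1) := by
  by_contra h
  exact add_single_not_InPG h hP

/-- The inequality for the socle. -/
theorem finrank_Soc_le (C : Cfg2 d a b c) (hp : IsReg3 d p) {I J : Ideal (Pol K)}
    (hI : P200G.Fid p ≤ I) (hJ : ∀ n, Id J n = lexPlusPowersG a b c I n) (n : ℕ) :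
    finrank K (Soc I n) ≤ finrank K (Soc J n) := by
  have hX : IsSp (P200G.Fid p) n (Soc I n) := ⟨(Id_mono hI n).trans (Id_le_Soc I n), fun _ h => h.1⟩
  have hSp : IsSp (P200G.Fid p) (n + 1) (Id I (n + 1)) := ⟨Id_mono hI _, Id_le _ _⟩
  have hJS : Soc J n ≤ Sd K n := fun _ h => h.1
  haveI := finDim hJS
  have hr := C.rk_le_mm hp hX.hi
  have hle : mono K (LSet a b c (rk (P200G.Fid p) n (Soc I n)) n) ≤ Soc J n := by
    refine mono_le fun e he => ?_
    obtain ⟨hde, he1⟩ := he
    refine ⟨isHomogeneous_monomial _ hde, fun i => ?_⟩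
    have h1 : (X i * monomial e 1 : Pol K) ∈ Id J (n + 1) := by
      rw [hJ, lexPlusPowersG_eq_mono, X_mul_monomial]
      refine monomial_mem_mono ⟨by rw [deg_add_single, hde], ?_⟩
      by_cases hP : InPG a b c (e + Finsupp.single i 1)
      · exact Or.inl hP
      right
      have hnP := add_single_not_InPG hP
      have h3 := C.growth hp hX hde i hP hnP (he1.resolve_left hnP)
      rw [C.qDimG_eq hp]
      have h4 : up (Soc I n) ⊔ Id (P200G.Fid p) (n + 1) ≤ Id I (n + 1) :=
        sup_le (up_Soc_le I n) (Id_mono hI _)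
      exact lt_of_lt_of_le h3 (hX.upC.rk_mono hSp h4)
    exact (mem_Id.mp h1).1
  have h2 := finrank_le_of_le hle
  rw [finrank_mono (LSet_finite _ _ _ _ _), ncard_LSet hr, C.ncard_InPG_eq hp] at h2
  have h3 := hX.add
  omega

/-- A term of a combination of the regular sequence in degree `n + 1`. -/
theorem term_mem (hp : IsReg3 d p) {n : ℕ} {i : Fin 3} {c' : Pol K}
    (hc' : HomZ c' ((n + 1 : ℕ) - d i)) (hne : d i ≠ n + 1) :
    c' * p i ∈ up (Id (P200G.Fid p) n) := by
  by_cases hlt : n + 1 < d i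
  · rw [hc'.eq_zero (by omega), zero_mul]
    exact Submodule.zero_mem _
  obtain ⟨t, ht⟩ : ∃ t, n + 1 = t + 1 + d i := ⟨n + 1 - d i - 1, by omega⟩
  have e1 : ((n + 1 : ℕ) : ℤ) - d i = ((t + 1 : ℕ) : ℤ) := by omega
  rw [e1] at hc'
  have hc2 : c' ∈ Sd K (t + 1) := homZ_nat.mp hc'
  refine mul_mem_up_of (t := t) (fun u hu => ?_) hc2
  refine mem_Id.mpr ⟨Ideal.mul_mem_left _ _ (Ideal.subset_span ⟨i, rfl⟩), ?_⟩
  have h3 := (show u.IsHomogeneous t from hu).mul (hp.hom i)
  rwa [show t + d i = n by omega] at h3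

theorem Fid_succ_le (hp : IsReg3 d p) {n : ℕ} (h : ∀ i, d i ≠ n + 1) :
    Id (P200G.Fid p) (n + 1) ≤ up (Id (P200G.Fid p) n) := by
  intro q hq
  have hq' := mem_Id.mp hq
  obtain ⟨c', hc', rfl⟩ := hp.Fid_comb (n := ((n + 1 : ℕ) : ℤ)) (homZ_nat.mpr hq'.2) hq'.1
  exact Submodule.sum_mem _ fun i _ => term_mem hp (hc' i) (h i)

theorem Fid_succ_le_top (hp : IsReg3 d p) {n : ℕ} (h0 : d 0 ≠ n + 1) (h1 : d 1 ≠ n + 1)
    (h2 : d 2 = n + 1) :
    Id (P200G.Fid p) (n + 1) ≤ up (Id (P200G.Fid p) n) ⊔ Submodule.span K {p 2} := by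
  intro q hq
  have hq' := mem_Id.mp hq
  obtain ⟨c', hc', rfl⟩ := hp.Fid_comb (n := ((n + 1 : ℕ) : ℤ)) (homZ_nat.mpr hq'.2) hq'.1
  rw [Fin.sum_univ_three]
  refine Submodule.add_mem _ (Submodule.add_mem _ ?_ ?_) ?_
  · exact Submodule.mem_sup_left (term_mem hp (hc' 0) h0)
  · exact Submodule.mem_sup_left (term_mem hp (hc' 1) h1)
  · refine Submodule.mem_sup_right ?_
    have e1 : ((n + 1 : ℕ) : ℤ) - d 2 = ((0 : ℕ) : ℤ) := by omega
    have h3 := hc' 2
    rw [e1] at h3
    obtain ⟨r, hr⟩ := const_of_hom0 (homZ_nat.mp h3)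
    rw [hr]
    exact mem_span_of_eq_C rfl

/-- The general step: multiples of the monomials of `J_n`. -/
theorem step_LSet (C : Cfg2 d a b c) (hp : IsReg3 d p) {I : Ideal (Pol K)} (hI : P200G.Fid p ≤ I)
    {n : ℕ} {e : Fin 3 →₀ ℕ} (he : e ∈ LSet a b c (qDimG a b c I n) n) (m : Fin 3) :
    e + Finsupp.single m 1 ∈ LSet a b c
      (rk (P200G.Fid p) (n + 1) (up (Id I n) ⊔ Id (P200G.Fid p) (n + 1))) (n + 1) := by
  obtain ⟨hde, he1⟩ := he
  refine ⟨by rw [deg_add_single, hde], ?_⟩
  by_cases hP : InPG a b c (e + Finsupp.single m 1)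
  · exact Or.inl hP
  right
  have hnP := add_single_not_InPG hP
  have hY : IsSp (P200G.Fid p) n (Id I n) := ⟨Id_mono hI n, Id_le I n⟩
  have hrk := he1.resolve_left hnP
  rw [C.qDimG_eq hp] at hrk
  exact C.growth hp hY hde m hP hnP hrk

/-- The count of the target set. -/
theorem ncard_target (C : Cfg2 d a b c) (hp : IsReg3 d p) {n : ℕ} {V : Submodule K (Pol K)}
    (hV : IsSp (P200G.Fid p) n V) :
    (LSet a b c (rk (P200G.Fid p) n V) n).ncard = finrank K V := by
  rw [ncard_LSet (C.rk_le_mm hp hV.hi), C.ncard_InPG_eq hp]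
  have := hV.add
  omega

/-- The inequality when no new generator appears. -/
theorem up_J_le_generic (C : Cfg2 d a b c) (hp : IsReg3 d p) {I : Ideal (Pol K)}
    (hI : P200G.Fid p ≤ I) {n : ℕ} (h : ∀ i, d i ≠ n + 1) :
    finrank K (up (lexPlusPowersG a b c I n)) ≤ finrank K (up (Id I n)) := by
  have hY : IsSp (P200G.Fid p) n (Id I n) := ⟨Id_mono hI n, Id_le I n⟩
  have hU := hY.upC
  have e1 : up (Id I n) ⊔ Id (P200G.Fid p) (n + 1) = up (Id I n) :=
    sup_eq_left.mpr ((Fid_succ_le hp h).trans (up_mono hY.lo))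
  have h1 : up (lexPlusPowersG a b c I n) ≤ mono K (LSet a b c
      (rk (P200G.Fid p) (n + 1) (up (Id I n) ⊔ Id (P200G.Fid p) (n + 1))) (n + 1)) := by
    rw [lexPlusPowersG_eq_mono]
    exact up_mono_le fun e he m => C.step_LSet hp hI he m
  haveI : FiniteDimensional K (mono K (LSet a b c
      (rk (P200G.Fid p) (n + 1) (up (Id I n) ⊔ Id (P200G.Fid p) (n + 1))) (n + 1))) :=
    FiniteDimensional.span_of_finite K ((LSet_finite _ _ _ _ _).image _)
  have h2 := finrank_le_of_le h1
  have hT : (LSet a b c (rk (P200G.Fid p) (n + 1) (up (Id I n) ⊔ Id (P200G.Fid p) (n + 1))) (n + 1)).ncard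
      = finrank K ↥(up (Id I n) ⊔ Id (P200G.Fid p) (n + 1)) := C.ncard_target hp hU
  rw [finrank_mono (LSet_finite _ _ _ _ _), hT, e1] at h2
  exact h2

/-- The inequality in the degree of the last generator. -/
theorem up_J_le_top (C : Cfg2 d a b c) (hp : IsReg3 d p) {I : Ideal (Pol K)}
    (hI : P200G.Fid p ≤ I) {n : ℕ} (hn : n + 1 = c) (hbc' : b < c) :
    finrank K (up (lexPlusPowersG a b c I n)) ≤ finrank K (up (Id I n)) := by
  classical
  have hab := C.hab
  have haa := C.ha
  have hY : IsSp (P200G.Fid p) n (Id I n) := ⟨Id_mono hI n, Id_le I n⟩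
  have hU := hY.upC
  have hU2 : up (Id I n) ≤ Sd K (n + 1) := up_le hY.hi
  haveI := finDim hU2
  by_cases hfull : qDimG a b c I n < mm a b c n
  · -- the last monomial is not reached
    set r := rk (P200G.Fid p) (n + 1) (up (Id I n) ⊔ Id (P200G.Fid p) (n + 1)) with hr
    let z : Fin 3 →₀ ℕ := Finsupp.single 2 (n + 1)
    have hz2 : z 2 = n + 1 := by simp [z]
    have hz0 : z 0 = 0 := by simp [z]
    have hz1 : z 1 = 0 := by simp [z]
    have hzT : z ∈ LSet a b c r (n + 1) := by
      refine ⟨?_, Or.inl (Or.inr (Or.inr (by omega)))⟩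
      rw [degree_eq]
      omega
    have hstep : ∀ e ∈ LSet a b c (qDimG a b c I n) n, ∀ m,
        e + Finsupp.single m 1 ∈ LSet a b c r (n + 1) \ {z} := by
      intro e he m
      refine ⟨C.step_LSet hp hI he m, ?_⟩
      intro hez
      have hez' : e + Finsupp.single m 1 = z := hez
      have c0 := DFunLike.congr_fun hez' 0
      have c1 := DFunLike.congr_fun hez' 1
      have c2 := DFunLike.congr_fun hez' 2
      rw [Finsupp.add_apply, hz0] at c0
      rw [Finsupp.add_apply, hz1] at c1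
      rw [Finsupp.add_apply, hz2] at c2
      obtain ⟨hde, he1⟩ := he
      have hsum := degree_eq e
      rw [hde] at hsum
      have he0 : e 0 = 0 := by omega
      have he1' : e 1 = 0 := by omega
      have he2 : e 2 = n := by omega
      have hnP : ¬ InPG a b c e := by
        rw [not_InPG_iff]
        omega
      have hlast := rank_last hnP he0 he1'
      rw [hde] at hlast
      have := he1.resolve_left hnP
      omega
    have h1 : up (lexPlusPowersG a b c I n) ≤ mono K (LSet a b c r (n + 1) \ {z}) := by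
      rw [lexPlusPowersG_eq_mono]
      exact up_mono_le hstep
    have hfin : (LSet a b c r (n + 1) \ {z}).Finite := (LSet_finite _ _ _ _ _).subset Set.diff_subset
    haveI : FiniteDimensional K (mono K (LSet a b c r (n + 1) \ {z})) :=
      FiniteDimensional.span_of_finite K (hfin.image _)
    have h2 := finrank_le_of_le h1
    rw [finrank_mono hfin] at h2
    have h3 := Set.ncard_diff_singleton_add_one hzT (LSet_finite a b c r (n + 1))
    have h4 : (LSet a b c r (n + 1)).ncard = finrank K ↥(up (Id I n) ⊔ Id (P200G.Fid p) (n + 1)) :=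
      C.ncard_target hp hU
    have h5 : up (Id I n) ⊔ Id (P200G.Fid p) (n + 1) ≤ up (Id I n) ⊔ Submodule.span K {p 2} :=
      sup_le le_sup_left (le_trans (Fid_succ_le_top hp (by rw [C.h0]; omega) (by rw [C.h1]; omega)
        (by rw [C.h2]; omega)) (sup_le_sup_right (up_mono hY.lo) _))
    have h6 := Submodule.finrank_add_le_finrank_add_finrank (up (Id I n)) (Submodule.span K {p 2})
    rw [finrank_span_singleton hp.p2_ne] at h6
    haveI : FiniteDimensional K ↥(up (Id I n) ⊔ Submodule.span K {p 2}) :=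
      Submodule.finiteDimensional_sup _ _
    have h7 := finrank_le_of_le h5
    omega
  · -- everything is in the ideal
    have h1 : up (lexPlusPowersG a b c I n) ≤ Sd K (n + 1) := by
      refine up_le ?_
      rw [lexPlusPowersG_eq_mono]
      exact mono_le fun e he => isHomogeneous_monomial _ he.1
    have h2 := finrank_le_of_le h1
    have hq := C.qDimG_eq hp I n
    have h3 := hY.add
    have h4 := C.finrank_F_add hp n
    have hEq : Id I n = Sd K n := Submodule.eq_of_le_of_finrank_le hY.hi (by omega)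
    rw [hEq, up_top_eq]
    exact h2

/-- The inequality in a degree of a generator, using the growth modulo a single form. -/
theorem up_J_le_pair (C : Cfg2 d a b c) (hp : IsReg3 d p) {I : Ideal (Pol K)}
    (hI : P200G.Fid p ≤ I) {n A : ℕ} {h₀ : Pol K} (hh : h₀.IsHomogeneous A) (h0 : h₀ ≠ 0)
    (hA : 2 ≤ A) (hAn : A ≤ n + 2)
    (hbox : ∀ e : Fin 3 →₀ ℕ, e.degree = n → (InPG a b c e ↔ InPG A (n + 2) (n + 2) e))
    (hlo : Id (Ideal.span {h₀}) n ≤ Id I n) (hup : Id (Ideal.span {h₀}) (n + 1) ≤ up (Id I n)) :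
    finrank K (up (lexPlusPowersG a b c I n)) ≤ finrank K (up (Id I n)) := by
  have hY : Id I n ≤ Sd K n := Id_le I n
  have hU2 : up (Id I n) ≤ Sd K (n + 1) := up_le hY
  haveI := finDim hU2
  haveI : FiniteDimensional K (Id I n) := finDim hY
  have hcount : Set.ncard {e : Fin 3 →₀ ℕ | e.degree = n ∧ InPG A (n + 2) (n + 2) e}
      = finrank K (Id (Ideal.span {h₀}) n) := ncard_InPG_single hh h0 hA hAn (by omega)
  have hcount2 : Set.ncard {e : Fin 3 →₀ ℕ | e.degree = n ∧ InPG a b c e}
      = finrank K (Id (Ideal.span {h₀}) n) := by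
    rw [← hcount]
    congr 1
    ext e
    simp only [Set.mem_setOf_eq]
    constructor
    · rintro ⟨h1, h2⟩
      exact ⟨h1, (hbox e h1).mp h2⟩
    · rintro ⟨h1, h2⟩
      exact ⟨h1, (hbox e h1).mpr h2⟩
  have hrank : ∀ e : Fin 3 →₀ ℕ, e.degree = n →
      lexRankG a b c e = lexRankG A (n + 2) (n + 2) e := by
    intro e he
    unfold lexRankG
    congr 1
    ext e'
    simp only [Set.mem_setOf_eq]
    constructor
    · rintro ⟨h1, h2, h3⟩
      exact ⟨h1, fun h => h2 ((hbox e' (h1.trans he)).mpr h), h3⟩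
    · rintro ⟨h1, h2, h3⟩
      exact ⟨h1, fun h => h2 ((hbox e' (h1.trans he)).mp h), h3⟩
  set r' := finrank K (up (Id I n)) - finrank K (Id (Ideal.span {h₀}) (n + 1)) with hr'
  have hstep : ∀ e ∈ LSet a b c (qDimG a b c I n) n, ∀ m,
      e + Finsupp.single m 1 ∈ LSet A (n + 2) (n + 2) r' (n + 1) := by
    intro e he m
    obtain ⟨hde, he1⟩ := he
    refine ⟨by rw [deg_add_single, hde], ?_⟩
    by_cases hP : InPG A (n + 2) (n + 2) (e + Finsupp.single m 1)
    · exact Or.inl hP
    right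
    have hnP' := add_single_not_InPG hP
    have hnP : ¬ InPG a b c e := fun h => hnP' ((hbox e hde).mp h)
    have hrk := he1.resolve_left hnP
    rw [hrank e hde] at hrk
    have hq : qDimG a b c I n = finrank K (Id I n) - finrank K (Id (Ideal.span {h₀}) n) := by
      unfold qDimG
      rw [hcount2]
      rfl
    rw [hq] at hrk
    have h3 := pair_up hh h0 hA hAn hlo hY hde m hP hnP' hrk
    rwa [sup_eq_left.mpr hup] at h3
  have h1 : up (lexPlusPowersG a b c I n) ≤ mono K (LSet A (n + 2) (n + 2) r' (n + 1)) := by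
    rw [lexPlusPowersG_eq_mono]
    exact up_mono_le hstep
  haveI : FiniteDimensional K (mono K (LSet A (n + 2) (n + 2) r' (n + 1))) :=
    FiniteDimensional.span_of_finite K ((LSet_finite _ _ _ _ _).image _)
  have h2 := finrank_le_of_le h1
  have hc1 : Set.ncard {e : Fin 3 →₀ ℕ | e.degree = n + 1 ∧ InPG A (n + 2) (n + 2) e}
      = finrank K (Id (Ideal.span {h₀}) (n + 1)) := ncard_InPG_single hh h0 hA hAn (by omega)
  have hc2 := ncard_InPG_add A (n + 2) (n + 2) (n + 1)
  have hc3 := finrank_le_of_le hU2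
  rw [finrank_Sd] at hc3
  have hc4 : r' ≤ mm A (n + 2) (n + 2) (n + 1) := by omega
  rw [finrank_mono (LSet_finite _ _ _ _ _), ncard_LSet hc4, hc1] at h2
  haveI : FiniteDimensional K (Id (Ideal.span {h₀}) (n + 1)) := finDim (Id_le _ _)
  have hc5 := finrank_le_of_le hup
  omega

/-- The inequality for the growth of `J`. -/
theorem up_J_le (C : Cfg2 d a b c) (hp : IsReg3 d p) {I : Ideal (Pol K)}
    (hI : P200G.Fid p ≤ I) (n : ℕ) :
    finrank K (up (lexPlusPowersG a b c I n)) ≤ finrank K (up (Id I n)) := by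
  have ha := C.ha
  have hab := C.hab
  have hbc := C.hbc
  by_cases h1 : n + 1 = a
  · -- the degree of the first generator
    have hX0 : ((X 0 : Pol K) ^ (n + 2)).IsHomogeneous (n + 2) := by
      have := (isHomogeneous_X K (0 : Fin 3)).pow (n + 2)
      simpa using this
    refine C.up_J_le_pair hp hI hX0 (pow_ne_zero _ (X_ne_zero 0)) (by omega) le_rfl ?_ ?_ ?_
    · intro e he
      have hsum := degree_eq e
      rw [he] at hsum
      unfold InPG
      omega
    · rw [Id_singleton_low hX0 (by omega)]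
      exact bot_le
    · rw [Id_singleton_low hX0 (by omega)]
      exact bot_le
  by_cases h2 : n + 1 = b
  · -- the degree of the second generator
    have hh := C.hom0 hp
    have hFle : Ideal.span {p 0} ≤ P200G.Fid p := by
      rw [Fid_gen]
      refine le_trans ?_ le_sup_left
      exact Ideal.span_mono (by simp)
    refine C.up_J_le_pair hp hI hh hp.p0_ne ha (by omega) ?_ ?_ ?_
    · intro e he
      have hsum := degree_eq e
      rw [he] at hsum
      unfold InPG
      omega
    · exact Id_mono (hFle.trans hI) n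
    · intro q hq
      have hq' := mem_Id.mp hq
      obtain ⟨r, rfl⟩ := Ideal.mem_span_singleton'.mp hq'.1
      obtain ⟨t, ht⟩ : ∃ t, n = t + a := ⟨n - a, by omega⟩
      have hr : r.IsHomogeneous (t + 1) := by
        refine quot_hom hh hp.p0_ne ?_
        have e1 : t + 1 + a = n + 1 := by omega
        rw [e1]
        exact hq'.2
      refine mul_mem_up_of (t := t) (fun u hu => ?_) hr
      refine mem_Id.mpr ⟨hFle (Ideal.mul_mem_left _ _ (Ideal.mem_span_singleton_self _))
        |> fun h => hI h, ?_⟩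
      have h3 := (show u.IsHomogeneous t from hu).mul hh
      rwa [← ht] at h3
  by_cases h3 : n + 1 = c
  · exact C.up_J_le_top hp hI h3 (by omega)
  · refine C.up_J_le_generic hp hI fun i => ?_
    fin_cases i
    · show d 0 ≠ n + 1
      rw [C.h0]
      omega
    · show d 1 ≠ n + 1
      rw [C.h1]
      omega
    · show d 2 ≠ n + 1
      rw [C.h2]
      omega

end Cfg2

end Vale.Agent.P200H
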