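import Vale.Agent.P200H.Setup

/-!
# A regular pair with a nonzerodivisor linear form: growth in two variables
-/

namespace Vale.Agent.P200H

open MvPolynomial Module Vale.Agent.P200 Vale.Agent.P200G

variable {K : Type*} [Field K]

/-- A regular pair of forms of degrees `α ≤ β` and a linear form, a nonzerodivisor modulo them. -/
structure Pr (α β : ℕ) (p₀ p₁ l : Pol K) : Prop where
  h₀ : p₀.IsHomogeneous α
  h₁ : p₁.IsHomogeneous β
  hα : 2 ≤ α
  hαβ : α ≤ β
  h0 : p₀ ≠ 0
  hr : RegMod p₁ (Ideal.span {p₀})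
  hl : Lin l
  hreg : RegMod l (Ideal.span {p₀, p₁})

namespace Pr

variable {α β : ℕ} {p₀ p₁ l : Pol K} (P : Pr α β p₀ p₁ l)

include P

theorem hC : HomIdeal (Ideal.span {p₀, p₁}) := homIdeal_pair P.h₀ P.h₁

theorem hD : HomIdeal (Ideal.span {p₀, p₁} ⊔ Ideal.span {l}) :=
  P.hC.sup (homIdeal_singleton P.hl.hom)

theorem hE : HomIdeal (Ideal.span {p₀, l}) := homIdeal_pair P.h₀ P.hl.hom

theorem hβ : 2 ≤ β := P.hα.trans P.hαβ

theorem p1_ne : p₁ ≠ 0 := by
  rintro rfl
  exact one_not_mem_singleton P.h₀ (by have := P.hα; omega) (P.hr 1 (by simp))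

theorem regl0 : RegMod l (Ideal.span {p₀}) :=
  reg_swap P.h₀ P.h₁ P.hl.hom (by have := P.hβ; omega) P.hr P.hreg

theorem reg1E : RegMod p₁ (Ideal.span {p₀, l}) := by
  intro a ha
  obtain ⟨x, y, hxy⟩ := Ideal.mem_span_pair.mp ha
  have h1 : y ∈ Ideal.span {p₀, p₁} := by
    apply P.hreg
    have : y * l = a * p₁ - x * p₀ := by linear_combination hxy
    rw [this]
    exact Ideal.sub_mem _ (Ideal.mul_mem_left _ _ (Ideal.subset_span (by simp)))
      (Ideal.mul_mem_left _ _ (Ideal.subset_span (by simp)))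
  obtain ⟨u, v, huv⟩ := Ideal.mem_span_pair.mp h1
  have h2 : a - v * l ∈ Ideal.span {p₀} := by
    apply P.hr
    have : (a - v * l) * p₁ = (x + u * l) * p₀ := by
      linear_combination -hxy - l * huv
    rw [this]
    exact Ideal.mul_mem_left _ _ (Ideal.mem_span_singleton_self _)
  obtain ⟨w, hw⟩ := Ideal.mem_span_singleton'.mp h2
  refine Ideal.mem_span_pair.mpr ⟨w, v, ?_⟩
  linear_combination hw

theorem dI_eq : Ideal.span {p₀, p₁} ⊔ Ideal.span {l} = Ideal.span {p₀, l} ⊔ Ideal.span {p₁} := by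
  apply le_antisymm
  · refine sup_le (Ideal.span_le.mpr ?_) (Ideal.span_le.mpr ?_)
    · rintro x (rfl | rfl)
      · exact Ideal.mem_sup_left (Ideal.subset_span (by simp))
      · exact Ideal.mem_sup_right (Ideal.subset_span (by simp))
    · rintro x rfl
      exact Ideal.mem_sup_left (Ideal.subset_span (by simp))
  · refine sup_le (Ideal.span_le.mpr ?_) (Ideal.span_le.mpr ?_)
    · rintro x (rfl | rfl)
      · exact Ideal.mem_sup_left (Ideal.subset_span (by simp))
      · exact Ideal.mem_sup_right (Ideal.subset_span (by simp))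
    · rintro x rfl
      exact Ideal.mem_sup_left (Ideal.subset_span (by simp))

theorem hT3 : IsReg3 ![α, β, 1] ![p₀, p₁, l] :=
  isReg3_mk P.h₀ P.h₁ P.hl.hom (by have := P.hα; omega) (by have := P.hβ; omega) (by norm_num)
    P.h0 P.hr P.hreg

theorem fid3 : P200G.Fid ![p₀, p₁, l] = Ideal.span {p₀, p₁} ⊔ Ideal.span {l} := Fid_vec _ _ _

/-- The dimensions modulo the pair. -/
theorem dC (n : ℕ) : finrank K (Sd K n) = finrank K (Id (Ideal.span {p₀, p₁}) n) + hT α β n :=
  finrank_pair P.h₀ P.h₁ (by have := P.hα; omega) (by have := P.hβ; omega) P.h0 P.hr n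

/-- The dimensions modulo the pair and the linear form. -/
theorem dD (n : ℕ) :
    finrank K (Sd K n) = finrank K (Id (Ideal.span {p₀, p₁} ⊔ Ideal.span {l}) n) + hB α β n := by
  have hα := P.hα
  have hβ := P.hβ
  cases n with
  | zero =>
    rw [Id_sup_low P.hC P.hl.hom (by norm_num), P.dC 0, hT_zero (by omega) (by omega)]
    simp only [hB]
    omega
  | succ k =>
    have h1 := reg_add P.hC P.hl.hom P.hl.ne P.hreg k
    have h2 := P.dC k
    have h3 := P.dC (k + 1)
    have h4 := hT_succ α β k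
    omega

/-- The dimensions modulo the first form and the linear form. -/
theorem dE (n : ℕ) : finrank K (Sd K n) = finrank K (Id (Ideal.span {p₀, l}) n) + min α (n + 1) := by
  have h := finrank_pair P.h₀ P.hl.hom (by have := P.hα; omega) (by norm_num) P.h0 P.regl0 n
  rwa [hT_one] at h

theorem Id_E_le (n : ℕ) :
    Id (Ideal.span {p₀, l}) n ≤ Id (Ideal.span {p₀, p₁} ⊔ Ideal.span {l}) n := by
  rw [P.dI_eq]
  exact Id_mono le_sup_left n

theorem Id_D_eq_E {n : ℕ} (hn : n < β) :
    Id (Ideal.span {p₀, p₁} ⊔ Ideal.span {l}) n = Id (Ideal.span {p₀, l}) n := by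
  rw [P.dI_eq]
  exact Id_sup_low P.hE P.h₁ hn

end Pr

theorem pow_hom {m : Pol K} (hm : Lin m) (i : ℕ) : (m ^ i).IsHomogeneous i := by
  simpa using hm.hom.pow i

theorem regMod_pow {𝔠 : Ideal (Pol K)} {m : Pol K} (h : RegMod m 𝔠) (n : ℕ) :
    RegMod (m ^ n) 𝔠 := by
  induction n with
  | zero =>
    intro a ha
    simpa using ha
  | succ k ih =>
    intro a ha
    apply ih
    apply h
    rw [pow_succ] at ha
    have : a * m ^ k * m = a * (m ^ k * m) := by ring
    rwa [this]

namespace Pr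

variable {α β : ℕ} {p₀ p₁ l : Pol K} (P : Pr α β p₀ p₁ l)

include P

/-- The equality case in two variables: equality of growth with a nonzerodivisor forces the whole
space, once the generators are reached. -/
theorem strict_aux {m : Pol K} (hm : Lin m) (hregm : RegMod m (Ideal.span {p₀, l})) {j : ℕ}
    (hj : β ≤ j + 1) {W : Submodule K (Pol K)}
    (hW : IsSp (Ideal.span {p₀, p₁} ⊔ Ideal.span {l}) j W)
    (hle : upC (Ideal.span {p₀, p₁} ⊔ Ideal.span {l}) j W
      ≤ W.map (mulBy m) ⊔ Id (Ideal.span {p₀, l}) (j + 1)) : W = Sd K j := by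
  set 𝔢 := Ideal.span {p₀, l} with h𝔢
  let Z : ℕ → Submodule K (Pol K) := fun i => W.map (mulBy (m ^ i)) ⊔ Id 𝔢 (j + i)
  have hstep : ∀ i, up (Z i) ≤ Z (i + 1) := by
    intro i
    refine Submodule.mul_le.mpr fun l' hl' z hz => ?_
    obtain ⟨x, hx, e, he, rfl⟩ := Submodule.mem_sup.mp hz
    obtain ⟨v, hv, rfl⟩ := mem_map_mulBy.mp hx
    have h1 : l' * v ∈ W.map (mulBy m) ⊔ Id 𝔢 (j + 1) :=
      hle (Submodule.mem_sup_left (mul_mem_up hl' hv))
    obtain ⟨x', hx', e', he', hs⟩ := Submodule.mem_sup.mp h1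
    obtain ⟨v', hv', rfl⟩ := mem_map_mulBy.mp hx'
    have h2 : l' * (m ^ i * v + e) = m ^ (i + 1) * v' + (m ^ i * e' + l' * e) := by
      have : l' * v = m * v' + e' := hs.symm
      linear_combination (m ^ i) * this
    rw [h2]
    refine Submodule.add_mem_sup (mem_map_mulBy.mpr ⟨v', hv', rfl⟩) (Submodule.add_mem _ ?_ ?_)
    · exact mul_mem_Id (pow_hom hm i) (by omega) he'
    · exact mul_mem_Id hl' (by omega) he
  have hbase : Id (Ideal.span {p₀, p₁} ⊔ Ideal.span {l}) (j + 1) ≤ Z 1 := by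
    have h1 : Z 1 = W.map (mulBy m) ⊔ Id 𝔢 (j + 1) := by
      simp only [Z, pow_one]
    rw [h1]
    exact le_trans le_sup_right hle
  have hid : ∀ i, Id (Ideal.span {p₀, p₁} ⊔ Ideal.span {l}) (j + 1 + i) ≤ Z (1 + i) := by
    intro i
    induction i with
    | zero => exact hbase
    | succ i ih =>
      obtain ⟨k', hk'⟩ : ∃ k', j + 1 + i = k' + β := ⟨j + 1 + i - β, by omega⟩
      have e1 : j + 1 + (i + 1) = (k' + 1) + β := by omega
      intro q hq
      rw [e1, P.dI_eq, Id_sup_eq P.hE P.h₁ (k' + 1)] at hq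
      obtain ⟨x, hx, e, he, rfl⟩ := Submodule.mem_sup.mp hq
      refine Submodule.add_mem _ ?_ ?_
      · obtain ⟨g, hg, rfl⟩ := mem_map_mulBy.mp hx
        have hmul : ∀ g ∈ Sd K 1 * Sd K k', p₁ * g ∈ Z (1 + (i + 1)) := by
          intro g hg
          induction hg using Submodule.mul_induction_on' with
          | mem_mul_mem l' hl' g' hg' =>
            have h2 : p₁ * g' ∈ Z (1 + i) := by
              apply ih
              rw [hk', mem_Id]
              refine ⟨Ideal.mem_sup_left (Ideal.mul_mem_right _ _ (Ideal.subset_span (by simp))), ?_⟩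
              have := P.h₁.mul (show g'.IsHomogeneous k' from hg')
              rwa [add_comm] at this
            have h3 := hstep (1 + i) (mul_mem_up hl' h2)
            have h4 : p₁ * (l' * g') = l' * (p₁ * g') := by ring
            rw [h4]
            exact h3
          | add x _ y _ hx hy =>
            rw [mul_add]
            exact Submodule.add_mem _ hx hy
        exact hmul g (Sd_succ_le k' hg)
      · refine Submodule.mem_sup_right ?_
        have e2 : j + (1 + (i + 1)) = (k' + 1) + β := by omega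
        rw [e2]
        exact he
  -- reach the top
  have hα := P.hα
  have hβ := P.hβ
  obtain ⟨s, hs⟩ : ∃ s, s + 2 = α + β := ⟨α + β - 2, by omega⟩
  have htop : Sd K (j + 1 + (α + β)) ≤ Z (1 + (α + β)) := by
    refine le_trans ?_ (hid (α + β))
    rw [← P.fid3]
    refine P.hT3.Sd_le_Id (s := s) ?_ (by omega)
    simp
    omega
  have hE_le : Id 𝔢 j ≤ W := le_trans (P.Id_E_le j) hW.lo
  have hreg := regMod_pow hregm (1 + (α + β))
  have hm0 : m ^ (1 + (α + β)) ≠ 0 := pow_ne_zero _ hm.ne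
  have e := regular_dim hE_le hW.hi (hm := pow_hom hm (1 + (α + β))) (hm0 := hm0) (hreg := hreg)
  haveI := hW.fin
  have hZ : Z (1 + (α + β)) ≤ Sd K (j + (1 + (α + β))) := by
    refine sup_le ?_ (Id_le _ _)
    intro x hx
    obtain ⟨v, hv, rfl⟩ := mem_map_mulBy.mp hx
    have := (pow_hom hm (1 + (α + β))).mul (show v.IsHomogeneous j from hW.hi hv)
    rwa [add_comm (1 + (α + β)) j] at this
  haveI : FiniteDimensional K (Z (1 + (α + β))) := finDim hZ
  have h5 := finrank_le_of_le htop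
  have d1 := P.dE j
  have d2 := P.dE (j + (1 + (α + β)))
  rw [← h𝔢] at d1 d2
  have e3 : j + 1 + (α + β) = j + (1 + (α + β)) := by omega
  rw [e3] at h5
  have hfin : finrank K (Z (1 + (α + β))) = finrank K ↥(W.map (mulBy (m ^ (1 + (α + β))))
      ⊔ Id 𝔢 (j + (1 + (α + β)))) := rfl
  have hαj : α ≤ j + 1 := by have := P.hαβ; omega
  have hmin1 : min α (j + 1) = α := by omega
  have hmin2 : min α (j + (1 + (α + β)) + 1) = α := by omega
  rw [hmin1] at d1
  rw [hmin2] at d2
  exact Submodule.eq_of_le_of_finrank_le hW.hi (by omega)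

/-- Growth in two variables. -/
theorem lemmaA [Infinite K] {j : ℕ} {W : Submodule K (Pol K)}
    (hW : IsSp (Ideal.span {p₀, p₁} ⊔ Ideal.span {l}) j W) (hne : W ≠ Sd K j) :
    rk (Ideal.span {p₀, p₁} ⊔ Ideal.span {l}) j W
      ≤ rk (Ideal.span {p₀, p₁} ⊔ Ideal.span {l}) (j + 1)
        (upC (Ideal.span {p₀, p₁} ⊔ Ideal.span {l}) j W) := by
  obtain ⟨m, hm, hregm⟩ := exists_linear (depth_pair P.h0 P.regl0)
    (one_not_mem_pair P.h₀ P.hl.hom (by have := P.hα; omega) (by norm_num))
  have hX := hW.upC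
  haveI := hW.fin
  haveI := hX.fin
  have hE_le : Id (Ideal.span {p₀, l}) j ≤ W := le_trans (P.Id_E_le j) hW.lo
  have e := regular_dim hE_le hW.hi (hm := hm.hom) (hm0 := hm.ne) (hreg := hregm)
  have hYle : W.map (mulBy m) ⊔ Id (Ideal.span {p₀, l}) (j + 1)
      ≤ upC (Ideal.span {p₀, p₁} ⊔ Ideal.span {l}) j W :=
    sup_le (le_trans (map_mulBy_le_up hm.hom) le_sup_left) (le_trans (P.Id_E_le _) le_sup_right)
  have hY := finrank_le_of_le hYle
  have a1 := hW.add
  have a2 := hX.add
  have d1 := P.dD j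
  have d2 := P.dD (j + 1)
  have d3 := P.dE j
  have d4 := P.dE (j + 1)
  have hαβ := P.hαβ
  by_cases hj : j + 1 < β
  · have h1 : hB α β j = min α (j + 1) := by simp only [hB]; omega
    have h2 : hB α β (j + 1) = min α (j + 1 + 1) := by simp only [hB]; omega
    omega
  · have hstrict : finrank K ↥(W.map (mulBy m) ⊔ Id (Ideal.span {p₀, l}) (j + 1)) + 1
        ≤ finrank K (upC (Ideal.span {p₀, p₁} ⊔ Ideal.span {l}) j W) := by
      by_contra hcon
      apply hne
      refine P.strict_aux hm hregm (by omega) hW ?_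
      exact (Submodule.eq_of_le_of_finrank_le hYle (by omega)).ge
    simp only [hB] at d1 d2
    omega

/-- Growth in two variables in the range of the polynomial ring. -/
theorem lemmaA_low [Infinite K] {j : ℕ} (hj : j + 2 ≤ α) {W : Submodule K (Pol K)}
    (hW : IsSp (Ideal.span {p₀, p₁} ⊔ Ideal.span {l}) j W)
    (hne : 1 ≤ rk (Ideal.span {p₀, p₁} ⊔ Ideal.span {l}) j W) :
    rk (Ideal.span {p₀, p₁} ⊔ Ideal.span {l}) j W + 1
      ≤ rk (Ideal.span {p₀, p₁} ⊔ Ideal.span {l}) (j + 1)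
        (upC (Ideal.span {p₀, p₁} ⊔ Ideal.span {l}) j W) := by
  have hαβ := P.hαβ
  have e1 := P.Id_D_eq_E (n := j) (by omega)
  have e2 := P.Id_D_eq_E (n := j + 1) (by omega)
  have hX := hW.upC
  have h1 : Id (Ideal.span {p₀, l}) j ≤ W := by rw [← e1]; exact hW.lo
  have hne' : Id (Ideal.span {p₀, l}) j ≠ W := by
    intro h
    rw [← e1] at h
    rw [← h] at hne
    rw [rk_bot] at hne
    omega
  have h3 := E0 P.h₀ P.hl.hom (by have := P.hα; omega) (by norm_num) P.h0 P.regl0 j (by omega) W h1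
    hW.hi hne'
  have a1 := hW.add
  have a2 := hX.add
  rw [← e1, ← e2] at h3
  have h4 : finrank K (upC (Ideal.span {p₀, p₁} ⊔ Ideal.span {l}) j W) =
      finrank K ↥(up W ⊔ Id (Ideal.span {p₀, p₁} ⊔ Ideal.span {l}) (j + 1)) := rfl
  omega

end Pr

end Vale.Agent.P200H
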