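import Vale.Agent.P200G.Zd

/-!
# Numerics for the Hilbert functions of a pair of forms
-/

namespace Vale.Agent.P200H

open Vale.Agent.P200G

/-- The sum of the lengths of the rows with index in `[A, B)`, in degree `n - 1`. -/
def rowS (β n A B : ℕ) : ℕ := ∑ x ∈ Finset.Ico A B, min (n - x) β

/-- The Hilbert function of the Artinian reduction. -/
def hB (α β n : ℕ) : ℕ := min α (n + 1) - (n + 1 - β)

/-- The Hilbert function of the quotient by a pair of forms. -/
def hT (α β n : ℕ) : ℕ := rowS β (n + 1) 0 α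

theorem rowS_succ (β n A : ℕ) {B : ℕ} (h : A ≤ B) :
    rowS β (n + 1) A B = rowS β n A B + (min B (n + 1) - max A (n + 1 - β)) := by
  induction B, h using Nat.le_induction with
  | base =>
    simp only [rowS, Finset.Ico_self, Finset.sum_empty]
    omega
  | succ B hB ih =>
    simp only [rowS] at ih ⊢
    rw [Finset.sum_Ico_succ_top hB, Finset.sum_Ico_succ_top hB, ih]
    omega

theorem rowS_shift (β n A B : ℕ) : rowS β (n + 1) (A + 1) (B + 1) = rowS β n A B := by
  simp only [rowS]
  rw [← Finset.sum_Ico_add' (fun x => min (n + 1 - x) β) A B 1]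
  refine Finset.sum_congr rfl fun x _ => ?_
  congr 1
  omega

theorem rowS_drop (β n A : ℕ) {B : ℕ} (h : A ≤ B) (hn : n ≤ B) :
    rowS β n A (B + 1) = rowS β n A B := by
  simp only [rowS]
  rw [Finset.sum_Ico_succ_top h]
  have : n - B = 0 := by omega
  rw [this]
  simp

theorem hT_succ (α β n : ℕ) : hT α β (n + 1) = hT α β n + hB α β (n + 1) := by
  simp only [hT, hB]
  rw [rowS_succ β (n + 1) 0 (Nat.zero_le α)]
  congr 1

theorem hT_zero {α β : ℕ} (hα : 1 ≤ α) (hβ : 1 ≤ β) : hT α β 0 = 1 := by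
  obtain ⟨a, rfl⟩ : ∃ a, α = a + 1 := ⟨α - 1, by omega⟩
  simp only [hT, rowS]
  rw [Finset.sum_eq_single_of_mem 0 (by simp)]
  · omega
  · intro x hx hx0
    simp only [Finset.mem_Ico] at hx
    have : 0 + 1 - x = 0 := by omega
    rw [this]
    simp

theorem hT_large {α β n : ℕ} (h : α + β ≤ n + 2) : hT α β n = α * β := by
  simp only [hT, rowS]
  rw [Finset.sum_congr rfl (g := fun _ => β)]
  · simp
  · intro x hx
    simp only [Finset.mem_Ico] at hx
    omega

theorem hT_one (α n : ℕ) : hT α 1 n = min α (n + 1) := by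
  simp only [hT]
  induction α with
  | zero => simp [rowS]
  | succ a ih =>
    simp only [rowS] at ih ⊢
    rw [Finset.sum_Ico_succ_top (Nat.zero_le a), ih]
    omega

/-- The difference of the binomial numbers. -/
theorem cc_sub (m : ℤ) : cc m = cc (m - 1) + (m + 1).toNat := by
  unfold cc
  by_cases hm : m + 1 ≤ 0
  · have h1 : (m + 2).toNat ≤ 1 := by omega
    have h2 : (m - 1 + 2).toNat ≤ 1 := by omega
    have h3 : (m + 1).toNat = 0 := by omega
    rw [h3, Nat.choose_eq_zero_of_lt (by omega : (m + 2).toNat < 2),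
      Nat.choose_eq_zero_of_lt (by omega : (m - 1 + 2).toNat < 2)]
  · obtain ⟨k, hk⟩ : ∃ k : ℕ, m = k := ⟨m.toNat, by omega⟩
    subst hk
    have h1 : ((k : ℤ) + 2).toNat = k + 1 + 1 := by omega
    have h2 : ((k : ℤ) - 1 + 2).toNat = k + 1 := by omega
    have h3 : ((k : ℤ) + 1).toNat = k + 1 := by omega
    rw [h1, h2, h3, Nat.choose_succ_succ' (k + 1) 1]
    simp
    omega

theorem hT_cc (α β n : ℕ) :
    (hT α β n : ℤ) = cc (n : ℤ) - cc ((n : ℤ) - α) - cc ((n : ℤ) - β)
      + cc ((n : ℤ) - α - β) := by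
  induction α with
  | zero =>
    simp [hT, rowS]
  | succ a ih =>
    have h1 : hT (a + 1) β n = hT a β n + min (n + 1 - a) β := by
      simp only [hT, rowS]
      rw [Finset.sum_Ico_succ_top (Nat.zero_le a)]
    have h2 := cc_sub ((n : ℤ) - a)
    have h3 := cc_sub ((n : ℤ) - a - β)
    have e1 : (n : ℤ) - (a + 1 : ℕ) = (n : ℤ) - a - 1 := by push_cast; ring
    have e2 : (n : ℤ) - a - 1 - β = (n : ℤ) - a - β - 1 := by ring
    rw [h1, e1, e2, Nat.cast_add, ih]
    have h4 : ((min (n + 1 - a) β : ℕ) : ℤ) = ((n : ℤ) - a + 1).toNat - ((n : ℤ) - a - β + 1).toNat := by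
      omega
    rw [h4]
    omega

end Vale.Agent.P200H
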