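import Vale.Agent.P200H.Defs
import Vale.Agent.P200H.Num
import Vale.Agent.P200G.DimJ

/-!
# Counting monomials outside `P = (x₀ᵃ, x₁ᵇ, x₂ᶜ)`: the lexicographic rank and duality
-/

namespace Vale.Agent.P200H

open MvPolynomial Module Vale.Agent.P200 Vale.Agent.P200G

/-- The number of monomials of degree `n` outside `P`. -/
noncomputable def mm (a b c n : ℕ) : ℕ :=
  Set.ncard {e : Fin 3 →₀ ℕ | e.degree = n ∧ ¬ InPG a b c e}

theorem not_InPG_iff {a b c : ℕ} (e : Fin 3 →₀ ℕ) : ¬ InPG a b c e ↔ e 0 < a ∧ e 1 < b ∧ e 2 < c := by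
  unfold InPG
  omega

theorem ncard_rowG (a b c n : ℕ) (R : ℕ → ℕ → Prop) [∀ x y, Decidable (R x y)] :
    Set.ncard {e : Fin 3 →₀ ℕ | e.degree = n ∧ ¬ InPG a b c e ∧ R (e 0) (e 1)} =
      ∑ x ∈ Finset.range a, ((Finset.range b).filter
        (fun y => x + y ≤ n ∧ n - x - y < c ∧ R x y)).card := by
  classical
  let g : ℕ × ℕ → (Fin 3 →₀ ℕ) := fun t => tri t.1 t.2 (n - t.1 - t.2)
  let F : Finset (ℕ × ℕ) := (Finset.range a ×ˢ Finset.range b).filter
    (fun t => t.1 + t.2 ≤ n ∧ n - t.1 - t.2 < c ∧ R t.1 t.2)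
  have hs : {e : Fin 3 →₀ ℕ | e.degree = n ∧ ¬ InPG a b c e ∧ R (e 0) (e 1)} =
      g '' (F : Set (ℕ × ℕ)) := by
    ext e
    simp only [Set.mem_setOf_eq, Set.mem_image, Finset.mem_coe, F, Finset.mem_filter,
      Finset.mem_product, Finset.mem_range, InPG]
    constructor
    · rintro ⟨h1, h2, h3⟩
      rw [degree_eq] at h1
      refine ⟨(e 0, e 1), ⟨⟨by simp only; omega, by simp only; omega⟩, by simp only; omega,
        by simp only; omega, h3⟩, ?_⟩
      have : n - e 0 - e 1 = e 2 := by omega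
      simp only [g, this]
      exact tri_eta e
    · rintro ⟨⟨x, y⟩, ⟨⟨h1, h2⟩, h3, h4, h5⟩, rfl⟩
      simp only at h1 h2 h3 h4 h5
      simp only [g, tri_0, tri_1, tri_2, degree_eq]
      exact ⟨by omega, by omega, h5⟩
  have hinj : Set.InjOn g (F : Set (ℕ × ℕ)) := by
    rintro ⟨x, y⟩ _ ⟨x', y'⟩ _ h
    have h0 := DFunLike.congr_fun h 0
    have h1 := DFunLike.congr_fun h 1
    simp only [g, tri_0, tri_1] at h0 h1
    rw [h0, h1]
  rw [hs, Set.ncard_image_of_injOn hinj, Set.ncard_coe_finset]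
  simp only [F]
  rw [Finset.card_filter, Finset.sum_product]
  refine Finset.sum_congr rfl fun x _ => ?_
  rw [Finset.card_filter]

/-- The count of a row which does not meet the power of the last variable. -/
theorem row_fullG (b c n x : ℕ) (hn : n ≤ c) (hx : 1 ≤ x ∨ n < c) (R : ℕ → Prop)
    [∀ y, Decidable (R y)] (hR : ∀ y, R y) :
    ((Finset.range b).filter (fun y => x + y ≤ n ∧ n - x - y < c ∧ R y)).card = min (n + 1 - x) b := by
  have : (Finset.range b).filter (fun y => x + y ≤ n ∧ n - x - y < c ∧ R y) =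
      Finset.range (min (n + 1 - x) b) := by
    ext y
    simp only [Finset.mem_filter, Finset.mem_range, hR, and_true]
    omega
  rw [this, Finset.card_range]

/-- The count of the part of a row after a given element. -/
theorem row_partG (b c n x y₀ : ℕ) (hn : n ≤ c) (R : ℕ → Prop) [∀ y, Decidable (R y)]
    (hR : ∀ y, R y ↔ y₀ < y) :
    ((Finset.range b).filter (fun y => x + y ≤ n ∧ n - x - y < c ∧ R y)).card
      = min b (n + 1 - x) - y₀ - 1 := by
  have : (Finset.range b).filter (fun y => x + y ≤ n ∧ n - x - y < c ∧ R y) =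
      Finset.Ico (y₀ + 1) (min b (n + 1 - x)) := by
    ext y
    simp only [Finset.mem_filter, Finset.mem_range, Finset.mem_Ico, hR]
    omega
  rw [this, Nat.card_Ico]
  omega

theorem rowS_bot (β n : ℕ) {A B : ℕ} (h : A < B) :
    rowS β n A B = min (n - A) β + rowS β n (A + 1) B := by
  simp only [rowS]
  rw [Finset.sum_eq_sum_Ico_succ_bot h]

/-- The lexicographic rank as a formula in the exponents, up to the degree of the last power. -/
theorem lexRankG_eq {a b c : ℕ} {e : Fin 3 →₀ ℕ} (he : ¬ InPG a b c e) (hn : e.degree ≤ c) :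
    lexRankG a b c e = rowS b (e.degree + 1) (e 0 + 1) a
      + (min b (e.degree + 1 - e 0) - e 1 - 1) := by
  classical
  obtain ⟨h0, h1, h2⟩ := (not_InPG_iff e).mp he
  have hd := degree_eq e
  set n := e.degree with hn'
  have h := ncard_rowG a b c n (fun x y => e 0 < x ∨ (x = e 0 ∧ e 1 < y))
  have hs : {e' : Fin 3 →₀ ℕ | e'.degree = n ∧ ¬ InPG a b c e' ∧ LexGt e' e} =
      {e' : Fin 3 →₀ ℕ | e'.degree = n ∧ ¬ InPG a b c e' ∧
        (e 0 < e' 0 ∨ (e' 0 = e 0 ∧ e 1 < e' 1))} := by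
    ext e'
    simp only [Set.mem_setOf_eq, LexGt]
    constructor
    · rintro ⟨h3, h4, h5⟩
      refine ⟨h3, h4, ?_⟩
      have := degree_eq e'
      omega
    · rintro ⟨h3, h4, h5⟩
      refine ⟨h3, h4, ?_⟩
      omega
  unfold lexRankG
  rw [← hn', hs, h, Finset.range_eq_Ico, ← Finset.sum_Ico_consecutive _ (Nat.zero_le (e 0)) h0.le,
    Finset.sum_eq_zero, zero_add, Finset.sum_eq_sum_Ico_succ_bot h0]
  · rw [add_comm]
    congr 1
    · simp only [rowS]
      refine Finset.sum_congr rfl fun x hx => ?_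
      simp only [Finset.mem_Ico] at hx
      exact row_fullG b c n x hn (by omega) _ (fun y => by omega)
    · exact row_partG b c n (e 0) (e 1) hn _ (fun y => by simp)
  · intro x hx
    simp only [Finset.mem_Ico] at hx
    rw [Finset.card_eq_zero, Finset.filter_eq_empty_iff]
    intro y _ h3
    omega

theorem mm_low {a b c n : ℕ} (hn : n < c) : mm a b c n = hT a b n := by
  classical
  have h := ncard_rowG a b c n (fun _ _ => True)
  have hs : {e : Fin 3 →₀ ℕ | e.degree = n ∧ ¬ InPG a b c e ∧ True} =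
      {e : Fin 3 →₀ ℕ | e.degree = n ∧ ¬ InPG a b c e} := by
    ext e
    simp
  rw [hs] at h
  unfold mm
  rw [h, Finset.range_eq_Ico]
  simp only [hT, rowS]
  refine Finset.sum_congr rfl fun x _ => ?_
  exact row_fullG b c n x hn.le (Or.inr hn) _ (fun _ => trivial)

theorem mm_at {a b c : ℕ} (ha : 1 ≤ a) (hb : 1 ≤ b) (hbc : b ≤ c) : mm a b c c + 1 = hT a b c := by
  classical
  have h := ncard_rowG a b c c (fun _ _ => True)
  have hs : {e : Fin 3 →₀ ℕ | e.degree = c ∧ ¬ InPG a b c e ∧ True} =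
      {e : Fin 3 →₀ ℕ | e.degree = c ∧ ¬ InPG a b c e} := by
    ext e
    simp
  rw [hs] at h
  unfold mm
  rw [h, Finset.range_eq_Ico, Finset.sum_eq_sum_Ico_succ_bot (by omega : 0 < a)]
  simp only [hT, rowS]
  rw [Finset.sum_eq_sum_Ico_succ_bot (by omega : 0 < a)]
  have h0 : ((Finset.range b).filter (fun y => 0 + y ≤ c ∧ c - 0 - y < c ∧ True)).card
      = min (c + 1 - 0) b - 1 := by
    have : (Finset.range b).filter (fun y => 0 + y ≤ c ∧ c - 0 - y < c ∧ True) =
        Finset.Ico 1 (min (c + 1 - 0) b) := by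
      ext y
      simp only [Finset.mem_filter, Finset.mem_range, Finset.mem_Ico, and_true]
      omega
    rw [this, Nat.card_Ico]
  rw [h0]
  have h1 : ∑ x ∈ Finset.Ico (0 + 1) a, ((Finset.range b).filter
      (fun y => x + y ≤ c ∧ c - x - y < c ∧ True)).card
      = ∑ x ∈ Finset.Ico (0 + 1) a, min (c + 1 - x) b := by
    refine Finset.sum_congr rfl fun x hx => ?_
    simp only [Finset.mem_Ico] at hx
    exact row_fullG b c c x le_rfl (by omega) _ (fun _ => trivial)
  rw [h1]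
  omega

theorem deg_add_single (e : Fin 3 →₀ ℕ) (m : Fin 3) :
    (e + Finsupp.single m 1).degree = e.degree + 1 := by
  rw [map_add]
  simp

theorem add_single_cases (e : Fin 3 →₀ ℕ) (m : Fin 3) :
    ((e + Finsupp.single m 1 : Fin 3 →₀ ℕ) 0 = e 0 + 1 ∧ (e + Finsupp.single m 1 : Fin 3 →₀ ℕ) 1 = e 1
        ∧ (e + Finsupp.single m 1 : Fin 3 →₀ ℕ) 2 = e 2) ∨
      ((e + Finsupp.single m 1 : Fin 3 →₀ ℕ) 0 = e 0 ∧ (e + Finsupp.single m 1 : Fin 3 →₀ ℕ) 1 = e 1 + 1
        ∧ (e + Finsupp.single m 1 : Fin 3 →₀ ℕ) 2 = e 2) ∨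
      ((e + Finsupp.single m 1 : Fin 3 →₀ ℕ) 0 = e 0 ∧ (e + Finsupp.single m 1 : Fin 3 →₀ ℕ) 1 = e 1
        ∧ (e + Finsupp.single m 1 : Fin 3 →₀ ℕ) 2 = e 2 + 1) := by
  fin_cases m <;> simp

/-- The rank bound for the lower end of a row. -/
theorem RR_le_rank {a b c : ℕ} {e : Fin 3 →₀ ℕ} (he : ¬ InPG a b c e) (hn : e.degree ≤ c) :
    rowS b (e.degree + 1) (e 0 + 1) a ≤ lexRankG a b c e := by
  rw [lexRankG_eq he hn]
  omega

/-- The growth of the rank along multiplication by a variable. -/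
theorem rank_step {a b c j : ℕ} {e : Fin 3 →₀ ℕ} {m : Fin 3} (he : ¬ InPG a b c e)
    (he' : ¬ InPG a b c (e + Finsupp.single m 1)) (hd : e.degree = j) (hj : j + 1 ≤ c) :
    lexRankG a b c (e + Finsupp.single m 1)
      ≤ lexRankG a b c e + (min a (j + 2) - max (e 0) (j + 2 - b)) := by
  have hd' := deg_add_single e m
  rw [lexRankG_eq he (by omega), lexRankG_eq he' (by omega), hd', hd]
  obtain ⟨a0, a1, a2⟩ := (not_InPG_iff _).mp he'
  obtain ⟨b0, b1, b2⟩ := (not_InPG_iff _).mp he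
  have hsum : e 0 + e 1 + e 2 = j := by rw [← degree_eq, hd]
  have hS := rowS_succ b (j + 1) (e 0 + 1) (B := a) (by omega)
  clear he he' hd hd'
  rcases add_single_cases e m with ⟨h0, h1, h2⟩ | ⟨h0, h1, h2⟩ | ⟨h0, h1, h2⟩
  · rw [h0, h1]
    rw [h0] at a0
    have hb := rowS_bot b (j + 1 + 1) (A := e 0 + 1) (B := a) (by omega)
    clear a1 a2 h0 h1 h2
    generalize rowS b (j + 1 + 1) (e 0 + 1 + 1) a = R2 at *
    generalize rowS b (j + 1 + 1) (e 0 + 1) a = R1 at *
    generalize rowS b (j + 1) (e 0 + 1) a = R0 at *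
    generalize e 0 = x at *
    generalize e 1 = y at *
    generalize e 2 = z at *
    omega
  · rw [h0, h1]
    rw [h1] at a1
    clear a0 a2 h0 h1 h2
    generalize rowS b (j + 1 + 1) (e 0 + 1) a = R1 at *
    generalize rowS b (j + 1) (e 0 + 1) a = R0 at *
    generalize e 0 = x at *
    generalize e 1 = y at *
    generalize e 2 = z at *
    omega
  · rw [h0, h1]
    clear a0 a1 a2 h0 h1 h2
    generalize rowS b (j + 1 + 1) (e 0 + 1) a = R1 at *
    generalize rowS b (j + 1) (e 0 + 1) a = R0 at *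
    generalize e 0 = x at *
    generalize e 1 = y at *
    generalize e 2 = z at *
    omega

/-- The rank is below the number of monomials. -/
theorem rank_lt_mm {a b c : ℕ} {e : Fin 3 →₀ ℕ} (he : ¬ InPG a b c e) :
    lexRankG a b c e < mm a b c e.degree := by
  classical
  have hfin : {e' : Fin 3 →₀ ℕ | e'.degree = e.degree ∧ ¬ InPG a b c e'}.Finite :=
    (finite_degree _).subset fun _ he => he.1
  refine Set.ncard_lt_ncard ?_ hfin
  refine ⟨fun x hx => ⟨hx.1, hx.2.1⟩, fun hsub => ?_⟩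
  exact lexGt_irrefl e (hsub ⟨rfl, he⟩).2.2

/-- The dual exponent vector. -/
noncomputable def Dl (a b c : ℕ) (e : Fin 3 →₀ ℕ) : Fin 3 →₀ ℕ :=
  tri (a - 1 - e 0) (b - 1 - e 1) (c - 1 - e 2)

theorem Dl_0 (a b c : ℕ) (e : Fin 3 →₀ ℕ) : Dl a b c e 0 = a - 1 - e 0 := rfl
theorem Dl_1 (a b c : ℕ) (e : Fin 3 →₀ ℕ) : Dl a b c e 1 = b - 1 - e 1 := rfl
theorem Dl_2 (a b c : ℕ) (e : Fin 3 →₀ ℕ) : Dl a b c e 2 = c - 1 - e 2 := rfl

theorem Dl_box {a b c : ℕ} {e : Fin 3 →₀ ℕ} (he : ¬ InPG a b c e) : ¬ InPG a b c (Dl a b c e) := by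
  rw [not_InPG_iff] at he ⊢
  rw [Dl_0, Dl_1, Dl_2]
  omega

theorem Dl_Dl {a b c : ℕ} {e : Fin 3 →₀ ℕ} (he : ¬ InPG a b c e) : Dl a b c (Dl a b c e) = e := by
  rw [not_InPG_iff] at he
  ext i
  fin_cases i
  · show Dl a b c (Dl a b c e) 0 = e 0
    rw [Dl_0, Dl_0]
    omega
  · show Dl a b c (Dl a b c e) 1 = e 1
    rw [Dl_1, Dl_1]
    omega
  · show Dl a b c (Dl a b c e) 2 = e 2
    rw [Dl_2, Dl_2]
    omega

theorem Dl_deg {a b c s : ℕ} (hs : s + 3 = a + b + c) {e : Fin 3 →₀ ℕ} (he : ¬ InPG a b c e) :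
    e.degree + (Dl a b c e).degree = s := by
  rw [not_InPG_iff] at he
  rw [degree_eq, degree_eq, Dl_0, Dl_1, Dl_2]
  omega

theorem Dl_add {a b c : ℕ} {e : Fin 3 →₀ ℕ} {m : Fin 3}
    (he : ¬ InPG a b c (e + Finsupp.single m 1)) :
    Dl a b c (e + Finsupp.single m 1) + Finsupp.single m 1 = Dl a b c e := by
  rw [not_InPG_iff] at he
  obtain ⟨h0, h1, h2⟩ := he
  rw [Finsupp.add_apply] at h0 h1 h2
  refine Finsupp.ext fun i => ?_
  fin_cases i
  · show (Dl a b c (e + Finsupp.single m 1) + Finsupp.single m 1 : Fin 3 →₀ ℕ) 0 = Dl a b c e 0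
    rw [Finsupp.add_apply, Dl_0, Dl_0, Finsupp.add_apply]
    omega
  · show (Dl a b c (e + Finsupp.single m 1) + Finsupp.single m 1 : Fin 3 →₀ ℕ) 1 = Dl a b c e 1
    rw [Finsupp.add_apply, Dl_1, Dl_1, Finsupp.add_apply]
    omega
  · show (Dl a b c (e + Finsupp.single m 1) + Finsupp.single m 1 : Fin 3 →₀ ℕ) 2 = Dl a b c e 2
    rw [Finsupp.add_apply, Dl_2, Dl_2, Finsupp.add_apply]
    omega

/-- Duality of the numbers of monomials. -/
theorem mm_symm {a b c s n n' : ℕ} (hs : s + 3 = a + b + c) (h : n + n' = s) :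
    mm a b c n = mm a b c n' := by
  unfold mm
  have himg : {e : Fin 3 →₀ ℕ | e.degree = n ∧ ¬ InPG a b c e}
      = Dl a b c '' {e : Fin 3 →₀ ℕ | e.degree = n' ∧ ¬ InPG a b c e} := by
    ext e
    constructor
    · rintro ⟨h1, h2⟩
      refine ⟨Dl a b c e, ⟨?_, Dl_box h2⟩, Dl_Dl h2⟩
      have := Dl_deg hs h2
      omega
    · rintro ⟨e', ⟨h1, h2⟩, rfl⟩
      refine ⟨?_, Dl_box h2⟩
      have := Dl_deg hs h2
      omega
  rw [himg, Set.ncard_image_of_injOn]
  intro x hx y hy hxy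
  rw [← Dl_Dl hx.2, hxy, Dl_Dl hy.2]

/-- The lexicographic rank of the dual. -/
theorem rank_dual {a b c s : ℕ} (hs : s + 3 = a + b + c) {e : Fin 3 →₀ ℕ} (he : ¬ InPG a b c e) :
    lexRankG a b c (Dl a b c e) + lexRankG a b c e + 1 = mm a b c e.degree := by
  classical
  have hB : lexRankG a b c (Dl a b c e) =
      Set.ncard {e' : Fin 3 →₀ ℕ | e'.degree = e.degree ∧ ¬ InPG a b c e' ∧ LexGt e e'} := by
    unfold lexRankG
    have himg : {e' : Fin 3 →₀ ℕ | e'.degree = (Dl a b c e).degree ∧ ¬ InPG a b c e'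
          ∧ LexGt e' (Dl a b c e)}
        = Dl a b c '' {e' : Fin 3 →₀ ℕ | e'.degree = e.degree ∧ ¬ InPG a b c e' ∧ LexGt e e'} := by
      ext x
      have hd1 := Dl_deg hs he
      constructor
      · rintro ⟨h1, h2, h3⟩
        refine ⟨Dl a b c x, ⟨?_, Dl_box h2, ?_⟩, Dl_Dl h2⟩
        · have := Dl_deg hs h2
          omega
        · have h4 := (not_InPG_iff _).mp h2
          have h5 := (not_InPG_iff _).mp he
          unfold LexGt at h3 ⊢
          rw [Dl_0, Dl_1, Dl_2] at *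
          omega
      · rintro ⟨y, ⟨h1, h2, h3⟩, rfl⟩
        refine ⟨?_, Dl_box h2, ?_⟩
        · have := Dl_deg hs h2
          omega
        · have h4 := (not_InPG_iff _).mp h2
          have h5 := (not_InPG_iff _).mp he
          unfold LexGt at h3 ⊢
          rw [Dl_0, Dl_1, Dl_2, Dl_0, Dl_1, Dl_2]
          omega
    rw [himg, Set.ncard_image_of_injOn]
    intro x hx y hy hxy
    rw [← Dl_Dl hx.2.1, hxy, Dl_Dl hy.2.1]
  rw [hB]
  unfold lexRankG mm
  have hfin : ∀ P : (Fin 3 →₀ ℕ) → Prop, {e' : Fin 3 →₀ ℕ | e'.degree = e.degree ∧ P e'}.Finite :=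
    fun P => (finite_degree _).subset fun _ he => he.1
  have hU : {e' : Fin 3 →₀ ℕ | e'.degree = e.degree ∧ ¬ InPG a b c e'}
      = ({e' : Fin 3 →₀ ℕ | e'.degree = e.degree ∧ ¬ InPG a b c e' ∧ LexGt e e'}
        ∪ {e' : Fin 3 →₀ ℕ | e'.degree = e.degree ∧ ¬ InPG a b c e' ∧ LexGt e' e}) ∪ {e} := by
    ext x
    simp only [Set.mem_setOf_eq, Set.mem_union, Set.mem_singleton_iff]
    constructor
    · rintro ⟨h1, h2⟩
      by_cases hx : x = e
      · exact Or.inr hx
      · rcases lexGt_total h1 hx with h3 | h3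
        · exact Or.inl (Or.inr ⟨h1, h2, h3⟩)
        · exact Or.inl (Or.inl ⟨h1, h2, h3⟩)
    · rintro ((⟨h1, h2, -⟩ | ⟨h1, h2, -⟩) | rfl)
      · exact ⟨h1, h2⟩
      · exact ⟨h1, h2⟩
      · exact ⟨rfl, he⟩
  rw [hU, Set.ncard_union_eq (by
      rw [Set.disjoint_singleton_right]
      rintro (⟨-, -, h⟩ | ⟨-, -, h⟩) <;> exact lexGt_irrefl e h)
      ((hfin _).union (hfin _)) (Set.finite_singleton _),
    Set.ncard_union_eq (by
      rw [Set.disjoint_left]
      rintro x ⟨-, -, h1⟩ ⟨-, -, h2⟩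
      exact lexGt_irrefl e (lexGt_trans h1 h2)) (hfin _) (hfin _), Set.ncard_singleton]

theorem ncard_InPG_add (a b c n : ℕ) :
    Set.ncard {e : Fin 3 →₀ ℕ | e.degree = n ∧ InPG a b c e} + mm a b c n = (n + 2).choose 2 := by
  classical
  have hdis : Disjoint {e : Fin 3 →₀ ℕ | e.degree = n ∧ InPG a b c e}
      {e : Fin 3 →₀ ℕ | e.degree = n ∧ ¬ InPG a b c e} := by
    rw [Set.disjoint_left]
    rintro e ⟨-, h⟩ ⟨-, h'⟩
    exact h' h
  unfold mm
  rw [← ncard_degree, ← Set.ncard_union_eq hdis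
    ((finite_degree n).subset fun e he => he.1) ((finite_degree n).subset fun e he => he.1)]
  congr 1
  ext e
  simp only [Set.mem_union, Set.mem_setOf_eq]
  tauto

theorem mm_large {a b c s n : ℕ} (hs : s + 3 = a + b + c) (hn : s < n) : mm a b c n = 0 := by
  unfold mm
  have : {e : Fin 3 →₀ ℕ | e.degree = n ∧ ¬ InPG a b c e} = ∅ := by
    ext e
    simp only [Set.mem_setOf_eq, Set.mem_empty_iff_false, iff_false, not_and]
    intro h1 h2
    have h3 := (not_InPG_iff e).mp h2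
    rw [degree_eq] at h1
    omega
  rw [this, Set.ncard_empty]

/-- Among the monomials of degree `n` outside `P`, exactly `q` have rank below `q`. -/
theorem count_rankG (a b c n q : ℕ) (hq : q ≤ mm a b c n) :
    Set.ncard {e : Fin 3 →₀ ℕ | e.degree = n ∧ ¬ InPG a b c e ∧ lexRankG a b c e < q} = q := by
  classical
  have hfin : {e : Fin 3 →₀ ℕ | e.degree = n ∧ ¬ InPG a b c e}.Finite :=
    (finite_degree n).subset fun _ he => he.1
  set M : Finset (Fin 3 →₀ ℕ) := hfin.toFinset with hM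
  have hmem : ∀ e, e ∈ M ↔ e.degree = n ∧ ¬ InPG a b c e := by
    intro e
    simp [hM]
  have hcard : M.card = mm a b c n := by
    unfold mm
    rw [hM, Set.ncard_eq_toFinset_card _ hfin]
  have hrank : ∀ e ∈ M, lexRankG a b c e = (M.filter fun e' => LexGt e' e).card := by
    intro e he
    unfold lexRankG
    rw [← Set.ncard_coe_finset]
    congr 1
    ext e'
    simp only [Set.mem_setOf_eq, Finset.coe_filter, hmem]
    rw [((hmem e).mp he).1]
    tauto
  have hlt : ∀ e ∈ M, ∀ e' ∈ M, LexGt e' e → lexRankG a b c e' < lexRankG a b c e := by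
    intro e he e' he' h
    rw [hrank e he, hrank e' he']
    refine Finset.card_lt_card ?_
    rw [Finset.ssubset_iff_of_subset]
    · exact ⟨e', Finset.mem_filter.mpr ⟨he', h⟩, fun h2 =>
        lexGt_irrefl e' (Finset.mem_filter.mp h2).2⟩
    · intro x hx
      rw [Finset.mem_filter] at hx ⊢
      exact ⟨hx.1, lexGt_trans hx.2 h⟩
  have hinj : Set.InjOn (lexRankG a b c) (M : Set (Fin 3 →₀ ℕ)) := by
    intro e he e' he' h
    by_contra hne
    have he1 := (hmem e).mp he
    have he2 := (hmem e').mp he'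
    rcases lexGt_total (he1.1.trans he2.1.symm) hne with h1 | h1
    · have := hlt e' he' e he h1
      omega
    · have := hlt e he e' he' h1
      omega
  have hbd : ∀ e ∈ M, lexRankG a b c e < M.card := by
    intro e he
    rw [hrank e he]
    refine Finset.card_lt_card ?_
    rw [Finset.ssubset_iff_of_subset (Finset.filter_subset _ _)]
    exact ⟨e, he, fun h2 => lexGt_irrefl e (Finset.mem_filter.mp h2).2⟩
  have himg : M.image (lexRankG a b c) = Finset.range M.card := by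
    refine Finset.eq_of_subset_of_card_le ?_ ?_
    · intro x hx
      obtain ⟨e, he, rfl⟩ := Finset.mem_image.mp hx
      exact Finset.mem_range.mpr (hbd e he)
    · rw [Finset.card_range, Finset.card_image_of_injOn hinj]
  have hs : {e : Fin 3 →₀ ℕ | e.degree = n ∧ ¬ InPG a b c e ∧ lexRankG a b c e < q} =
      ((M.filter fun e => lexRankG a b c e < q : Finset (Fin 3 →₀ ℕ)) : Set (Fin 3 →₀ ℕ)) := by
    ext e
    simp only [Set.mem_setOf_eq, Finset.coe_filter, hmem]
    tauto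
  rw [hs, Set.ncard_coe_finset]
  have himg2 : (M.filter fun e => lexRankG a b c e < q).image (lexRankG a b c) = Finset.range q := by
    ext x
    simp only [Finset.mem_image, Finset.mem_filter, Finset.mem_range]
    constructor
    · rintro ⟨e, ⟨-, h⟩, rfl⟩
      exact h
    · intro hx
      have hx2 : x ∈ M.image (lexRankG a b c) := by
        rw [himg, Finset.mem_range]
        omega
      obtain ⟨e, he, rfl⟩ := Finset.mem_image.mp hx2
      exact ⟨e, ⟨he, hx⟩, rfl⟩
  have hinj2 : Set.InjOn (lexRankG a b c)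
      ((M.filter fun e => lexRankG a b c e < q : Finset (Fin 3 →₀ ℕ)) : Set (Fin 3 →₀ ℕ)) :=
    hinj.mono (by
      intro e he
      exact (Finset.mem_filter.mp he).1)
  rw [← Finset.card_image_of_injOn hinj2, himg2, Finset.card_range]

end Vale.Agent.P200H
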