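import Vale.Agent.P200H.Crit4
import Vale.Agent.P200H.LexG

/-!
# The closure inequalities for a regular sequence of degrees `(a, b, a + b - 3)`
-/

namespace Vale.Agent.P200H

open MvPolynomial Module Vale.Agent.P200 Vale.Agent.P200G

variable {K : Type*} [Field K]

theorem Fid_gen (p : Fin 3 → Pol K) :
    P200G.Fid p = Ideal.span {p 0, p 1} ⊔ Ideal.span {p 2} := by
  have h : p = ![p 0, p 1, p 2] := by
    funext i
    fin_cases i <;> rfl
  conv_lhs => rw [h]
  exact Fid_vec _ _ _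

/-- The numerical configuration of the degrees. -/
structure Cfg (d : Fin 3 → ℕ) (a b c : ℕ) : Prop where
  h0 : d 0 = a
  h1 : d 1 = b
  h2 : d 2 = c
  ha : 3 ≤ a
  hab : a ≤ b
  hc : c + 3 = a + b

namespace Cfg

variable {d : Fin 3 → ℕ} {a b c : ℕ} {p : Fin 3 → Pol K}

theorem hs (C : Cfg d a b c) : 2 * c + 3 = d 0 + d 1 + d 2 := by
  have h1 := C.h0
  have h2 := C.h1
  have h3 := C.h2
  have h4 := C.hc
  omega

theorem hs' (C : Cfg d a b c) : 2 * c + 3 = a + b + c := by
  have h4 := C.hc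
  omega

theorem hom0 (C : Cfg d a b c) (hp : IsReg3 d p) : (p 0).IsHomogeneous a := by
  have h := hp.hom 0
  rwa [C.h0] at h

theorem hom1 (C : Cfg d a b c) (hp : IsReg3 d p) : (p 1).IsHomogeneous b := by
  have h := hp.hom 1
  rwa [C.h1] at h

theorem hom2 (C : Cfg d a b c) (hp : IsReg3 d p) : (p 2).IsHomogeneous c := by
  have h := hp.hom 2
  rwa [C.h2] at h

theorem exists_Pr [Infinite K] (C : Cfg d a b c) (hp : IsReg3 d p) :
    ∃ l, Pr a b (p 0) (p 1) l := by
  have ha := C.ha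
  have hab := C.hab
  obtain ⟨l, hl, hreg⟩ := exists_linear (depth_pair hp.p0_ne hp.reg₁)
    (one_not_mem_pair (C.hom0 hp) (C.hom1 hp) (by omega) (by omega))
  exact ⟨l, C.hom0 hp, C.hom1 hp, by omega, hab, hp.p0_ne, hp.reg₁, hl, hreg⟩

/-- The Hilbert function of the complete intersection. -/
theorem finrank_F_add (C : Cfg d a b c) (hp : IsReg3 d p) (n : ℕ) :
    finrank K (Sd K n) = finrank K (Id (P200G.Fid p) n) + mm a b c n := by
  have ha := C.ha
  have hab := C.hab
  have hc := C.hc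
  have hC : HomIdeal (Ideal.span {p 0, p 1}) := homIdeal_pair (C.hom0 hp) (C.hom1 hp)
  have hpair := finrank_pair (C.hom0 hp) (C.hom1 hp) (by omega) (by omega) hp.p0_ne hp.reg₁
  have low : ∀ n, n ≤ c → finrank K (Sd K n) = finrank K (Id (P200G.Fid p) n) + mm a b c n := by
    intro n hn
    rw [Fid_gen]
    by_cases hn1 : n < c
    · rw [Id_sup_low hC (C.hom2 hp) hn1, mm_low hn1]
      exact hpair n
    · have hn2 : n = c := by omega
      subst hn2
      have h1 := reg_add hC (C.hom2 hp) hp.p2_ne hp.reg₂ 0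
      rw [zero_add] at h1
      have h2 := hpair 0
      rw [hT_zero (by omega) (by omega)] at h2
      have h3 := hpair n
      have h4 := mm_at (a := a) (b := b) (c := n) (by omega) (by omega) (by omega)
      rw [finrank_Sd] at h1 h2
      have h5 : (0 + 2).choose 2 = 1 := rfl
      omega
  by_cases hn : n ≤ c
  · exact low n hn
  by_cases hn2 : n ≤ 2 * c
  · have h3 := hp.symmetry (K := K) C.hs (m := 2 * c - n) (n := n) (by omega)
    have h4 := low (2 * c - n) (by omega)
    have h5 := mm_symm (a := a) (b := b) (c := c) (n := n) (n' := 2 * c - n) C.hs' (by omega)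
    omega
  · have h3 := hp.finrank_top (K := K) C.hs (n := n) (by omega)
    rw [mm_large C.hs' (by omega), h3]
    rfl

/-- The closure step in low degree, over an infinite field. -/
theorem low_closure [Infinite K] (C : Cfg d a b c) (hp : IsReg3 d p) {j : ℕ} (hj : j + 1 ≤ c)
    {Y : Submodule K (Pol K)} (hY : IsSp (P200G.Fid p) j Y) {e : Fin 3 →₀ ℕ} (hd : e.degree = j)
    {m : Fin 3} (he' : ¬ InPG a b c (e + Finsupp.single m 1)) (he : ¬ InPG a b c e)
    (hrank : lexRankG a b c e < rk (P200G.Fid p) j Y) :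
    lexRankG a b c (e + Finsupp.single m 1)
      < rk (P200G.Fid p) (j + 1) (up Y ⊔ Id (P200G.Fid p) (j + 1)) := by
  obtain ⟨l, P⟩ := C.exists_Pr hp
  have hF := C.finrank_F_add hp (j + 1)
  rw [Fid_gen] at hY hrank hF ⊢
  have hc2 := C.hom2 hp
  have hIj : Id ((Ideal.span {p 0, p 1}) ⊔ Ideal.span {p 2}) j = Id (Ideal.span {p 0, p 1}) j := Id_sup_low P.hC hc2 (by omega)
  have hY' : IsSp (Ideal.span {p 0, p 1}) j Y := ⟨hIj ▸ hY.lo, hY.hi⟩
  have hrk : rk ((Ideal.span {p 0, p 1}) ⊔ Ideal.span {p 2}) j Y = rk (Ideal.span {p 0, p 1}) j Y := by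
    unfold rk
    rw [hIj]
  rw [hrk] at hrank
  have hstep := rank_step he he' hd hj
  have hrr := RR_le_rank he (by omega)
  rw [hd] at hrr
  have hR : RR a b j (e 0) < rk (Ideal.span {p 0, p 1}) j Y := lt_of_le_of_lt hrr hrank
  obtain ⟨he0, -, -⟩ := (not_InPG_iff e).mp he
  have hsum : e 0 + e 1 + e 2 = j := by rw [← degree_eq, hd]
  have hLG := P.LG j Y hY' (e 0) he0 (by omega) hR
  have hgg : gg a b j (e 0) = min a (j + 2) - max (e 0) (j + 2 - b) := rfl
  rw [← hgg] at hstep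
  by_cases hj2 : j + 1 < c
  · have hI2 : Id ((Ideal.span {p 0, p 1}) ⊔ Ideal.span {p 2}) (j + 1) = Id (Ideal.span {p 0, p 1}) (j + 1) := Id_sup_low P.hC hc2 hj2
    rw [hI2]
    have e1 : rk ((Ideal.span {p 0, p 1}) ⊔ Ideal.span {p 2}) (j + 1) (up Y ⊔ Id (Ideal.span {p 0, p 1}) (j + 1))
        = rk (Ideal.span {p 0, p 1}) (j + 1) (upC (Ideal.span {p 0, p 1}) j Y) := by
      unfold rk upC
      rw [hI2]
    rw [e1]
    omega
  -- the critical degree
  have hjc : j + 1 = c := by omega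
  have hc' : j + 4 = a + b := by
    have := C.hc
    omega
  have hZ : IsSp ((Ideal.span {p 0, p 1}) ⊔ Ideal.span {p 2}) (j + 1) (up Y ⊔ Id ((Ideal.span {p 0, p 1}) ⊔ Ideal.span {p 2}) (j + 1)) :=
    ⟨le_sup_right, sup_le (up_le hY.hi) (Id_le _ _)⟩
  haveI := hZ.fin
  have hU := hY'.upC
  have aU := hU.add
  have hUle : upC (Ideal.span {p 0, p 1}) j Y ≤ up Y ⊔ Id ((Ideal.span {p 0, p 1}) ⊔ Ideal.span {p 2}) (j + 1) :=
    sup_le_sup_left (Id_mono le_sup_left _) _
  have hU1 := finrank_le_of_le hUle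
  have hdim : finrank K (Id ((Ideal.span {p 0, p 1}) ⊔ Ideal.span {p 2}) (j + 1)) = finrank K (Id (Ideal.span {p 0, p 1}) (j + 1)) + 1 := by
    have h1 := reg_add P.hC hc2 hp.p2_ne hp.reg₂ 0
    rw [zero_add, ← hjc] at h1
    have h2 := P.Id_zero
    rw [finrank_Sd] at h1
    have h5 : (0 + 2).choose 2 = 1 := rfl
    omega
  have hrZ : rk ((Ideal.span {p 0, p 1}) ⊔ Ideal.span {p 2}) (j + 1) (up Y ⊔ Id ((Ideal.span {p 0, p 1}) ⊔ Ideal.span {p 2}) (j + 1))
      = finrank K ↥(up Y ⊔ Id ((Ideal.span {p 0, p 1}) ⊔ Ideal.span {p 2}) (j + 1))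
        - finrank K (Id ((Ideal.span {p 0, p 1}) ⊔ Ideal.span {p 2}) (j + 1)) := rfl
  rw [hrZ, hdim]
  have hrU : finrank K (upC (Ideal.span {p 0, p 1}) j Y) = rk (Ideal.span {p 0, p 1}) (j + 1) (upC (Ideal.span {p 0, p 1}) j Y) + finrank K (Id (Ideal.span {p 0, p 1}) (j + 1)) := aU
  have hU2 : finrank K (upC (Ideal.span {p 0, p 1}) j Y) ≤ finrank K ↥(up Y ⊔ Id ((Ideal.span {p 0, p 1}) ⊔ Ideal.span {p 2}) (j + 1)) := hU1
  by_cases hp2 : p 2 ∈ upC (Ideal.span {p 0, p 1}) j Y
  · by_cases hYtop : Y = Sd K j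
    · subst hYtop
      have hlt := rank_lt_mm he'
      rw [deg_add_single, hd] at hlt
      have e2 : up (Sd K j) ⊔ Id ((Ideal.span {p 0, p 1}) ⊔ Ideal.span {p 2}) (j + 1) = Sd K (j + 1) := by
        rw [up_top_eq]
        exact sup_eq_left.mpr (Id_le _ _)
      rw [e2]
      rw [hdim] at hF
      omega
    · obtain ⟨w, hw, hreg⟩ := exists_reg_of_mem hp2 hp.reg₂
      have hcr := P.critical C.ha hc' hY' he0 hR hYtop hw hreg
      omega
  · have hle2 : upC (Ideal.span {p 0, p 1}) j Y ⊔ Submodule.span K {p 2}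
        ≤ up Y ⊔ Id ((Ideal.span {p 0, p 1}) ⊔ Ideal.span {p 2}) (j + 1) := by
      refine sup_le hUle ((Submodule.span_singleton_le_iff_mem _ _).mpr ?_)
      refine Submodule.mem_sup_right (mem_Id.mpr ⟨Ideal.mem_sup_right
        (Ideal.mem_span_singleton_self _), ?_⟩)
      rw [hjc]
      exact hc2
    haveI : FiniteDimensional K ↥(upC (Ideal.span {p 0, p 1}) j Y ⊔ Submodule.span K {p 2}) :=
      Submodule.finiteDimensional_of_le hle2
    have h1 := finrank_sup_ge hp2
    have h2 := finrank_le_of_le hle2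
    omega

/-- The closure step in low degree, over every field. -/
theorem low_closure_all (C : Cfg d a b c) (hp : IsReg3 d p) {j : ℕ} (hj : j + 1 ≤ c)
    {Y : Submodule K (Pol K)} (hY : IsSp (P200G.Fid p) j Y) {e : Fin 3 →₀ ℕ} (hd : e.degree = j)
    {m : Fin 3} (he' : ¬ InPG a b c (e + Finsupp.single m 1)) (he : ¬ InPG a b c e)
    (hrank : lexRankG a b c e < rk (P200G.Fid p) j Y) :
    lexRankG a b c (e + Finsupp.single m 1)
      < rk (P200G.Fid p) (j + 1) (up Y ⊔ Id (P200G.Fid p) (j + 1)) := by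
  let L := AlgebraicClosure K
  haveI := hY.fin
  have hq := hp.base_change (L := L)
  have hT : up Y ⊔ Id (P200G.Fid p) (j + 1) ≤ Sd K (j + 1) := sup_le (up_le hY.hi) (Id_le _ _)
  haveI := finDim hT
  have hV : IsSp (P200G.Fid fun i => bc K L (p i)) j (bcs L Y) :=
    ⟨by rw [IsReg3.Id_bc hp]; exact bcs_mono hY.lo, bcs_le_Sd hY.hi⟩
  have hr1 : rk (P200G.Fid fun i => bc K L (p i)) j (bcs L Y) = rk (P200G.Fid p) j Y := by
    unfold rk
    rw [finrank_bcs, IsReg3.finrank_Id_bc hp]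
  have main := C.low_closure hq hj hV hd he' he (by rw [hr1]; exact hrank)
  have hle : up (bcs L Y) ⊔ Id (P200G.Fid fun i => bc K L (p i)) (j + 1)
      ≤ bcs L (up Y ⊔ Id (P200G.Fid p) (j + 1)) := by
    refine sup_le (up_bcs_le.trans (bcs_mono le_sup_left)) ?_
    rw [IsReg3.Id_bc hp]
    exact bcs_mono le_sup_right
  haveI : FiniteDimensional L (bcs L (up Y ⊔ Id (P200G.Fid p) (j + 1))) :=
    Submodule.finiteDimensional_of_le (bcs_le_Sd hT)
  have h3 : finrank L ↥(up (bcs L Y) ⊔ Id (P200G.Fid fun i => bc K L (p i)) (j + 1))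
      ≤ finrank L (bcs L (up Y ⊔ Id (P200G.Fid p) (j + 1))) :=
    Submodule.finrank_mono hle
  rw [finrank_bcs] at h3
  have e1 : rk (P200G.Fid fun i => bc K L (p i)) (j + 1)
      (up (bcs L Y) ⊔ Id (P200G.Fid fun i => bc K L (p i)) (j + 1))
      = finrank L ↥(up (bcs L Y) ⊔ Id (P200G.Fid fun i => bc K L (p i)) (j + 1))
        - finrank K (Id (P200G.Fid p) (j + 1)) := by
    unfold rk
    rw [IsReg3.finrank_Id_bc hp]
  have e2 : rk (P200G.Fid p) (j + 1) (up Y ⊔ Id (P200G.Fid p) (j + 1))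
      = finrank K ↥(up Y ⊔ Id (P200G.Fid p) (j + 1)) - finrank K (Id (P200G.Fid p) (j + 1)) := rfl
  rw [e1] at main
  rw [e2]
  omega

theorem ncard_InPG_eq (C : Cfg d a b c) (hp : IsReg3 d p) (n : ℕ) :
    Set.ncard {e : Fin 3 →₀ ℕ | e.degree = n ∧ InPG a b c e} = finrank K (Id (P200G.Fid p) n) := by
  have h3 := ncard_InPG_add a b c n
  have h4 := C.finrank_F_add hp n
  rw [finrank_Sd] at h4
  omega

theorem qDimG_eq (C : Cfg d a b c) (hp : IsReg3 d p) (I : Ideal (Pol K)) (n : ℕ) :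
    qDimG a b c I n = rk (P200G.Fid p) n (Id I n) := by
  unfold qDimG
  rw [C.ncard_InPG_eq hp]
  rfl

theorem qDimG_le (C : Cfg d a b c) (hp : IsReg3 d p) (I : Ideal (Pol K)) (n : ℕ) :
    qDimG a b c I n ≤ mm a b c n := by
  rw [C.qDimG_eq hp]
  have h3 := C.finrank_F_add hp n
  have h4 := finrank_le_of_le (Id_le I n)
  unfold rk
  omega

/-- The rank condition propagates along multiplication by a variable. -/
theorem closure_monomial (C : Cfg d a b c) (hp : IsReg3 d p) {I : Ideal (Pol K)}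
    (hI : P200G.Fid p ≤ I) {e : Fin 3 →₀ ℕ} {n : ℕ} (hde : e.degree = n) (m : Fin 3)
    (he : InPG a b c e ∨ lexRankG a b c e < qDimG a b c I n) :
    InPG a b c (e + Finsupp.single m 1)
      ∨ lexRankG a b c (e + Finsupp.single m 1) < qDimG a b c I (n + 1) := by
  by_cases hP : InPG a b c (e + Finsupp.single m 1)
  · exact Or.inl hP
  right
  have hnP : ¬ InPG a b c e := by
    rw [not_InPG_iff]
    have h := (not_InPG_iff _).mp hP
    rw [Finsupp.add_apply, Finsupp.add_apply, Finsupp.add_apply] at h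
    omega
  have hrk : lexRankG a b c e < qDimG a b c I n := he.resolve_left hnP
  rw [C.qDimG_eq hp] at hrk ⊢
  have hSp : ∀ n, IsSp (P200G.Fid p) n (Id I n) := fun n => ⟨Id_mono hI n, Id_le I n⟩
  by_cases hn : n + 1 ≤ c
  · have h1 := C.low_closure_all hp hn (hSp n) hde hP hnP hrk
    have hle : up (Id I n) ⊔ Id (P200G.Fid p) (n + 1) ≤ Id I (n + 1) :=
      sup_le (up_Id_le I n) (Id_mono hI _)
    have hS2 : IsSp (P200G.Fid p) (n + 1) (up (Id I n) ⊔ Id (P200G.Fid p) (n + 1)) := (hSp n).upC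
    exact lt_of_lt_of_le h1 (hS2.rk_mono (hSp _) hle)
  -- the dual range
  by_contra hcon
  have hs := C.hs
  have hs' := C.hs'
  have hdeg1 : (e + Finsupp.single m 1).degree = n + 1 := by rw [deg_add_single, hde]
  have hDd := Dl_deg hs' hP
  rw [hdeg1] at hDd
  obtain ⟨j, hj⟩ : ∃ j, (Dl a b c (e + Finsupp.single m 1)).degree = j := ⟨_, rfl⟩
  rw [hj] at hDd
  obtain ⟨τ, hτ⟩ := hp.exists_tau (K := K) hs
  have hjc : j + 1 ≤ c := by omega
  have e1 := hp.finrank_perp hs hτ (m := n + 1) (n := j) (by omega) (Id_mono hI (n + 1))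
    (Id_le I (n + 1))
  have e2 := hp.finrank_perp hs hτ (m := n) (n := j + 1) (by omega) (Id_mono hI n) (Id_le I n)
  have hY1 : Id (P200G.Fid p) j ≤ perp τ j (Id I (n + 1)) := by
    intro y hy
    rw [mem_perp]
    have hy' := mem_Id.mp hy
    refine ⟨hy'.2, fun c' hc' => ?_⟩
    have hc'' := mem_Id.mp hc'
    refine (hτ _ ?_).mpr (Ideal.mul_mem_right _ _ hy'.1)
    have := hy'.2.mul hc''.2
    rwa [show j + (n + 1) = 2 * c by omega] at this
  have hZ1 : up (perp τ j (Id I (n + 1))) ⊔ Id (P200G.Fid p) (j + 1) ≤ perp τ (j + 1) (Id I n) := by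
    refine sup_le ?_ ?_
    · refine Submodule.mul_le.mpr fun l hl y hy => ?_
      rw [mem_perp] at hy ⊢
      refine ⟨?_, fun c' hc' => ?_⟩
      · have := hy.1.mul (show l.IsHomogeneous 1 from hl)
        rwa [mul_comm] at this
      · have h3 := hy.2 (l * c') (up_Id_le I n (mul_mem_up hl hc'))
        rw [← h3]
        congr 1
        ring
    · intro g hg
      rw [mem_Id] at hg
      rw [mem_perp]
      refine ⟨hg.2, fun c' hc' => ?_⟩
      have hc'' := mem_Id.mp hc'
      refine (hτ _ ?_).mpr (Ideal.mul_mem_right _ _ hg.1)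
      have h3 := hg.2.mul hc''.2
      rwa [show j + 1 + n = 2 * c by omega] at h3
  have hYle : perp τ j (Id I (n + 1)) ≤ Sd K j := perp_le _ _ _
  have hZle : perp τ (j + 1) (Id I n) ≤ Sd K (j + 1) := perp_le _ _ _
  have hYS : IsSp (P200G.Fid p) j (perp τ j (Id I (n + 1))) := ⟨hY1, hYle⟩
  have hZS : IsSp (P200G.Fid p) (j + 1) (perp τ (j + 1) (Id I n)) :=
    ⟨le_trans le_sup_right hZ1, hZle⟩
  have n1 := C.finrank_F_add hp j
  have n2 := C.finrank_F_add hp (j + 1)
  have n3 := C.finrank_F_add hp n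
  have n4 := C.finrank_F_add hp (n + 1)
  have m1 := finrank_le_of_le (Id_mono hI (n := n))
  have m2 := finrank_le_of_le (Id_mono hI (n := n + 1))
  have m3 := finrank_le_of_le (Id_le I n)
  have m4 := finrank_le_of_le (Id_le I (n + 1))
  have k1 := mm_symm (a := a) (b := b) (c := c) (n := j) (n' := n + 1) hs' (by omega)
  have k2 := mm_symm (a := a) (b := b) (c := c) (n := j + 1) (n' := n) hs' (by omega)
  have r1 := rank_dual hs' hP
  have r2 := rank_dual hs' hnP
  rw [hdeg1] at r1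
  rw [hde] at r2
  have a1 := hYS.add
  have a2 := hZS.add
  have a3 : finrank K (Id I n) = rk (P200G.Fid p) n (Id I n) + finrank K (Id (P200G.Fid p) n) :=
    (hSp n).add
  have a4 : finrank K (Id I (n + 1)) = rk (P200G.Fid p) (n + 1) (Id I (n + 1))
      + finrank K (Id (P200G.Fid p) (n + 1)) := (hSp (n + 1)).add
  have hlow := C.low_closure_all hp hjc hYS hj (m := m) (e := Dl a b c (e + Finsupp.single m 1))
    (by rw [Dl_add hP]; exact Dl_box hnP) (Dl_box hP) (by omega)
  rw [Dl_add hP] at hlow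
  have hle2 := (hYS.upC).rk_mono hZS hZ1
  have e3 : rk (P200G.Fid p) (j + 1) (upC (P200G.Fid p) j (perp τ j (Id I (n + 1))))
      = rk (P200G.Fid p) (j + 1) (up (perp τ j (Id I (n + 1))) ⊔ Id (P200G.Fid p) (j + 1)) := rfl
  rw [e3] at hle2
  omega

/-- The spaces `J_d` are closed under multiplication by the variables. -/
theorem closure_X (C : Cfg d a b c) (hp : IsReg3 d p) {I : Ideal (Pol K)} (hI : P200G.Fid p ≤ I)
    {n : ℕ} (i : Fin 3) {g : Pol K} (hg : g ∈ lexPlusPowersG a b c I n) :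
    X i * g ∈ lexPlusPowersG a b c I (n + 1) := by
  unfold lexPlusPowersG at hg
  induction hg using Submodule.span_induction with
  | mem x hx =>
    obtain ⟨e, hde, he, rfl⟩ := hx
    refine Submodule.subset_span
      ⟨e + Finsupp.single i 1, ?_, C.closure_monomial hp hI hde i he, ?_⟩
    · rw [deg_add_single, hde]
    · rw [X, monomial_mul, one_mul, add_comm]
  | zero => simp
  | add x y _ _ hx hy =>
    rw [mul_add]
    exact Submodule.add_mem _ hx hy
  | smul r x _ hx =>
    rw [mul_smul_comm]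
    exact Submodule.smul_mem _ _ hx

/-- The sum of the `J_d` is stable under multiplication by all polynomials. -/
theorem closure_all (C : Cfg d a b c) (hp : IsReg3 d p) {I : Ideal (Pol K)} (hI : P200G.Fid p ≤ I)
    (r : Pol K) {g : Pol K} (hg : g ∈ ⨆ n, lexPlusPowersG a b c I n) :
    r * g ∈ ⨆ n, lexPlusPowersG a b c I n := by
  have hX : ∀ (i : Fin 3) {g : Pol K}, g ∈ ⨆ n, lexPlusPowersG a b c I n →
      X i * g ∈ ⨆ n, lexPlusPowersG a b c I n := by
    intro i g hg
    induction hg using Submodule.iSup_induction' with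
    | mem n x hx => exact Submodule.mem_iSup_of_mem (n + 1) (C.closure_X hp hI i hx)
    | zero => simp
    | add x y _ _ hx hy =>
      rw [mul_add]
      exact Submodule.add_mem _ hx hy
  induction r using MvPolynomial.induction_on generalizing g with
  | C r =>
    rw [← smul_eq_C_mul]
    exact Submodule.smul_mem _ _ hg
  | add r s hr hs =>
    rw [add_mul]
    exact Submodule.add_mem _ (hr hg) (hs hg)
  | mul_X r i hr =>
    rw [mul_assoc]
    exact hr (hX i hg)

end Cfg

/-- The exponent vectors spanning `J_d`. -/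
def expSetG (a b c : ℕ) (I : Ideal (Pol K)) (n : ℕ) : Set (Fin 3 →₀ ℕ) :=
  {e | e.degree = n ∧ (InPG a b c e ∨ lexRankG a b c e < qDimG a b c I n)}

theorem expSetG_finite (a b c : ℕ) (I : Ideal (Pol K)) (n : ℕ) : (expSetG a b c I n).Finite :=
  (finite_degree n).subset fun _ he => he.1

theorem lexPlusPowersG_eq (a b c : ℕ) (I : Ideal (Pol K)) (n : ℕ) :
    lexPlusPowersG a b c I n =
      Submodule.span K (Set.range fun e : expSetG a b c I n => (monomial e.1 1 : Pol K)) := by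
  unfold lexPlusPowersG
  congr 1
  ext p
  constructor
  · rintro ⟨e, h1, h2, rfl⟩
    exact ⟨⟨e, h1, h2⟩, rfl⟩
  · rintro ⟨⟨e, h1, h2⟩, rfl⟩
    exact ⟨e, h1, h2, rfl⟩

theorem finrank_lexPlusPowersG (a b c : ℕ) (I : Ideal (Pol K)) (n : ℕ) :
    finrank K (lexPlusPowersG a b c I n) = (expSetG a b c I n).ncard := by
  classical
  haveI : Fintype (expSetG a b c I n) := (expSetG_finite a b c I n).fintype
  rw [lexPlusPowersG_eq]
  have hli : LinearIndependent K fun e : expSetG a b c I n => (monomial e.1 1 : Pol K) := by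
    have h := (basisMonomials (Fin 3) K).linearIndependent.comp
      (Subtype.val : expSetG a b c I n → (Fin 3 →₀ ℕ)) Subtype.val_injective
    have h2 : (⇑(basisMonomials (Fin 3) K) ∘ (Subtype.val : expSetG a b c I n → (Fin 3 →₀ ℕ)))
        = fun e : expSetG a b c I n => (monomial e.1 1 : Pol K) := by
      funext e
      simp
    rw [h2] at h
    exact h
  rw [finrank_span_eq_card hli, Set.ncard_eq_toFinset_card']
  simp

/-- Each `J_n` has the same dimension as `I_n`. -/
theorem Cfg.finrank_J_eq {d : Fin 3 → ℕ} {a b c : ℕ} {p : Fin 3 → Pol K} (C : Cfg d a b c)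
    (hp : IsReg3 d p) {I : Ideal (Pol K)} (hI : P200G.Fid p ≤ I) (n : ℕ) :
    finrank K (lexPlusPowersG a b c I n) = finrank K (degPart I n) := by
  rw [finrank_lexPlusPowersG]
  have hs : expSetG a b c I n = {e : Fin 3 →₀ ℕ | e.degree = n ∧ InPG a b c e} ∪
      {e : Fin 3 →₀ ℕ | e.degree = n ∧ ¬ InPG a b c e ∧ lexRankG a b c e < qDimG a b c I n} := by
    ext e
    simp only [expSetG, Set.mem_setOf_eq, Set.mem_union]
    tauto
  have hdis : Disjoint {e : Fin 3 →₀ ℕ | e.degree = n ∧ InPG a b c e}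
      {e : Fin 3 →₀ ℕ | e.degree = n ∧ ¬ InPG a b c e ∧ lexRankG a b c e < qDimG a b c I n} := by
    rw [Set.disjoint_left]
    rintro e ⟨-, h⟩ ⟨-, h', -⟩
    exact h' h
  rw [hs, Set.ncard_union_eq hdis ((finite_degree n).subset fun e he => he.1)
    ((finite_degree n).subset fun e he => he.1), count_rankG a b c n _ (C.qDimG_le hp I n),
    C.qDimG_eq hp, C.ncard_InPG_eq hp]
  have h3 : IsSp (P200G.Fid p) n (Id I n) := ⟨Id_mono hI n, Id_le I n⟩
  have h4 := h3.add
  show _ = finrank K (Id I n)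
  omega

end Vale.Agent.P200H
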