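import Vale.Agent.P200H.GrowthG

/-!
# Spans of monomials; growth with respect to a single form
-/

namespace Vale.Agent.P200H

open MvPolynomial Module Vale.Agent.P200 Vale.Agent.P200G

variable {K : Type*} [Field K]

/-- The span of the monomials with exponent vector in `T`. -/
noncomputable def mono (K : Type*) [Field K] (T : Set (Fin 3 →₀ ℕ)) : Submodule K (Pol K) :=
  Submodule.span K ((fun e => (monomial e 1 : Pol K)) '' T)

theorem monomial_mem_mono {T : Set (Fin 3 →₀ ℕ)} {e : Fin 3 →₀ ℕ} (he : e ∈ T) :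
    (monomial e 1 : Pol K) ∈ mono K T :=
  Submodule.subset_span ⟨e, he, rfl⟩

theorem mono_le {T : Set (Fin 3 →₀ ℕ)} {V : Submodule K (Pol K)}
    (h : ∀ e ∈ T, (monomial e 1 : Pol K) ∈ V) : mono K T ≤ V := by
  refine Submodule.span_le.mpr ?_
  rintro _ ⟨e, he, rfl⟩
  exact h e he

theorem finrank_mono {T : Set (Fin 3 →₀ ℕ)} (hT : T.Finite) : finrank K (mono K T) = T.ncard := by
  classical
  haveI : Fintype T := hT.fintype
  have e1 : mono K T = Submodule.span K (Set.range fun e : T => (monomial e.1 1 : Pol K)) := by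
    unfold mono
    congr 1
    ext p
    constructor
    · rintro ⟨e, he, rfl⟩
      exact ⟨⟨e, he⟩, rfl⟩
    · rintro ⟨⟨e, he⟩, rfl⟩
      exact ⟨e, he, rfl⟩
  rw [e1]
  have hli : LinearIndependent K fun e : T => (monomial e.1 1 : Pol K) := by
    have h := (basisMonomials (Fin 3) K).linearIndependent.comp
      (Subtype.val : T → (Fin 3 →₀ ℕ)) Subtype.val_injective
    have h2 : (⇑(basisMonomials (Fin 3) K) ∘ (Subtype.val : T → (Fin 3 →₀ ℕ)))
        = fun e : T => (monomial e.1 1 : Pol K) := by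
      funext e
      simp
    rw [h2] at h
    exact h
  rw [finrank_span_eq_card hli, Set.ncard_eq_toFinset_card']
  simp

/-- A linear form is a combination of the variables. -/
theorem mem_span_X {l : Pol K} (hl : l.IsHomogeneous 1) :
    l ∈ Submodule.span K (Set.range (X : Fin 3 → Pol K)) := by
  classical
  rw [l.as_sum]
  refine Submodule.sum_mem _ fun e he => ?_
  have hd : e.degree = 1 := by
    by_contra hne
    exact (mem_support_iff.mp he) (hl.coeff_eq_zero hne)
  obtain ⟨i, hi⟩ : ∃ i, e i ≠ 0 := by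
    by_contra hcon
    push_neg at hcon
    have : e = 0 := Finsupp.ext hcon
    rw [this] at hd
    simp at hd
  have h1 : e = Finsupp.single i 1 := by
    have hsum := degree_eq e
    rw [hd] at hsum
    ext j
    fin_cases j <;> fin_cases i <;> simp [Finsupp.single_apply] at hi ⊢ <;> omega
  have h2 : monomial e (coeff e l) = coeff e l • (X i : Pol K) := by
    rw [h1, X, smul_monomial]
    simp
  rw [h2]
  exact Submodule.smul_mem _ _ (Submodule.subset_span ⟨i, rfl⟩)

/-- A property of the products with all the variables passes to all the linear forms. -/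
theorem lin_mul_mem {V : Submodule K (Pol K)} {l q : Pol K} (hl : l.IsHomogeneous 1)
    (h : ∀ i, X i * q ∈ V) : l * q ∈ V := by
  have h1 := mem_span_X hl
  clear hl
  induction h1 using Submodule.span_induction with
  | mem x hx =>
    obtain ⟨i, rfl⟩ := hx
    exact h i
  | zero => simp
  | add x y _ _ hx hy =>
    rw [add_mul]
    exact Submodule.add_mem _ hx hy
  | smul r x _ hx =>
    rw [smul_mul_assoc]
    exact Submodule.smul_mem _ _ hx

/-- The exponents of `P` together with the first `r` exponents outside `P`, in degree `n`. -/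
def LSet (a b c r n : ℕ) : Set (Fin 3 →₀ ℕ) :=
  {e | e.degree = n ∧ (InPG a b c e ∨ lexRankG a b c e < r)}

theorem LSet_finite (a b c r n : ℕ) : (LSet a b c r n).Finite :=
  (finite_degree n).subset fun _ he => he.1

theorem ncard_LSet {a b c r n : ℕ} (hr : r ≤ mm a b c n) :
    (LSet a b c r n).ncard = Set.ncard {e : Fin 3 →₀ ℕ | e.degree = n ∧ InPG a b c e} + r := by
  have hs : LSet a b c r n = {e : Fin 3 →₀ ℕ | e.degree = n ∧ InPG a b c e} ∪
      {e : Fin 3 →₀ ℕ | e.degree = n ∧ ¬ InPG a b c e ∧ lexRankG a b c e < r} := by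
    ext e
    simp only [LSet, Set.mem_setOf_eq, Set.mem_union]
    tauto
  have hdis : Disjoint {e : Fin 3 →₀ ℕ | e.degree = n ∧ InPG a b c e}
      {e : Fin 3 →₀ ℕ | e.degree = n ∧ ¬ InPG a b c e ∧ lexRankG a b c e < r} := by
    rw [Set.disjoint_left]
    rintro e ⟨-, h⟩ ⟨-, h', -⟩
    exact h' h
  rw [hs, Set.ncard_union_eq hdis ((finite_degree n).subset fun e he => he.1)
    ((finite_degree n).subset fun e he => he.1), count_rankG a b c n _ hr]

theorem lexPlusPowersG_eq_mono (a b c : ℕ) (I : Ideal (Pol K)) (n : ℕ) :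
    lexPlusPowersG a b c I n = mono K (LSet a b c (qDimG a b c I n) n) := by
  unfold lexPlusPowersG mono
  congr 1
  ext p
  constructor
  · rintro ⟨e, h1, h2, rfl⟩
    exact ⟨e, ⟨h1, h2⟩, rfl⟩
  · rintro ⟨e, ⟨h1, h2⟩, rfl⟩
    exact ⟨e, h1, h2, rfl⟩

theorem X_mul_monomial (i : Fin 3) (e : Fin 3 →₀ ℕ) :
    (X i * monomial e 1 : Pol K) = monomial (e + Finsupp.single i 1) 1 := by
  rw [X, monomial_mul, one_mul, add_comm]

theorem X_mul_mono {T T' : Set (Fin 3 →₀ ℕ)} (h : ∀ e ∈ T, ∀ m, e + Finsupp.single m 1 ∈ T')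
    (i : Fin 3) {g : Pol K} (hg : g ∈ mono K T) : X i * g ∈ mono K T' := by
  unfold mono at hg
  induction hg using Submodule.span_induction with
  | mem x hx =>
    obtain ⟨e, he, rfl⟩ := hx
    show (X i * monomial e 1 : Pol K) ∈ mono K T'
    rw [X_mul_monomial]
    exact monomial_mem_mono (h e he i)
  | zero => simp
  | add x y _ _ hx hy =>
    rw [mul_add]
    exact Submodule.add_mem _ hx hy
  | smul r x _ hx =>
    rw [mul_smul_comm]
    exact Submodule.smul_mem _ _ hx

theorem up_mono_le {T T' : Set (Fin 3 →₀ ℕ)} (h : ∀ e ∈ T, ∀ m, e + Finsupp.single m 1 ∈ T') :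
    up (mono K T) ≤ mono K T' :=
  Submodule.mul_le.mpr fun _ hl _ hg => lin_mul_mem hl fun i => X_mul_mono h i hg

/-- Degree `k` forms multiples of a form in the base change. -/
theorem Id_single_bc (L : Type*) [Field L] [Algebra K L] {f : Pol K} {A : ℕ} (hf : f.IsHomogeneous A)
    (hf0 : f ≠ 0) (n : ℕ) :
    Id (Ideal.span {bc K L f}) n = bcs L (Id (Ideal.span {f}) n) := by
  have hf' : (bc K L f).IsHomogeneous A := hf.map _
  have hf0' : bc K L f ≠ 0 := by
    intro h
    apply hf0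
    exact (map_injective _ (algebraMap K L).injective) (by simpa [bc] using h)
  symm
  refine Submodule.eq_of_le_of_finrank_le ?_ ?_
  · refine Submodule.span_le.mpr ?_
    rintro _ ⟨q, hq, rfl⟩
    have hq' := mem_Id.mp hq
    refine mem_Id.mpr ⟨?_, hq'.2.map _⟩
    obtain ⟨a, rfl⟩ := Ideal.mem_span_singleton'.mp hq'.1
    rw [map_mul]
    exact Ideal.mul_mem_left _ _ (Ideal.mem_span_singleton_self _)
  · haveI : FiniteDimensional K (Id (Ideal.span {f}) n) := finDim (Id_le _ _)
    rw [finrank_bcs, finrank_singleton hf hf0, finrank_singleton hf' hf0']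

/-- A second form of high degree, regular modulo a given form, and a linear form regular modulo
both. -/
theorem exists_Pr_single [Infinite K] {A n : ℕ} {h₀ : Pol K} (hh : h₀.IsHomogeneous A) (h0 : h₀ ≠ 0)
    (hA : 2 ≤ A) (hAn : A ≤ n + 2) :
    ∃ h₁ l : Pol K, h₁.IsHomogeneous (n + 2) ∧ Pr A (n + 2) h₀ h₁ l := by
  have hone : (1 : Pol K) ∉ Ideal.span {h₀} := by
    intro h
    have := one_not_mem_pair hh hh (by omega) (by omega)
    apply this
    simpa using h
  obtain ⟨l₁, hl₁, hr₁⟩ := exists_linear (depth_single h0) hone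
  have hr := regMod_pow hr₁ (n + 2)
  have hom : (l₁ ^ (n + 2)).IsHomogeneous (n + 2) := by
    have := hl₁.hom.pow (n + 2)
    simpa using this
  have hone2 := one_not_mem_pair hh hom (by omega) (by omega)
  obtain ⟨l, hl, hreg⟩ := exists_linear (depth_pair h0 hr) hone2
  exact ⟨l₁ ^ (n + 2), l, hom, hh, hom, hA, hAn, h0, hr, hl, hreg⟩

theorem Id_pair_low {h₀ h₁ : Pol K} {A n k : ℕ} (hh : h₀.IsHomogeneous A) (h₁h : h₁.IsHomogeneous n)
    (hk : k < n) : Id (Ideal.span {h₀, h₁}) k = Id (Ideal.span {h₀}) k := by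
  have e1 : (Ideal.span {h₀, h₁} : Ideal (Pol K)) = Ideal.span {h₀} ⊔ Ideal.span {h₁} := by
    rw [Ideal.span_insert]
  rw [e1]
  exact Id_sup_low (homIdeal_singleton hh) h₁h hk

/-- Growth modulo a single form, over an infinite field. -/
theorem pair_up_inf [Infinite K] {A n : ℕ} {h₀ : Pol K} (hh : h₀.IsHomogeneous A) (h0 : h₀ ≠ 0)
    (hA : 2 ≤ A) (hAn : A ≤ n + 2) {Y : Submodule K (Pol K)} (hlo : Id (Ideal.span {h₀}) n ≤ Y)
    (hhi : Y ≤ Sd K n) {e : Fin 3 →₀ ℕ} (hde : e.degree = n) (m : Fin 3)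
    (hP : ¬ InPG A (n + 2) (n + 2) (e + Finsupp.single m 1)) (hnP : ¬ InPG A (n + 2) (n + 2) e)
    (hrk : lexRankG A (n + 2) (n + 2) e < finrank K Y - finrank K (Id (Ideal.span {h₀}) n)) :
    lexRankG A (n + 2) (n + 2) (e + Finsupp.single m 1)
      < finrank K ↥(up Y ⊔ Id (Ideal.span {h₀}) (n + 1)) - finrank K (Id (Ideal.span {h₀}) (n + 1)) := by
  obtain ⟨h₁, l, hh₁, P⟩ := exists_Pr_single hh h0 hA hAn
  have e0 := Id_pair_low (k := n) hh hh₁ (by omega)
  have e1 := Id_pair_low (k := n + 1) hh hh₁ (by omega)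
  have hY' : IsSp (Ideal.span {h₀, h₁}) n Y := ⟨e0 ▸ hlo, hhi⟩
  have hstep := rank_step hnP hP hde (c := n + 2) (by omega)
  have hrr := RR_le_rank hnP (by omega)
  rw [hde] at hrr
  have hrk' : rk (Ideal.span {h₀, h₁}) n Y = finrank K Y - finrank K (Id (Ideal.span {h₀}) n) := by
    unfold rk
    rw [e0]
  have hR : RR A (n + 2) n (e 0) < rk (Ideal.span {h₀, h₁}) n Y := by
    rw [hrk']
    exact lt_of_le_of_lt hrr hrk
  obtain ⟨he0, -, -⟩ := (not_InPG_iff e).mp hnP
  have hsum : e 0 + e 1 + e 2 = n := by rw [← degree_eq, hde]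
  have hLG := P.LG n Y hY' (e 0) he0 (by omega) hR
  have hgg : gg A (n + 2) n (e 0) = min A (n + 2) - max (e 0) (n + 2 - (n + 2)) := rfl
  rw [← hgg] at hstep
  have hrU : rk (Ideal.span {h₀, h₁}) (n + 1) (upC (Ideal.span {h₀, h₁}) n Y)
      = finrank K ↥(up Y ⊔ Id (Ideal.span {h₀}) (n + 1)) - finrank K (Id (Ideal.span {h₀}) (n + 1)) := by
    unfold rk upC
    rw [e1]
  rw [hrU, hrk'] at hLG
  omega

/-- Growth modulo a single form. -/
theorem pair_up {A n : ℕ} {h₀ : Pol K} (hh : h₀.IsHomogeneous A) (h0 : h₀ ≠ 0)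
    (hA : 2 ≤ A) (hAn : A ≤ n + 2) {Y : Submodule K (Pol K)} (hlo : Id (Ideal.span {h₀}) n ≤ Y)
    (hhi : Y ≤ Sd K n) {e : Fin 3 →₀ ℕ} (hde : e.degree = n) (m : Fin 3)
    (hP : ¬ InPG A (n + 2) (n + 2) (e + Finsupp.single m 1)) (hnP : ¬ InPG A (n + 2) (n + 2) e)
    (hrk : lexRankG A (n + 2) (n + 2) e < finrank K Y - finrank K (Id (Ideal.span {h₀}) n)) :
    lexRankG A (n + 2) (n + 2) (e + Finsupp.single m 1)
      < finrank K ↥(up Y ⊔ Id (Ideal.span {h₀}) (n + 1)) - finrank K (Id (Ideal.span {h₀}) (n + 1)) := by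
  let L := AlgebraicClosure K
  haveI := finDim hhi
  have hh' : (bc K L h₀).IsHomogeneous A := hh.map _
  have hne : bc K L h₀ ≠ 0 := by
    intro h
    apply h0
    exact (map_injective _ (algebraMap K L).injective) (by simpa [bc] using h)
  have hT : up Y ⊔ Id (Ideal.span {h₀}) (n + 1) ≤ Sd K (n + 1) := sup_le (up_le hhi) (Id_le _ _)
  haveI := finDim hT
  haveI : FiniteDimensional K (Id (Ideal.span {h₀}) n) := finDim (Id_le _ _)
  haveI : FiniteDimensional K (Id (Ideal.span {h₀}) (n + 1)) := finDim (Id_le _ _)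
  have eL : ∀ k, finrank L (Id (Ideal.span {bc K L h₀}) k) = finrank K (Id (Ideal.span {h₀}) k) := by
    intro k
    rw [finrank_singleton hh' hne, finrank_singleton hh h0]
  have main := pair_up_inf (Y := bcs L Y) hh' hne hA hAn
    (by rw [Id_single_bc L hh h0]; exact bcs_mono hlo) (bcs_le_Sd hhi) hde m hP hnP
    (by rw [finrank_bcs, eL]; exact hrk)
  rw [eL] at main
  have hle : up (bcs L Y) ⊔ Id (Ideal.span {bc K L h₀}) (n + 1)
      ≤ bcs L (up Y ⊔ Id (Ideal.span {h₀}) (n + 1)) := by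
    refine sup_le (up_bcs_le.trans (bcs_mono le_sup_left)) ?_
    rw [Id_single_bc L hh h0]
    exact bcs_mono le_sup_right
  haveI : FiniteDimensional L (bcs L (up Y ⊔ Id (Ideal.span {h₀}) (n + 1))) :=
    Submodule.finiteDimensional_of_le (bcs_le_Sd hT)
  have h3 : finrank L ↥(up (bcs L Y) ⊔ Id (Ideal.span {bc K L h₀}) (n + 1))
      ≤ finrank L (bcs L (up Y ⊔ Id (Ideal.span {h₀}) (n + 1))) :=
    Submodule.finrank_mono hle
  rw [finrank_bcs] at h3
  omega

/-- Counting the monomials in `(x₀^A)`. -/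
theorem ncard_InPG_single {A n k : ℕ} {h₀ : Pol K} (hh : h₀.IsHomogeneous A) (h0 : h₀ ≠ 0)
    (hA : 2 ≤ A) (hAn : A ≤ n + 2) (hk : k < n + 2) :
    Set.ncard {e : Fin 3 →₀ ℕ | e.degree = k ∧ InPG A (n + 2) (n + 2) e}
      = finrank K (Id (Ideal.span {h₀}) k) := by
  let L := AlgebraicClosure K
  have hh' : (bc K L h₀).IsHomogeneous A := hh.map _
  have hne : bc K L h₀ ≠ 0 := by
    intro h
    apply h0
    exact (map_injective _ (algebraMap K L).injective) (by simpa [bc] using h)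
  obtain ⟨h₁, l, hh₁, P⟩ := exists_Pr_single (n := n) hh' hne hA hAn
  have hp := finrank_pair hh' hh₁ (by omega) (by omega) hne P.hr k
  rw [Id_pair_low hh' hh₁ hk, finrank_singleton hh' hne, ← finrank_singleton hh h0, finrank_Sd,
    ← mm_low (a := A) (b := n + 2) (c := n + 2) hk] at hp
  have := ncard_InPG_add A (n + 2) (n + 2) k
  omega

end Vale.Agent.P200H
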