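import Vale.Agent.P200H.Crit3

/-!
# Three linear forms spanning the linear forms, and dual elements
-/

namespace Vale.Agent.P200H

open MvPolynomial Module Vale.Agent.P200 Vale.Agent.P200G

variable {K : Type*} [Field K]

/-- Three linear forms spanning the space of linear forms. -/
structure Tr (l s t : Pol K) : Prop where
  hl : l ∈ Sd K 1
  hs : s ∈ Sd K 1
  ht : t ∈ Sd K 1
  span : ∀ m ∈ Sd K 1, ∃ a b c : K, m = C a * l + C b * s + C c * t

theorem finrank_sup_ge {U : Submodule K (Pol K)} {v : Pol K} (hv : v ∉ U)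
    [FiniteDimensional K ↥(U ⊔ Submodule.span K {v})] :
    finrank K U + 1 ≤ finrank K ↥(U ⊔ Submodule.span K {v}) := by
  have h : U < U ⊔ Submodule.span K {v} := lt_of_le_of_ne le_sup_left (fun h =>
    hv (h ▸ Submodule.mem_sup_right (Submodule.mem_span_singleton_self v)))
  exact Submodule.finrank_lt_finrank_of_lt h

theorem exists_Tr {l : Pol K} (hl : Lin l) : ∃ s t, Tr l s t := by
  have h3 : finrank K (Sd K 1) = 3 := by
    rw [finrank_Sd]
    rfl
  have hU1 : finrank K (Submodule.span K {l}) = 1 := finrank_span_singleton hl.ne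
  have hle1 : Submodule.span K {l} ≤ Sd K 1 :=
    (Submodule.span_singleton_le_iff_mem _ _).mpr hl.hom
  obtain ⟨s, hs, hs2⟩ := exists_not_mem (U := Submodule.span K {l}) (V := Sd K 1) (by omega)
  have hle2 : Submodule.span K {l} ⊔ Submodule.span K {s} ≤ Sd K 1 :=
    sup_le hle1 ((Submodule.span_singleton_le_iff_mem _ _).mpr hs)
  haveI := finDim hle2
  have hU2 : finrank K ↥(Submodule.span K {l} ⊔ Submodule.span K {s}) = 2 := by
    have h1 := finrank_sup_ge hs2
    have h2 := Submodule.finrank_add_le_finrank_add_finrank (Submodule.span K {l})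
      (Submodule.span K {s})
    have h3 := finrank_span_le_card (R := K) ({s} : Set (Pol K))
    simp only [Set.toFinset_singleton, Finset.card_singleton] at h3
    omega
  obtain ⟨t, ht, ht2⟩ := exists_not_mem (U := Submodule.span K {l} ⊔ Submodule.span K {s})
    (V := Sd K 1) (by omega)
  have hle3 : Submodule.span K {l} ⊔ Submodule.span K {s} ⊔ Submodule.span K {t} ≤ Sd K 1 :=
    sup_le hle2 ((Submodule.span_singleton_le_iff_mem _ _).mpr ht)
  haveI := finDim hle3
  have hU3 := finrank_sup_ge ht2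
  have heq := Submodule.eq_of_le_of_finrank_le hle3 (by omega)
  refine ⟨s, t, hl.hom, hs, ht, fun m hm => ?_⟩
  rw [← heq] at hm
  obtain ⟨x, hx, z, hz, rfl⟩ := Submodule.mem_sup.mp hm
  obtain ⟨x', hx', y, hy, rfl⟩ := Submodule.mem_sup.mp hx
  obtain ⟨a, rfl⟩ := Submodule.mem_span_singleton.mp hx'
  obtain ⟨b, rfl⟩ := Submodule.mem_span_singleton.mp hy
  obtain ⟨c, rfl⟩ := Submodule.mem_span_singleton.mp hz
  exact ⟨a, b, c, by simp only [smul_eq_C_mul]⟩

namespace Tr

variable {l s t : Pol K}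

theorem up_le (tr : Tr l s t) {Y Z : Submodule K (Pol K)}
    (h : ∀ y ∈ Y, l * y ∈ Z ∧ s * y ∈ Z ∧ t * y ∈ Z) : up Y ≤ Z := by
  refine Submodule.mul_le.mpr fun m hm y hy => ?_
  obtain ⟨a, b, c, rfl⟩ := tr.span m hm
  obtain ⟨h1, h2, h3⟩ := h y hy
  have e : (C a * l + C b * s + C c * t) * y = a • (l * y) + b • (s * y) + c • (t * y) := by
    simp only [smul_eq_C_mul]
    ring
  rw [e]
  exact Z.add_mem (Z.add_mem (Z.smul_mem _ h1) (Z.smul_mem _ h2)) (Z.smul_mem _ h3)

theorem sup_eq (tr : Tr l s t) :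
    Sd K 2 ≤ (Sd K 1).map (mulBy l) ⊔ Submodule.span K (Set.range ![s * s, s * t, t * t]) := by
  have h1 : Sd K 2 = up (Sd K 1) := (up_top_eq 1).symm
  rw [h1]
  have hmem : ∀ i : Fin 3, (![s * s, s * t, t * t] : Fin 3 → Pol K) i ∈
      (Sd K 1).map (mulBy l) ⊔ Submodule.span K (Set.range ![s * s, s * t, t * t]) :=
    fun i => Submodule.mem_sup_right (Submodule.subset_span ⟨i, rfl⟩)
  have h0 := hmem 0
  have h1' := hmem 1
  have h2 := hmem 2
  simp only [Matrix.cons_val_zero, Matrix.cons_val_one, Matrix.cons_val] at h0 h1' h2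
  refine tr.up_le fun y hy => ⟨Submodule.mem_sup_left (mem_map_mulBy.mpr ⟨y, hy, rfl⟩), ?_, ?_⟩
  · obtain ⟨a, b, c, rfl⟩ := tr.span y hy
    have e : s * (C a * l + C b * s + C c * t)
        = l * (C a * s) + (b • (s * s) + c • (s * t)) := by
      simp only [smul_eq_C_mul]
      ring
    rw [e]
    refine Submodule.add_mem _ (Submodule.mem_sup_left (mem_map_mulBy.mpr ⟨_, ?_, rfl⟩))
      (Submodule.add_mem _ (Submodule.smul_mem _ _ h0) (Submodule.smul_mem _ _ h1'))
    rw [← smul_eq_C_mul]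
    exact Submodule.smul_mem _ _ tr.hs
  · obtain ⟨a, b, c, rfl⟩ := tr.span y hy
    have e : t * (C a * l + C b * s + C c * t)
        = l * (C a * t) + (b • (s * t) + c • (t * t)) := by
      simp only [smul_eq_C_mul]
      ring
    rw [e]
    refine Submodule.add_mem _ (Submodule.mem_sup_left (mem_map_mulBy.mpr ⟨_, ?_, rfl⟩))
      (Submodule.add_mem _ (Submodule.smul_mem _ _ h1') (Submodule.smul_mem _ _ h2))
    rw [← smul_eq_C_mul]
    exact Submodule.smul_mem _ _ tr.ht

/-- The squares of the two other forms are independent modulo the multiples of `l`. -/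
theorem indep (tr : Tr l s t) (hl0 : l ≠ 0) {a b c : K} {m : Pol K} (hm : m ∈ Sd K 1)
    (h : C a * (s * s) + C b * (s * t) + C c * (t * t) = l * m) : a = 0 ∧ b = 0 ∧ c = 0 := by
  have hWle : Submodule.span K (Set.range ![s * s, s * t, t * t]) ≤ Sd K 2 := by
    refine Submodule.span_le.mpr ?_
    rintro _ ⟨i, rfl⟩
    have hs' : s.IsHomogeneous 1 := tr.hs
    have ht' : t.IsHomogeneous 1 := tr.ht
    fin_cases i
    · exact hs'.mul hs'
    · exact hs'.mul ht'
    · exact ht'.mul ht'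
  haveI := finDim hWle
  have hAle : (Sd K 1).map (mulBy l) ≤ Sd K 2 :=
    map_le_Sd (show l.IsHomogeneous 1 from tr.hl) (by omega) le_rfl
  haveI := finDim hAle
  have hSup : (Sd K 1).map (mulBy l) ⊔ Submodule.span K (Set.range ![s * s, s * t, t * t])
      = Sd K 2 := le_antisymm (sup_le hAle hWle) tr.sup_eq
  have h1 := Submodule.finrank_sup_add_finrank_inf_eq ((Sd K 1).map (mulBy l))
    (Submodule.span K (Set.range ![s * s, s * t, t * t]))
  rw [hSup, finrank_map_mulBy hl0, finrank_Sd, finrank_Sd] at h1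
  have h2 := finrank_range_le_card (R := K) (![s * s, s * t, t * t] : Fin 3 → Pol K)
  have h3 : (Set.range ![s * s, s * t, t * t]).finrank K
      = finrank K (Submodule.span K (Set.range ![s * s, s * t, t * t])) := rfl
  rw [h3, Fintype.card_fin] at h2
  have h4 : (2 + 2).choose 2 = 6 := rfl
  have h5 : (1 + 2).choose 2 = 3 := rfl
  rw [h4, h5] at h1
  have h6 : finrank K ↥((Sd K 1).map (mulBy l)
      ⊓ Submodule.span K (Set.range ![s * s, s * t, t * t])) = 0 := by omega
  have h7 : Fintype.card (Fin 3) = (Set.range ![s * s, s * t, t * t]).finrank K := by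
    rw [h3, Fintype.card_fin]
    omega
  have hli := linearIndependent_iff_card_eq_finrank_span.mpr h7
  have hq : C a * (s * s) + C b * (s * t) + C c * (t * t) ∈ (Sd K 1).map (mulBy l)
      ⊓ Submodule.span K (Set.range ![s * s, s * t, t * t]) := by
    refine ⟨?_, ?_⟩
    · rw [h]
      exact mem_map_mulBy.mpr ⟨m, hm, rfl⟩
    · simp only [← smul_eq_C_mul]
      refine Submodule.add_mem _ (Submodule.add_mem _ ?_ ?_) ?_
      · exact Submodule.smul_mem _ _ (Submodule.subset_span ⟨0, rfl⟩)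
      · exact Submodule.smul_mem _ _ (Submodule.subset_span ⟨1, rfl⟩)
      · exact Submodule.smul_mem _ _ (Submodule.subset_span ⟨2, rfl⟩)
  have hbot := Submodule.finrank_eq_zero.mp h6
  rw [hbot, Submodule.mem_bot] at hq
  have key := Fintype.linearIndependent_iff.mp hli ![a, b, c] (by
    rw [Fin.sum_univ_three]
    simp only [Matrix.cons_val_zero, Matrix.cons_val_one, Matrix.cons_val, smul_eq_C_mul]
    exact hq)
  exact ⟨key 0, key 1, key 2⟩

end Tr

/-- Three independent functionals have a dual triple of vectors. -/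
theorem exists_dual3 {V : Type*} [AddCommGroup V] [Module K V] (f₁ f₂ f₃ : V →ₗ[K] K)
    (h : ∀ a b c : K, (∀ v, a * f₁ v + b * f₂ v + c * f₃ v = 0) → a = 0 ∧ b = 0 ∧ c = 0) :
    ∃ v₁ v₂ v₃ : V, (f₁ v₁ = 1 ∧ f₂ v₁ = 0 ∧ f₃ v₁ = 0) ∧ (f₁ v₂ = 0 ∧ f₂ v₂ = 1 ∧ f₃ v₂ = 0) ∧
      (f₁ v₃ = 0 ∧ f₂ v₃ = 0 ∧ f₃ v₃ = 1) := by
  let φ : V →ₗ[K] (Fin 3 → K) := LinearMap.pi ![f₁, f₂, f₃]
  have hφ : ∀ v, φ v = ![f₁ v, f₂ v, f₃ v] := by
    intro v
    funext i
    fin_cases i <;> rfl
  have hsurj : LinearMap.range φ = ⊤ := by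
    by_contra hne
    obtain ⟨f, hf, hker⟩ := Submodule.exists_le_ker_of_lt_top _ (lt_top_iff_ne_top.mpr hne)
    have hx : ∀ x : Fin 3 → K, f x = x 0 * f ![1, 0, 0] + x 1 * f ![0, 1, 0] + x 2 * f ![0, 0, 1] := by
      intro x
      have e : x = x 0 • ![1, 0, 0] + x 1 • ![0, 1, 0] + x 2 • ![0, 0, 1] := by
        funext i
        fin_cases i <;> simp
      conv_lhs => rw [e]
      simp only [map_add, map_smul, smul_eq_mul]
    obtain ⟨h1, h2, h3⟩ := h (f ![1, 0, 0]) (f ![0, 1, 0]) (f ![0, 0, 1]) (by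
      intro v
      have h4 : f (φ v) = 0 := hker ⟨v, rfl⟩
      rw [hx, hφ] at h4
      simp only [Matrix.cons_val_zero, Matrix.cons_val_one, Matrix.cons_val] at h4
      linear_combination h4)
    apply hf
    refine LinearMap.ext fun x => ?_
    rw [hx, h1, h2, h3]
    simp
  have hmem : ∀ y : Fin 3 → K, ∃ v, φ v = y := fun y => by
    have : y ∈ LinearMap.range φ := by
      rw [hsurj]
      trivial
    exact this
  obtain ⟨v₁, h₁⟩ := hmem ![1, 0, 0]
  obtain ⟨v₂, h₂⟩ := hmem ![0, 1, 0]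
  obtain ⟨v₃, h₃⟩ := hmem ![0, 0, 1]
  rw [hφ] at h₁ h₂ h₃
  refine ⟨v₁, v₂, v₃, ⟨congrFun h₁ 0, congrFun h₁ 1, congrFun h₁ 2⟩,
    ⟨congrFun h₂ 0, congrFun h₂ 1, congrFun h₂ 2⟩, ⟨congrFun h₃ 0, congrFun h₃ 1, congrFun h₃ 2⟩⟩

end Vale.Agent.P200H
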