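import Vale.Agent.P200H.Persist1

/-!
# The iterated growth of a space, under relations modulo a linear form
-/

namespace Vale.Agent.P200H

open MvPolynomial Module Vale.Agent.P200 Vale.Agent.P200G

variable {K : Type*} [Field K]

/-- The iterated growth of a subspace modulo an ideal. -/
noncomputable def Uk (𝔠 : Ideal (Pol K)) (j : ℕ) (V : Submodule K (Pol K)) :
    ℕ → Submodule K (Pol K)
  | 0 => V
  | k + 1 => upC 𝔠 (j + k) (Uk 𝔠 j V k)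

theorem Uk_isSp {𝔠 : Ideal (Pol K)} {j : ℕ} {V : Submodule K (Pol K)} (hV : IsSp 𝔠 j V) :
    ∀ k, IsSp 𝔠 (j + k) (Uk 𝔠 j V k)
  | 0 => hV
  | k + 1 => (Uk_isSp hV k).upC

theorem mem_Uk_succ {𝔠 : Ideal (Pol K)} {j : ℕ} {V : Submodule K (Pol K)} {k : ℕ} {m y : Pol K}
    (hm : m ∈ Sd K 1) (hy : y ∈ Uk 𝔠 j V k) : m * y ∈ Uk 𝔠 j V (k + 1) :=
  Submodule.mem_sup_left (mul_mem_up hm hy)

theorem mul_Id {𝔠 : Ideal (Pol K)} {n : ℕ} {m e : Pol K} (hm : m ∈ Sd K 1) (he : e ∈ Id 𝔠 n) :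
    m * e ∈ Id 𝔠 (n + 1) :=
  up_Id_le 𝔠 n (mul_mem_up hm he)

theorem C_mul_mem {U : Submodule K (Pol K)} (r : K) {x : Pol K} (hx : x ∈ U) : C r * x ∈ U := by
  rw [← smul_eq_C_mul]
  exact Submodule.smul_mem _ _ hx

/-- The relations between the products of the dual elements with the linear forms. -/
structure RD (𝔠 : Ideal (Pol K)) (j : ℕ) (V : Submodule K (Pol K))
    (l s t v₁ v₂ v₃ a b c d e₁ e₂ e₃ e₄ : Pol K) : Prop where
  tr : Tr l s t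
  hV : IsSp 𝔠 j V
  ha : a ∈ V
  hb : b ∈ V
  hc : c ∈ V
  hd : d ∈ V
  hv₁ : v₁ ∈ V
  he₁ : e₁ ∈ Id 𝔠 (j + 1)
  he₂ : e₂ ∈ Id 𝔠 (j + 1)
  he₃ : e₃ ∈ Id 𝔠 (j + 1)
  he₄ : e₄ ∈ Id 𝔠 (j + 1)
  R1 : t * v₁ = l * b + e₁
  R2 : s * v₃ = l * a + e₂
  R3 : s * v₂ - t * v₃ = l * c + e₃
  R4 : t * v₂ - s * v₁ = l * d + e₄
  I1 : ∀ x ∈ Uk 𝔠 j V 1, ∃ a' ∈ V, ∃ r₁ r₂ : K, ∃ e ∈ Id 𝔠 (j + 1),
    x = l * a' + C r₁ * (s * v₁) + C r₂ * (t * v₃) + e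

namespace RD

variable {𝔠 : Ideal (Pol K)} {j : ℕ} {V : Submodule K (Pol K)}
  {l s t v₁ v₂ v₃ a b c d e₁ e₂ e₃ e₄ : Pol K}

/-- The second growth. -/
theorem up2 (h : RD 𝔠 j V l s t v₁ v₂ v₃ a b c d e₁ e₂ e₃ e₄) :
    Uk 𝔠 j V 2 ≤ (Uk 𝔠 j V 1).map (mulBy l) ⊔ Submodule.span K {s * s * v₁} ⊔ Id 𝔠 (j + 2) := by
  have ht := h.tr.ht
  have hs := h.tr.hs
  have hmem : ∀ a₁ ∈ Uk 𝔠 j V 1, ∀ r : K, ∀ e ∈ Id 𝔠 (j + 2), l * a₁ + C r * (s * s * v₁) + e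
      ∈ (Uk 𝔠 j V 1).map (mulBy l) ⊔ Submodule.span K {s * s * v₁} ⊔ Id 𝔠 (j + 2) := by
    intro a₁ ha₁ r e he
    refine Submodule.add_mem _ (Submodule.mem_sup_left (Submodule.add_mem _ ?_ ?_))
      (Submodule.mem_sup_right he)
    · exact Submodule.mem_sup_left (mem_map_mulBy.mpr ⟨a₁, ha₁, rfl⟩)
    · exact Submodule.mem_sup_right (C_mul_mem r (Submodule.mem_span_singleton_self _))
  refine sup_le (h.tr.up_le fun y hy => ⟨?_, ?_, ?_⟩) ?_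
  · exact Submodule.mem_sup_left (Submodule.mem_sup_left (mem_map_mulBy.mpr ⟨y, hy, rfl⟩))
  · obtain ⟨a', ha', r₁, r₂, e, he, hy'⟩ := h.I1 y hy
    have e1 : s * y = l * (s * a' + C r₂ * (t * a)) + C r₁ * (s * s * v₁)
        + (s * e + C r₂ * (t * e₂)) := by
      linear_combination s * hy' + (C r₂ * t) * h.R2
    rw [e1]
    refine hmem _ (Submodule.add_mem _ (mem_Uk_succ hs ha') (C_mul_mem _ (mem_Uk_succ ht h.ha)))
      _ _ (Submodule.add_mem _ (mul_Id hs he) (C_mul_mem _ (mul_Id ht h.he₂)))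
  · obtain ⟨a', ha', r₁, r₂, e, he, hy'⟩ := h.I1 y hy
    have e1 : t * y = l * (t * a' + C r₁ * (s * b) + C r₂ * (s * d - t * c)) + C r₂ * (s * s * v₁)
        + (t * e + C r₁ * (s * e₁) + C r₂ * (s * e₄ - t * e₃)) := by
      linear_combination t * hy' + (C r₁ * s) * h.R1 - (C r₂ * t) * h.R3 + (C r₂ * s) * h.R4
    rw [e1]
    refine hmem _ (Submodule.add_mem _ (Submodule.add_mem _ (mem_Uk_succ ht ha')
      (C_mul_mem _ (mem_Uk_succ hs h.hb))) (C_mul_mem _ (Submodule.sub_mem _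
        (mem_Uk_succ hs h.hd) (mem_Uk_succ ht h.hc)))) _ _
      (Submodule.add_mem _ (Submodule.add_mem _ (mul_Id ht he) (C_mul_mem _ (mul_Id hs h.he₁)))
        (C_mul_mem _ (Submodule.sub_mem _ (mul_Id hs h.he₄) (mul_Id ht h.he₃))))
  · exact le_sup_of_le_right le_rfl

/-- The third growth. -/
theorem up3 (h : RD 𝔠 j V l s t v₁ v₂ v₃ a b c d e₁ e₂ e₃ e₄) :
    Uk 𝔠 j V 3 ≤ (Uk 𝔠 j V 2).map (mulBy l) ⊔ Id 𝔠 (j + 3) := by
  have ht := h.tr.ht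
  have hs := h.tr.hs
  have hmem : ∀ a₁ ∈ Uk 𝔠 j V 2, ∀ e ∈ Id 𝔠 (j + 3), l * a₁ + e
      ∈ (Uk 𝔠 j V 2).map (mulBy l) ⊔ Id 𝔠 (j + 3) := by
    intro a₁ ha₁ e he
    exact Submodule.add_mem _ (Submodule.mem_sup_left (mem_map_mulBy.mpr ⟨a₁, ha₁, rfl⟩))
      (Submodule.mem_sup_right he)
  have h2 : ∀ {m n : Pol K} {x : Pol K}, m ∈ Sd K 1 → n ∈ Sd K 1 → x ∈ V →
      m * (n * x) ∈ Uk 𝔠 j V 2 := fun hm hn hx =>
    mem_Uk_succ (k := 1) hm (mem_Uk_succ (k := 0) hn hx)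
  have h2e : ∀ {m n : Pol K} {x : Pol K}, m ∈ Sd K 1 → n ∈ Sd K 1 → x ∈ Id 𝔠 (j + 1) →
      m * (n * x) ∈ Id 𝔠 (j + 3) := fun hm hn hx => mul_Id hm (mul_Id hn hx)
  refine sup_le (h.tr.up_le fun y hy => ⟨?_, ?_, ?_⟩) ?_
  · exact Submodule.mem_sup_left (mem_map_mulBy.mpr ⟨y, hy, rfl⟩)
  · obtain ⟨x, hx, e, he, hy'⟩ := Submodule.mem_sup.mp (h.up2 hy)
    obtain ⟨x', hx', z, hz, hx''⟩ := Submodule.mem_sup.mp hx
    obtain ⟨a₁, ha₁, hx3⟩ := mem_map_mulBy.mp hx'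
    obtain ⟨r, hr⟩ := Submodule.mem_span_singleton.mp hz
    rw [smul_eq_C_mul] at hr
    have hy3 : y = l * a₁ + C r * (s * s * v₁) + e := by
      rw [← hy', ← hx'', ← hx3, ← hr]
    have e1 : s * y = l * (s * a₁ + C r * (t * (t * a) + s * (t * c) - s * (s * d)))
        + (s * e + C r * (t * (t * e₂) + s * (t * e₃) - s * (s * e₄))) := by
      linear_combination s * hy3 + (C r * t * t) * h.R2 + (C r * s * t) * h.R3 - (C r * s * s) * h.R4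
    rw [e1]
    exact hmem _ (Submodule.add_mem _ (mem_Uk_succ hs ha₁) (C_mul_mem _ (Submodule.sub_mem _
      (Submodule.add_mem _ (h2 ht ht h.ha) (h2 hs ht h.hc)) (h2 hs hs h.hd)))) _
      (Submodule.add_mem _ (mul_Id hs he) (C_mul_mem _ (Submodule.sub_mem _
      (Submodule.add_mem _ (h2e ht ht h.he₂) (h2e hs ht h.he₃)) (h2e hs hs h.he₄))))
  · obtain ⟨x, hx, e, he, hy'⟩ := Submodule.mem_sup.mp (h.up2 hy)
    obtain ⟨x', hx', z, hz, hx''⟩ := Submodule.mem_sup.mp hx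
    obtain ⟨a₁, ha₁, hx3⟩ := mem_map_mulBy.mp hx'
    obtain ⟨r, hr⟩ := Submodule.mem_span_singleton.mp hz
    rw [smul_eq_C_mul] at hr
    have hy3 : y = l * a₁ + C r * (s * s * v₁) + e := by
      rw [← hy', ← hx'', ← hx3, ← hr]
    have e1 : t * y = l * (t * a₁ + C r * (s * (s * b))) + (t * e + C r * (s * (s * e₁))) := by
      linear_combination t * hy3 + (C r * s * s) * h.R1
    rw [e1]
    exact hmem _ (Submodule.add_mem _ (mem_Uk_succ ht ha₁) (C_mul_mem _ (h2 hs hs h.hb))) _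
      (Submodule.add_mem _ (mul_Id ht he) (C_mul_mem _ (h2e hs hs h.he₁)))
  · exact le_sup_of_le_right le_rfl

/-- All later growths are multiples of the linear form. -/
theorem upk (h : RD 𝔠 j V l s t v₁ v₂ v₃ a b c d e₁ e₂ e₃ e₄) : ∀ k,
    Uk 𝔠 j V (k + 3) ≤ (Uk 𝔠 j V (k + 2)).map (mulBy l) ⊔ Id 𝔠 (j + (k + 3)) := by
  intro k
  induction k with
  | zero => exact h.up3
  | succ k ih =>
    refine sup_le (Submodule.mul_le.mpr fun m hm y hy => ?_) le_sup_right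
    obtain ⟨x, hx, e, he, rfl⟩ := Submodule.mem_sup.mp (ih hy)
    obtain ⟨a₁, ha₁, rfl⟩ := mem_map_mulBy.mp hx
    have e1 : m * (l * a₁ + e) = l * (m * a₁) + m * e := by ring
    rw [e1]
    refine Submodule.add_mem _ (Submodule.mem_sup_left (mem_map_mulBy.mpr ⟨_, ?_, rfl⟩))
      (Submodule.mem_sup_right (mul_Id hm he))
    exact mem_Uk_succ hm ha₁

end RD

namespace Pr

variable {α β : ℕ} {p₀ p₁ l : Pol K} (P : Pr α β p₀ p₁ l)

include P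

/-- The relative dimensions of the iterated growth stop growing. -/
theorem rk_Uk {j : ℕ} {V : Submodule K (Pol K)} {s t v₁ v₂ v₃ a b c d e₁ e₂ e₃ e₄ : Pol K}
    (h : RD (Ideal.span {p₀, p₁}) j V l s t v₁ v₂ v₃ a b c d e₁ e₂ e₃ e₄) (k : ℕ) :
    rk (Ideal.span {p₀, p₁}) (j + (k + 2)) (Uk (Ideal.span {p₀, p₁}) j V (k + 2)) ≤ rk (Ideal.span {p₀, p₁}) (j + 1) (Uk (Ideal.span {p₀, p₁}) j V 1) + 1 := by
  induction k with
  | zero =>
    have hU1 : IsSp (Ideal.span {p₀, p₁}) (j + 1) (Uk (Ideal.span {p₀, p₁}) j V 1) := Uk_isSp h.hV 1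
    have hU2 : IsSp (Ideal.span {p₀, p₁}) (j + 2) (Uk (Ideal.span {p₀, p₁}) j V 2) := Uk_isSp h.hV 2
    obtain ⟨hS, hrS⟩ : IsSp (Ideal.span {p₀, p₁}) (j + 2) ((Uk (Ideal.span {p₀, p₁}) j V 1).map (mulBy l) ⊔ Id (Ideal.span {p₀, p₁}) (j + 2)) ∧
        rk (Ideal.span {p₀, p₁}) (j + 2) ((Uk (Ideal.span {p₀, p₁}) j V 1).map (mulBy l) ⊔ Id (Ideal.span {p₀, p₁}) (j + 2))
          = rk (Ideal.span {p₀, p₁}) (j + 1) (Uk (Ideal.span {p₀, p₁}) j V 1) := P.rk_mapl hU1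
    have hle := h.up2
    haveI := hS.fin
    have hv : s * s * v₁ ∈ Sd K (j + 2) := by
      have h1 := h.hV.hi h.hv₁
      have h2 : (s * s * v₁).IsHomogeneous (1 + 1 + j) :=
        ((show s.IsHomogeneous 1 from h.tr.hs).mul (show s.IsHomogeneous 1 from h.tr.hs)).mul h1
      rw [show 1 + 1 + j = j + 2 by omega] at h2
      exact h2
    have hBig : (Uk (Ideal.span {p₀, p₁}) j V 1).map (mulBy l) ⊔ Submodule.span K {s * s * v₁} ⊔ Id (Ideal.span {p₀, p₁}) (j + 2)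
        = ((Uk (Ideal.span {p₀, p₁}) j V 1).map (mulBy l) ⊔ Id (Ideal.span {p₀, p₁}) (j + 2)) ⊔ Submodule.span K {s * s * v₁} := by
      rw [sup_assoc, sup_assoc, sup_comm (Submodule.span K {s * s * v₁})]
    rw [hBig] at hle
    have hSB : IsSp (Ideal.span {p₀, p₁}) (j + 2) (((Uk (Ideal.span {p₀, p₁}) j V 1).map (mulBy l) ⊔ Id (Ideal.span {p₀, p₁}) (j + 2))
        ⊔ Submodule.span K {s * s * v₁}) :=
      ⟨le_trans le_sup_right le_sup_left, sup_le hS.hi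
        ((Submodule.span_singleton_le_iff_mem _ _).mpr hv)⟩
    have h1 := hU2.rk_mono hSB hle
    have h2 := Submodule.finrank_add_le_finrank_add_finrank
      ((Uk (Ideal.span {p₀, p₁}) j V 1).map (mulBy l) ⊔ Id (Ideal.span {p₀, p₁}) (j + 2)) (Submodule.span K {s * s * v₁})
    have h3 := finrank_span_le_card (R := K) ({s * s * v₁} : Set (Pol K))
    simp only [Set.toFinset_singleton, Finset.card_singleton] at h3
    have a1 := hSB.add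
    have a2 := hS.add
    have e0 : rk (Ideal.span {p₀, p₁}) (j + (0 + 2)) (Uk (Ideal.span {p₀, p₁}) j V (0 + 2)) = rk (Ideal.span {p₀, p₁}) (j + 2) (Uk (Ideal.span {p₀, p₁}) j V 2) := rfl
    rw [e0]
    omega
  | succ k ih =>
    have hU1 : IsSp (Ideal.span {p₀, p₁}) (j + (k + 2)) (Uk (Ideal.span {p₀, p₁}) j V (k + 2)) := Uk_isSp h.hV (k + 2)
    have hU2 : IsSp (Ideal.span {p₀, p₁}) (j + (k + 3)) (Uk (Ideal.span {p₀, p₁}) j V (k + 3)) := Uk_isSp h.hV (k + 3)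
    obtain ⟨hS, hrS⟩ : IsSp (Ideal.span {p₀, p₁}) (j + (k + 3)) ((Uk (Ideal.span {p₀, p₁}) j V (k + 2)).map (mulBy l) ⊔ Id (Ideal.span {p₀, p₁}) (j + (k + 3))) ∧
        rk (Ideal.span {p₀, p₁}) (j + (k + 3)) ((Uk (Ideal.span {p₀, p₁}) j V (k + 2)).map (mulBy l) ⊔ Id (Ideal.span {p₀, p₁}) (j + (k + 3)))
          = rk (Ideal.span {p₀, p₁}) (j + (k + 2)) (Uk (Ideal.span {p₀, p₁}) j V (k + 2)) := P.rk_mapl hU1
    have hle := h.upk k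
    have h1 := hU2.rk_mono hS hle
    have e0 : rk (Ideal.span {p₀, p₁}) (j + (k + 1 + 2)) (Uk (Ideal.span {p₀, p₁}) j V (k + 1 + 2)) = rk (Ideal.span {p₀, p₁}) (j + (k + 3)) (Uk (Ideal.span {p₀, p₁}) j V (k + 3)) := rfl
    rw [e0]
    omega

end Pr

end Vale.Agent.P200H
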