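import Vale.Agent.P200H.Persist2

/-!
# The persistence theorem: the critical degree
-/

namespace Vale.Agent.P200H

open MvPolynomial Module Vale.Agent.P200 Vale.Agent.P200G

variable {K : Type*} [Field K]

namespace Pr

variable {α β : ℕ} {p₀ p₁ l : Pol K} (P : Pr α β p₀ p₁ l)

include P

/-- The relations in the critical degree, from the Gorenstein duality of the reduction. -/
theorem exists_RD (h3 : 3 ≤ α) {j : ℕ} (hj : j + 4 = α + β) {V : Submodule K (Pol K)}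
    (hV : IsSp (Ideal.span {p₀, p₁}) j V) (hW : V ⊔ Id (Ideal.span {p₀, p₁} ⊔ Ideal.span {l}) j = Sd K j) (hDV : V = colon l (upC (Ideal.span {p₀, p₁}) j V))
    {s t : Pol K} (tr : Tr l s t) :
    ∃ v₁ v₂ v₃ a b c d e₁ e₂ e₃ e₄, RD (Ideal.span {p₀, p₁}) j V l s t v₁ v₂ v₃ a b c d e₁ e₂ e₃ e₄ := by
  have hq := P.hT3
  have hs3 : (j + 2) + 3 = (![α, β, 1] : Fin 3 → ℕ) 0 + (![α, β, 1] : Fin 3 → ℕ) 1
      + (![α, β, 1] : Fin 3 → ℕ) 2 := by
    simp only [Matrix.cons_val_zero, Matrix.cons_val_one, Matrix.cons_val]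
    omega
  obtain ⟨τ, hτ⟩ := hq.exists_tau (K := K) hs3
  have hnd := hq.nondeg hs3 hτ
  rw [P.fid3] at hτ hnd
  have hlD : l ∈ (Ideal.span {p₀, p₁} ⊔ Ideal.span {l}) := Ideal.mem_sup_right (Ideal.mem_span_singleton_self l)
  have hU : IsSp (Ideal.span {p₀, p₁}) (j + 1) (upC (Ideal.span {p₀, p₁}) j V) := hV.upC
  have hm : ∀ {m x : Pol K}, m ∈ Sd K 1 → x ∈ V → m * x ∈ upC (Ideal.span {p₀, p₁}) j V :=
    fun hm hx => Submodule.mem_sup_left (mul_mem_up hm hx)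
  have hsS := tr.hs
  have htS := tr.ht
  -- vanishing of the functional on the multiples of `l`
  have h0 : ∀ x, x.IsHomogeneous (j + 1) → τ (l * x) = 0 := by
    intro x hx
    refine (hτ _ ?_).mpr (Ideal.mul_mem_right _ _ hlD)
    have := P.hl.hom.mul hx
    rwa [show 1 + (j + 1) = j + 2 by omega] at this
  have hkill : ∀ x ∈ upC (Ideal.span {p₀, p₁}) j V, τ (s * x) = 0 → τ (t * x) = 0 → x ∈ (Ideal.span {p₀, p₁} ⊔ Ideal.span {l}) := by
    intro x hx h1 h2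
    refine hnd 1 (j + 1) (by omega) x (hU.hi hx) fun b hb => ?_
    obtain ⟨a₁, a₂, a₃, rfl⟩ := tr.span b hb
    have e : (C a₁ * l + C a₂ * s + C a₃ * t) * x = a₁ • (l * x) + a₂ • (s * x) + a₃ • (t * x) := by
      simp only [smul_eq_C_mul]
      ring
    rw [e, map_add, map_add, map_smul, map_smul, map_smul, h0 x (hU.hi hx), h1, h2]
    simp
  have hpair : ∀ q₀ : Pol K, q₀.IsHomogeneous 2 → (∀ v ∈ V, τ (q₀ * v) = 0) → q₀ ∈ (Ideal.span {p₀, p₁} ⊔ Ideal.span {l}) := by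
    intro q₀ hq₀ h
    refine hnd j 2 (by omega) q₀ hq₀ fun b hb => ?_
    have hb' : b ∈ V ⊔ Id (Ideal.span {p₀, p₁} ⊔ Ideal.span {l}) j := by
      rw [hW]
      exact hb
    obtain ⟨v, hv, e, he, rfl⟩ := Submodule.mem_sup.mp hb'
    rw [add_mul, map_add, mul_comm v, h v hv, zero_add]
    refine (hτ _ ?_).mpr (Ideal.mul_mem_right _ _ (mem_Id.mp he).1)
    have := (mem_Id.mp he).2.mul hq₀
    exact this
  -- the dual elements
  obtain ⟨⟨v₁, hv₁⟩, ⟨v₂, hv₂⟩, ⟨v₃, hv₃⟩, ⟨a11, a12, a13⟩, ⟨a21, a22, a23⟩, ⟨a31, a32, a33⟩⟩ :=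
    exists_dual3 ((τ ∘ₗ mulBy (s * s)) ∘ₗ V.subtype) ((τ ∘ₗ mulBy (s * t)) ∘ₗ V.subtype)
      ((τ ∘ₗ mulBy (t * t)) ∘ₗ V.subtype) (by
    intro a b c h
    have hqh : (C a * (s * s) + C b * (s * t) + C c * (t * t)).IsHomogeneous 2 := by
      have hss : (s * s).IsHomogeneous 2 :=
        (show s.IsHomogeneous 1 from hsS).mul (show s.IsHomogeneous 1 from hsS)
      have hst : (s * t).IsHomogeneous 2 :=
        (show s.IsHomogeneous 1 from hsS).mul (show t.IsHomogeneous 1 from htS)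
      have htt : (t * t).IsHomogeneous 2 :=
        (show t.IsHomogeneous 1 from htS).mul (show t.IsHomogeneous 1 from htS)
      exact C_mul_mem (U := Sd K 2) a hss |> fun h1 => (Submodule.add_mem (Sd K 2)
        (Submodule.add_mem (Sd K 2) h1 (C_mul_mem b hst)) (C_mul_mem c htt))
    have hqD := hpair _ hqh (by
      intro v hv
      have e : (C a * (s * s) + C b * (s * t) + C c * (t * t)) * v
          = a • (s * s * v) + b • (s * t * v) + c • (t * t * v) := by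
        simp only [smul_eq_C_mul]
        ring
      rw [e, map_add, map_add, map_smul, map_smul, map_smul]
      exact h ⟨v, hv⟩)
    have h4 : C a * (s * s) + C b * (s * t) + C c * (t * t) ∈ Id (Ideal.span {p₀, p₁} ⊔ Ideal.span {l}) (1 + 1) := mem_Id.mpr ⟨hqD, hqh⟩
    obtain ⟨e, he, y, hy, he2⟩ := Submodule.mem_sup.mp (Id_sup_le P.hC P.hl.hom 1 h4)
    obtain ⟨m, hm', rfl⟩ := mem_map_mulBy.mp hy
    have he0 : e = 0 := by
      have : e ∈ Id (Ideal.span {p₀, p₁}) 2 := he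
      rw [P.Id_two h3, Submodule.mem_bot] at this
      exact this
    rw [he0, zero_add] at he2
    exact tr.indep P.hl.ne hm' he2.symm)
  have a11 : τ (s * s * v₁) = 1 := a11
  have a12 : τ (s * t * v₁) = 0 := a12
  have a13 : τ (t * t * v₁) = 0 := a13
  have a21 : τ (s * s * v₂) = 0 := a21
  have a22 : τ (s * t * v₂) = 1 := a22
  have a23 : τ (t * t * v₂) = 0 := a23
  have a31 : τ (s * s * v₃) = 0 := a31
  have a32 : τ (s * t * v₃) = 0 := a32
  have a33 : τ (t * t * v₃) = 1 := a33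
  -- elements of the growth in the ideal with the linear form
  have rel : ∀ x ∈ upC (Ideal.span {p₀, p₁}) j V, x ∈ (Ideal.span {p₀, p₁} ⊔ Ideal.span {l}) → ∃ g ∈ V, ∃ e ∈ Id (Ideal.span {p₀, p₁}) (j + 1), x = l * g + e := by
    intro x hx hxD
    have h4 : x ∈ Id (Ideal.span {p₀, p₁} ⊔ Ideal.span {l}) (j + 1) := mem_Id.mpr ⟨hxD, hU.hi hx⟩
    obtain ⟨e, he, y, hy, rfl⟩ := Submodule.mem_sup.mp (Id_sup_le P.hC P.hl.hom j h4)
    obtain ⟨g, -, rfl⟩ := mem_map_mulBy.mp hy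
    refine ⟨g, ?_, e, he, by ring⟩
    rw [hDV, mem_colon]
    have e1 : l * g = (e + l * g) - e := by ring
    rw [e1]
    exact Submodule.sub_mem _ hx (Submodule.mem_sup_right he)
  -- the relations
  obtain ⟨b, hb, e₁, he₁, R1⟩ := rel (t * v₁) (hm htS hv₁) (hkill _ (hm htS hv₁)
    (by rw [show s * (t * v₁) = s * t * v₁ by ring]; exact a12)
    (by rw [show t * (t * v₁) = t * t * v₁ by ring]; exact a13))
  obtain ⟨a, ha, e₂, he₂, R2⟩ := rel (s * v₃) (hm hsS hv₃) (hkill _ (hm hsS hv₃)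
    (by rw [show s * (s * v₃) = s * s * v₃ by ring]; exact a31)
    (by rw [show t * (s * v₃) = s * t * v₃ by ring]; exact a32))
  obtain ⟨c, hc, e₃, he₃, R3⟩ := rel (s * v₂ - t * v₃) (Submodule.sub_mem _ (hm hsS hv₂) (hm htS hv₃))
    (hkill _ (Submodule.sub_mem _ (hm hsS hv₂) (hm htS hv₃))
    (by rw [show s * (s * v₂ - t * v₃) = s * s * v₂ - s * t * v₃ by ring, map_sub, a21, a32, sub_zero])
    (by rw [show t * (s * v₂ - t * v₃) = s * t * v₂ - t * t * v₃ by ring, map_sub, a22, a33, sub_self]))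
  obtain ⟨d, hd, e₄, he₄, R4⟩ := rel (t * v₂ - s * v₁) (Submodule.sub_mem _ (hm htS hv₂) (hm hsS hv₁))
    (hkill _ (Submodule.sub_mem _ (hm htS hv₂) (hm hsS hv₁))
    (by rw [show s * (t * v₂ - s * v₁) = s * t * v₂ - s * s * v₁ by ring, map_sub, a22, a11, sub_self])
    (by rw [show t * (t * v₂ - s * v₁) = t * t * v₂ - s * t * v₁ by ring, map_sub, a23, a12, sub_zero]))
  refine ⟨v₁, v₂, v₃, a, b, c, d, e₁, e₂, e₃, e₄, tr, hV, ha, hb, hc, hd, hv₁, he₁, he₂, he₃, he₄,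
    R1, R2, R3, R4, fun x hx => ?_⟩
  have hx' : x ∈ upC (Ideal.span {p₀, p₁}) j V := hx
  obtain ⟨g, hg, e, he, hxe⟩ := rel (x - C (τ (s * x)) * (s * v₁) - C (τ (t * x)) * (t * v₃))
    (Submodule.sub_mem _ (Submodule.sub_mem _ hx' (C_mul_mem _ (hm hsS hv₁)))
      (C_mul_mem _ (hm htS hv₃)))
    (hkill _ (Submodule.sub_mem _ (Submodule.sub_mem _ hx' (C_mul_mem _ (hm hsS hv₁)))
      (C_mul_mem _ (hm htS hv₃))) (by
        have e : s * (x - C (τ (s * x)) * (s * v₁) - C (τ (t * x)) * (t * v₃))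
            = s * x - (τ (s * x)) • (s * s * v₁) - (τ (t * x)) • (s * t * v₃) := by
          simp only [smul_eq_C_mul]
          ring
        rw [e, map_sub, map_sub, map_smul, map_smul, a11, a32]
        simp) (by
        have e : t * (x - C (τ (s * x)) * (s * v₁) - C (τ (t * x)) * (t * v₃))
            = t * x - (τ (s * x)) • (s * t * v₁) - (τ (t * x)) • (t * t * v₃) := by
          simp only [smul_eq_C_mul]
          ring
        rw [e, map_sub, map_sub, map_smul, map_smul, a12, a33]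
        simp))
  refine ⟨g, hg, τ (s * x), τ (t * x), e, he, ?_⟩
  linear_combination hxe

/-- The persistence theorem. -/
theorem persist (h3 : 3 ≤ α) {j : ℕ} (hj : j + 4 = α + β) {V : Submodule K (Pol K)}
    (hV : IsSp (Ideal.span {p₀, p₁}) j V) (hW : V ⊔ Id (Ideal.span {p₀, p₁} ⊔ Ideal.span {l}) j = Sd K j)
    (hg : rk (Ideal.span {p₀, p₁}) (j + 1) (upC (Ideal.span {p₀, p₁}) j V) ≤ rk (Ideal.span {p₀, p₁}) j V + 2) {w : Pol K} (hw : w ∈ V)
    (hreg : RegMod w (Ideal.span {p₀, p₁})) : V = Sd K j := by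
  have hαβ := P.hαβ
  obtain ⟨n, rfl⟩ : ∃ n, j = n + 1 := ⟨j - 1, by omega⟩
  have s2 := T_split P.hC P.hl P.hreg hV
  rw [hW, upC_top, P.rkD_top] at s2
  have hB2 : hB α β (n + 2) = 2 := by
    simp only [hB]
    omega
  have hTT : IsSp (Ideal.span {p₀, p₁}) (n + 2) (upC (Ideal.span {p₀, p₁}) (n + 1) V) := hV.upC
  have hD : IsSp (Ideal.span {p₀, p₁}) (n + 1) (colon l (upC (Ideal.span {p₀, p₁}) (n + 1) V)) := hTT.colon (l := l) P.hl
  have m1 := IsSp.rk_mono hV hD (le_D P.hl)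
  have hg' : rk (Ideal.span {p₀, p₁}) (n + 2) (upC (Ideal.span {p₀, p₁}) (n + 1) V) ≤ rk (Ideal.span {p₀, p₁}) (n + 1) V + 2 := hg
  have hDV : V = colon l (upC (Ideal.span {p₀, p₁}) (n + 1) V) := IsSp.eq_of_rk hV hD (le_D P.hl) (by omega)
  obtain ⟨s, t, tr⟩ := exists_Tr P.hl
  obtain ⟨v₁, v₂, v₃, a, b, c, d, e₁, e₂, e₃, e₄, hRD⟩ := P.exists_RD h3 hj hV hW hDV tr
  -- the multiples of the regular form
  have hmult : ∀ i, (Sd K (i + 1)).map (mulBy w) ≤ Uk (Ideal.span {p₀, p₁}) (n + 1) V (i + 1) := by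
    intro i
    induction i with
    | zero => exact le_trans (map_le_up hw) le_sup_left
    | succ i ih =>
      rw [Submodule.map_le_iff_le_comap, ← up_top_eq (i + 1)]
      refine Submodule.mul_le.mpr fun a' ha' b' hb' => ?_
      rw [Submodule.mem_comap]
      have e1 : (mulBy w) (a' * b') = a' * (w * b') := by
        change w * (a' * b') = a' * (w * b')
        ring
      rw [e1]
      exact mem_Uk_succ ha' (ih (mem_map_mulBy.mpr ⟨b', hb', rfl⟩))
  have hwh : w.IsHomogeneous (n + 1) := hV.hi hw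
  have hq3 : IsReg3 ![α, β, n + 1] ![p₀, p₁, w] :=
    isReg3_mk P.h₀ P.h₁ hwh (by omega) (by omega) (by omega) P.h0 P.hr hreg
  have hs3 : (n + 1 + (n + 1)) + 1 + 3 = (![α, β, n + 1] : Fin 3 → ℕ) 0
      + (![α, β, n + 1] : Fin 3 → ℕ) 1 + (![α, β, n + 1] : Fin 3 → ℕ) 2 := by
    simp only [Matrix.cons_val_zero, Matrix.cons_val_one, Matrix.cons_val]
    omega
  have hTop := hq3.Sd_le_Id (K := K) hs3 (n := (n + 2 + 1) + (n + 1)) (by omega)
  rw [Fid_vec, Id_sup_eq P.hC hwh] at hTop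
  have hUk : IsSp (Ideal.span {p₀, p₁}) (n + 1 + (n + 1 + 2)) (Uk (Ideal.span {p₀, p₁}) (n + 1) V (n + 1 + 2)) := Uk_isSp hV _
  have hdeg : n + 2 + 1 + (n + 1) = n + 1 + (n + 1 + 2) := by omega
  rw [hdeg] at hTop
  have hle : Sd K (n + 1 + (n + 1 + 2)) ≤ Uk (Ideal.span {p₀, p₁}) (n + 1) V (n + 1 + 2) :=
    le_trans hTop (sup_le (hmult (n + 2)) hUk.lo)
  have h5 := (IsSp.top (Ideal.span {p₀, p₁}) (n + 1 + (n + 1 + 2))).rk_mono hUk hle
  rw [P.rk_top, hT_large (by omega)] at h5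
  have h6 := P.rk_Uk hRD (n + 1)
  have e1 : rk (Ideal.span {p₀, p₁}) (n + 1 + 1) (Uk (Ideal.span {p₀, p₁}) (n + 1) V 1) = rk (Ideal.span {p₀, p₁}) (n + 2) (upC (Ideal.span {p₀, p₁}) (n + 1) V) := rfl
  rw [e1] at h6
  -- the numerics
  have h7 := hT_succ α β (n + 1)
  have h8 := hT_succ α β (n + 2)
  rw [hT_large (n := n + 2 + 1) (by omega)] at h8
  have hb1 : hB α β (n + 1 + 1) = 2 := hB2
  have hb2 : hB α β (n + 2 + 1) = 1 := by
    simp only [hB]
    omega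
  have e2 : hT α β (n + 1 + 1) = hT α β (n + 2) := rfl
  rw [hb1, e2] at h7
  rw [hb2] at h8
  refine IsSp.eq_of_rk hV (IsSp.top _ _) hV.hi ?_
  rw [P.rk_top]
  omega

end Pr

end Vale.Agent.P200H
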