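import Vale.Agent.P200H.LemmaA

/-!
# The recursion for the growth modulo a regular pair and the low degree growth bound
-/

namespace Vale.Agent.P200H

open MvPolynomial Module Vale.Agent.P200 Vale.Agent.P200G

variable {K : Type*} [Field K]

/-- The number of lines below which a lex segment of degree `j` stays above the row `i`. -/
def RR (α β j i : ℕ) : ℕ := rowS β (j + 1) (i + 1) α

/-- The excess of a lex segment of degree `j` which meets the row `i`. -/
def gg (α β j i : ℕ) : ℕ := min α (j + 2) - max i (j + 2 - β)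

section Gen

variable {𝔠 : Ideal (Pol K)} {l : Pol K}

theorem W_isSp {V : Submodule K (Pol K)} {n : ℕ} (hV : IsSp 𝔠 n V) :
    IsSp (𝔠 ⊔ Ideal.span {l}) n (V ⊔ Id (𝔠 ⊔ Ideal.span {l}) n) :=
  ⟨le_sup_right, sup_le hV.hi (Id_le _ _)⟩

theorem rk_split (h𝔠 : HomIdeal 𝔠) (hl : Lin l) (hreg : RegMod l 𝔠) {n : ℕ}
    {V : Submodule K (Pol K)} (hV : IsSp 𝔠 (n + 1) V) :
    rk 𝔠 (n + 1) V = rk (𝔠 ⊔ Ideal.span {l}) (n + 1) (V ⊔ Id (𝔠 ⊔ Ideal.span {l}) (n + 1))
      + rk 𝔠 n (colon l V) := by
  have h := colon_split h𝔠 hl hreg hV.lo hV.hi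
  have a1 := hV.add
  have a2 := (W_isSp (l := l) hV).add
  have a3 := (hV.colon hl).add
  omega

theorem upC_W (V : Submodule K (Pol K)) (n : ℕ) :
    upC 𝔠 n V ⊔ Id (𝔠 ⊔ Ideal.span {l}) (n + 1)
      = upC (𝔠 ⊔ Ideal.span {l}) n (V ⊔ Id (𝔠 ⊔ Ideal.span {l}) n) := by
  apply le_antisymm
  · refine sup_le (sup_le ?_ ?_) le_sup_right
    · exact le_trans (up_mono le_sup_left) le_sup_left
    · exact le_trans (Id_mono le_sup_left _) le_sup_right
  · refine sup_le ?_ le_sup_right
    have h1 : up (V ⊔ Id (𝔠 ⊔ Ideal.span {l}) n) = up V ⊔ up (Id (𝔠 ⊔ Ideal.span {l}) n) :=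
      Submodule.mul_sup _ _ _
    rw [h1]
    refine sup_le ?_ ?_
    · exact le_trans le_sup_left le_sup_left
    · exact le_trans (up_Id_le _ _) le_sup_right

theorem T_split (h𝔠 : HomIdeal 𝔠) (hl : Lin l) (hreg : RegMod l 𝔠) {n : ℕ}
    {V : Submodule K (Pol K)} (hV : IsSp 𝔠 (n + 1) V) :
    rk 𝔠 (n + 2) (upC 𝔠 (n + 1) V) = rk (𝔠 ⊔ Ideal.span {l}) (n + 2)
        (upC (𝔠 ⊔ Ideal.span {l}) (n + 1) (V ⊔ Id (𝔠 ⊔ Ideal.span {l}) (n + 1)))
      + rk 𝔠 (n + 1) (colon l (upC 𝔠 (n + 1) V)) := by
  have h := rk_split h𝔠 hl hreg (n := n + 1) hV.upC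
  rw [upC_W] at h
  exact h

theorem le_D {V : Submodule K (Pol K)} (hl : Lin l) {n : ℕ} :
    V ≤ colon l (upC 𝔠 n V) := fun v hv =>
  mem_colon.mpr (Submodule.mem_sup_left (mul_mem_up hl.hom hv))

theorem upC_le_D {V : Submodule K (Pol K)} (hl : Lin l) {n : ℕ} (hV : IsSp 𝔠 (n + 1) V) :
    upC 𝔠 n (colon l V) ≤ colon l (upC 𝔠 (n + 1) V) := by
  refine sup_le ?_ (Id_le_colon hl (n := n + 1) le_sup_right)
  refine Submodule.mul_le.mpr fun a ha w hw => ?_
  rw [mem_colon]
  refine Submodule.mem_sup_left ?_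
  rw [mul_left_comm]
  exact mul_mem_up ha (mem_colon.mp hw)

end Gen

namespace Pr

variable {α β : ℕ} {p₀ p₁ l : Pol K} (P : Pr α β p₀ p₁ l)

include P

theorem rk_top (n : ℕ) : rk (Ideal.span {p₀, p₁}) n (Sd K n) = hT α β n := by
  have h := P.dC n
  simp only [rk]
  omega

theorem rkD_top (n : ℕ) : rk (Ideal.span {p₀, p₁} ⊔ Ideal.span {l}) n (Sd K n) = hB α β n := by
  have h := P.dD n
  simp only [rk]
  omega

theorem rk_le_top {n : ℕ} {V : Submodule K (Pol K)} (hV : IsSp (Ideal.span {p₀, p₁}) n V) :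
    rk (Ideal.span {p₀, p₁}) n V ≤ hT α β n := by
  rw [← P.rk_top n]
  exact hV.rk_mono (IsSp.top _ _) hV.hi

omit P in
theorem upC_top {𝔠 : Ideal (Pol K)} (n : ℕ) : upC 𝔠 n (Sd K n) = Sd K (n + 1) := by
  unfold upC
  rw [up_top_eq]
  exact sup_eq_left.mpr (Id_le _ _)

theorem E0' [Infinite K] {j : ℕ} (hj : j + 3 ≤ α + β) {V : Submodule K (Pol K)}
    (hV : IsSp (Ideal.span {p₀, p₁}) j V) (h1 : 1 ≤ rk (Ideal.span {p₀, p₁}) j V) :
    rk (Ideal.span {p₀, p₁}) j V + 1 ≤ rk (Ideal.span {p₀, p₁}) (j + 1)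
      (upC (Ideal.span {p₀, p₁}) j V) := by
  have hne : Id (Ideal.span {p₀, p₁}) j ≠ V := by
    intro h
    rw [← h, rk_bot] at h1
    omega
  have h := E0 P.h₀ P.h₁ (by have := P.hα; omega) (by have := P.hβ; omega) P.h0 P.hr j hj V hV.lo
    hV.hi hne
  have a1 := hV.add
  have a2 := hV.upC.add
  have e : finrank K (upC (Ideal.span {p₀, p₁}) j V)
      = finrank K ↥(up V ⊔ Id (Ideal.span {p₀, p₁}) (j + 1)) := rfl
  omega

theorem Id_zero : finrank K (Id (Ideal.span {p₀, p₁}) 0) = 0 := by
  have h := P.dC 0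
  rw [hT_zero (by have := P.hα; omega) (by have := P.hβ; omega), finrank_Sd] at h
  have h2 : (0 + 2).choose 2 = 1 := rfl
  omega

theorem Id_one : finrank K (Id (Ideal.span {p₀, p₁}) 1) = 0 := by
  have h := P.dC 1
  have h2 := hT_succ α β 0
  rw [hT_zero (by have := P.hα; omega) (by have := P.hβ; omega)] at h2
  have hα := P.hα
  have hβ := P.hβ
  have h3 : hB α β (0 + 1) = 2 := by simp only [hB]; omega
  rw [finrank_Sd] at h
  have h4 : (1 + 2).choose 2 = 3 := rfl
  have h5 : (0 + 1 : ℕ) = 1 := rfl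
  rw [h5] at h2 h3
  omega

/-- The low degree growth bound. -/
theorem LG [Infinite K] : ∀ (j : ℕ) (V : Submodule K (Pol K)), IsSp (Ideal.span {p₀, p₁}) j V →
    ∀ i, i < α → i ≤ j → RR α β j i < rk (Ideal.span {p₀, p₁}) j V →
      gg α β j i + rk (Ideal.span {p₀, p₁}) j V
        ≤ rk (Ideal.span {p₀, p₁}) (j + 1) (upC (Ideal.span {p₀, p₁}) j V) := by
  have hα := P.hα
  have hβ := P.hβ
  have hαβ := P.hαβ
  intro j
  induction j with
  | zero =>
    intro V hV i hi hij hR
    have hi0 : i = 0 := by omega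
    subst hi0
    have a1 := hV.add
    have a2 := hV.upC.add
    rw [P.Id_zero] at a1
    have a3 : finrank K (Id (Ideal.span {p₀, p₁}) (0 + 1)) = 0 := P.Id_one
    rw [a3] at a2
    have hle := hV.rk_mono (IsSp.top _ _) hV.hi
    rw [P.rk_top, hT_zero (by omega) (by omega)] at hle
    haveI := hV.fin
    have h3 := up_ge_three hV.hi (by omega)
    have hUle : up V ≤ upC (Ideal.span {p₀, p₁}) 0 V := le_sup_left
    haveI := hV.upC.fin
    have h4 := finrank_le_of_le hUle
    have hg : gg α β 0 0 = 2 := by simp only [gg]; omega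
    rw [hg]
    omega
  | succ j ih =>
    intro V hV i hi hij hR
    by_contra hcon
    have hC' := hV.colon (l := l) P.hl
    have hW := W_isSp (l := l) hV
    have hX := hW.upC
    have hTT := hV.upC
    have hD := hTT.colon (l := l) P.hl
    have s1 := rk_split P.hC P.hl P.hreg hV
    have s2 := T_split P.hC P.hl P.hreg hV
    have m1 := IsSp.rk_mono hV hD (le_D P.hl)
    have m2 := (IsSp.rk_mono hC'.upC hD (upC_le_D P.hl hV))
    set u := rk (Ideal.span {p₀, p₁}) (j + 1) V with hu
    set u' := rk (Ideal.span {p₀, p₁}) j (colon l V) with hu'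
    set uT := rk (Ideal.span {p₀, p₁}) (j + 1 + 1) (upC (Ideal.span {p₀, p₁}) (j + 1) V) with huT
    set ub := rk (Ideal.span {p₀, p₁} ⊔ Ideal.span {l}) (j + 1)
      (V ⊔ Id (Ideal.span {p₀, p₁} ⊔ Ideal.span {l}) (j + 1)) with hub
    set bb := rk (Ideal.span {p₀, p₁} ⊔ Ideal.span {l}) (j + 1 + 1)
      (upC (Ideal.span {p₀, p₁} ⊔ Ideal.span {l}) (j + 1)
        (V ⊔ Id (Ideal.span {p₀, p₁} ⊔ Ideal.span {l}) (j + 1))) with hbb
    set v := rk (Ideal.span {p₀, p₁}) (j + 1) (colon l (upC (Ideal.span {p₀, p₁}) (j + 1) V))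
      with hv
    have hleg : gg α β (j + 1) i ≤ hB α β (j + 1 + 1) := by
      simp only [gg, hB]
      omega
    -- the case of the whole space
    by_cases hWtop : V ⊔ Id (Ideal.span {p₀, p₁} ⊔ Ideal.span {l}) (j + 1) = Sd K (j + 1)
    · have h2 : bb = hB α β (j + 1 + 1) := by
        rw [hbb, hWtop, upC_top, P.rkD_top]
      omega
    have hubb : ub ≤ bb := P.lemmaA hW hWtop
    have hRs : RR α β (j + 1) i = RR α β j i
        + (min α (j + 2) - max (i + 1) (j + 2 - β)) := by
      simp only [RR]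
      rw [rowS_succ β (j + 1) (i + 1) (by omega)]
    by_cases hreg : α ≤ j + 2
    · -- regime of constant growth
      by_cases hij' : i = j + 1
      · subst hij'
        have h3 := P.E0' (j := j + 1) (by omega) hV (by omega)
        have hg : gg α β (j + 1) (j + 1) = 1 := by
          simp only [gg]
          omega
        rw [hg] at hcon
        omega
      · by_cases hu'R : RR α β j i < u'
        · have h3 := ih _ hC' i hi (by omega) hu'R
          have hg : gg α β (j + 1) i ≤ gg α β j i := by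
            simp only [gg]
            omega
          omega
        · simp only [gg] at hcon
          omega
    · -- regime of the polynomial ring
      have hg : gg α β (j + 1) i = j + 3 - i := by
        simp only [gg]
        omega
      by_cases hub0 : 1 ≤ ub
      · have h3 : ub + 1 ≤ bb := P.lemmaA_low (j := j + 1) (by omega) hW hub0
        by_cases hij' : i = j + 1
        · subst hij'
          omega
        · by_cases hu'R : RR α β j i < u'
          · have h4 := ih _ hC' i hi (by omega) hu'R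
            have hg2 : gg α β j i = j + 2 - i := by
              simp only [gg]
              omega
            omega
          · have h5 : min α (j + 2) - max (i + 1) (j + 2 - β) = j + 1 - i := by
              omega
            omega
      · obtain ⟨a, rfl⟩ : ∃ a, α = a + 1 := ⟨α - 1, by omega⟩
        have hRshift : RR (a + 1) β (j + 1) i = rowS β (j + 1) i a := by
          simp only [RR]
          exact rowS_shift β (j + 1) i a
        by_cases hi0 : i = 0
        · subst hi0
          have h6 : u' ≤ hT (a + 1) β j := P.rk_le_top hC'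
          have h7 : hT (a + 1) β j = rowS β (j + 1) 0 a := by
            simp only [hT]
            exact rowS_drop β (j + 1) 0 (by omega) (by omega)
          omega
        · obtain ⟨i', rfl⟩ : ∃ i', i = i' + 1 := ⟨i - 1, by omega⟩
          have h8 : RR (a + 1) β j i' = rowS β (j + 1) (i' + 1) a := by
            simp only [RR]
            exact rowS_drop β (j + 1) (i' + 1) (by omega) (by omega)
          have h9 := ih _ hC' i' (by omega) (by omega) (by omega)
          have hg3 : gg (a + 1) β j i' = j + 2 - i' := by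
            simp only [gg]
            omega
          omega

end Pr

end Vale.Agent.P200H
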