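import Vale.Agent.P200H.Num
import Vale.Agent.P200G.BaseChange

/-!
# Subspaces modulo a homogeneous ideal: relative dimension and growth
-/

namespace Vale.Agent.P200H

open MvPolynomial Module Vale.Agent.P200 Vale.Agent.P200G

variable {K : Type*} [Field K]

/-- A subspace of the forms of degree `j` containing the degree `j` part of the ideal. -/
structure IsSp (𝔠 : Ideal (Pol K)) (j : ℕ) (V : Submodule K (Pol K)) : Prop where
  lo : Id 𝔠 j ≤ V
  hi : V ≤ Sd K j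

/-- The relative dimension. -/
noncomputable def rk (𝔠 : Ideal (Pol K)) (j : ℕ) (V : Submodule K (Pol K)) : ℕ :=
  finrank K V - finrank K (Id 𝔠 j)

/-- The growth modulo the ideal. -/
noncomputable def upC (𝔠 : Ideal (Pol K)) (j : ℕ) (V : Submodule K (Pol K)) :
    Submodule K (Pol K) := up V ⊔ Id 𝔠 (j + 1)

namespace IsSp

variable {𝔠 : Ideal (Pol K)} {j : ℕ} {V V' : Submodule K (Pol K)}

theorem fin (h : IsSp 𝔠 j V) : FiniteDimensional K V := finDim h.hi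

theorem add (h : IsSp 𝔠 j V) : finrank K V = rk 𝔠 j V + finrank K (Id 𝔠 j) := by
  haveI := h.fin
  have := finrank_le_of_le h.lo
  unfold rk
  omega

theorem rk_mono (h : IsSp 𝔠 j V) (h' : IsSp 𝔠 j V') (hle : V ≤ V') : rk 𝔠 j V ≤ rk 𝔠 j V' := by
  haveI := h'.fin
  have h1 := finrank_le_of_le hle
  have h2 := h.add
  have h3 := h'.add
  omega

theorem eq_of_rk (h : IsSp 𝔠 j V) (h' : IsSp 𝔠 j V') (hle : V ≤ V')
    (hr : rk 𝔠 j V' ≤ rk 𝔠 j V) : V = V' := by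
  haveI := h'.fin
  have h2 := h.add
  have h3 := h'.add
  exact Submodule.eq_of_le_of_finrank_le hle (by omega)

theorem upC (h : IsSp 𝔠 j V) : IsSp 𝔠 (j + 1) (upC 𝔠 j V) :=
  ⟨le_sup_right, sup_le (up_le h.hi) (Id_le _ _)⟩

theorem top (𝔠 : Ideal (Pol K)) (j : ℕ) : IsSp 𝔠 j (Sd K j) := ⟨Id_le _ _, le_rfl⟩

theorem bot (𝔠 : Ideal (Pol K)) (j : ℕ) : IsSp 𝔠 j (Id 𝔠 j) := ⟨le_rfl, Id_le _ _⟩

theorem colon {l : Pol K} (hl : Lin l) {n : ℕ} (h : IsSp 𝔠 (n + 1) V) :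
    IsSp 𝔠 n (colon l V) := ⟨Id_le_colon hl h.lo, colon_le hl h.hi⟩

theorem rk_eq_zero_iff (h : IsSp 𝔠 j V) : rk 𝔠 j V = 0 ↔ V = Id 𝔠 j := by
  constructor
  · intro h0
    exact (eq_of_rk (bot 𝔠 j) h h.lo (by omega)).symm
  · rintro rfl
    simp [rk]

end IsSp

theorem rk_bot (𝔠 : Ideal (Pol K)) (j : ℕ) : rk 𝔠 j (Id 𝔠 j) = 0 := by simp [rk]

theorem upC_mono {𝔠 : Ideal (Pol K)} {j : ℕ} {V V' : Submodule K (Pol K)} (h : V ≤ V') :
    upC 𝔠 j V ≤ upC 𝔠 j V' := sup_le_sup_right (up_mono h) _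

/-- The degree part of the ideal with one more generator in low degree. -/
theorem Id_sup_low {𝔠 : Ideal (Pol K)} (h𝔠 : HomIdeal 𝔠) {g : Pol K} {δ : ℕ}
    (hg : g.IsHomogeneous δ) {n : ℕ} (hn : n < δ) : Id (𝔠 ⊔ Ideal.span {g}) n = Id 𝔠 n := by
  apply le_antisymm
  · intro q hq
    rw [mem_Id] at hq ⊢
    obtain ⟨c, hc, b, hb, rfl⟩ := Submodule.mem_sup.mp hq.1
    obtain ⟨a, rfl⟩ := Ideal.mem_span_singleton'.mp hb
    have h1 := homogeneousComponent_eq_self hq.2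
    rw [map_add, hc_mul_lt hg _ hn, add_zero] at h1
    exact ⟨by rw [← h1]; exact h𝔠 c hc n, hq.2⟩
  · exact Id_mono le_sup_left n

/-- Adding a regular form to an ideal. -/
theorem reg_add {𝔠 : Ideal (Pol K)} (h𝔠 : HomIdeal 𝔠) {g : Pol K} {δ : ℕ}
    (hg : g.IsHomogeneous δ) (hg0 : g ≠ 0) (hreg : RegMod g 𝔠) (k : ℕ) :
    finrank K (Id (𝔠 ⊔ Ideal.span {g}) (k + δ)) + finrank K (Id 𝔠 k)
      = finrank K (Sd K k) + finrank K (Id 𝔠 (k + δ)) := by
  have h := regular_dim (𝔠 := 𝔠) (V := Sd K k) (t := k) hg hg0 hreg (Id_le _ _) le_rfl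
  rw [← Id_sup_eq h𝔠 hg] at h
  exact h

theorem cc_nat (n : ℕ) : cc (n : ℤ) = (n + 2).choose 2 := by
  unfold cc
  congr 1

/-- The Hilbert function of a regular pair. -/
theorem finrank_pair {p₀ p₁ : Pol K} {α β : ℕ} (h₀ : p₀.IsHomogeneous α)
    (h₁ : p₁.IsHomogeneous β) (hα : 0 < α) (hβ : 0 < β) (h0 : p₀ ≠ 0)
    (hr : RegMod p₁ (Ideal.span {p₀})) (n : ℕ) :
    finrank K (Sd K n) = finrank K (Id (Ideal.span {p₀, p₁}) n) + hT α β n := by
  have hp1 : p₁ ≠ 0 := by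
    rintro rfl
    exact one_not_mem_singleton h₀ hα (hr 1 (by simp))
  have hS := homIdeal_singleton h₀
  have hc := hT_cc α β n
  have hsing := finrank_singleton h₀ h0 n
  rw [finrank_Sd, ← cc_nat n]
  by_cases hn : n < β
  · have h1 : Id (Ideal.span {p₀, p₁}) n = Id (Ideal.span {p₀}) n := by
      rw [← span_sup_singleton]
      exact Id_sup_low hS h₁ hn
    rw [h1, hsing]
    rw [cc_neg (show (n : ℤ) - β < 0 by omega), cc_neg (show (n : ℤ) - α - β < 0 by omega)] at hc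
    omega
  · obtain ⟨k, rfl⟩ : ∃ k, n = k + β := ⟨n - β, by omega⟩
    have h1 := reg_add hS h₁ hp1 hr k
    rw [span_sup_singleton, finrank_Sd, ← cc_nat k, finrank_singleton h₀ h0,
      finrank_singleton h₀ h0] at h1
    have e1 : (((k + β : ℕ) : ℤ)) - β = (k : ℤ) := by push_cast; ring
    have e2 : (((k + β : ℕ) : ℤ)) - α - β = (k : ℤ) - α := by push_cast; ring
    rw [e1, e2] at hc
    omega

end Vale.Agent.P200H
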